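import Vale.Agent.Lib.P045R.Terr

namespace Vale.Agent.Lib.P045R

open Finset
open scoped Classical

universe u

variable {V : Type u} [Fintype V] [DecidableEq V]

/-! PART Basic. -/

theorem mem_ends {M : Finset (Finset V)} {c e : Finset V} :
    e ∈ ends M c ↔ e ∈ M ∧ (e ∩ c).Nonempty := by
  simp [ends]

theorem covers_mono {T T' : Finset V} {F : Finset (Finset V)} (h : T ⊆ T') (hc : Covers T F) :
    Covers T' F := by
  intro B hB
  obtain ⟨x, hx⟩ := hc B hB
  exact ⟨x, mem_inter.2 ⟨h (mem_inter.1 hx).1, (mem_inter.1 hx).2⟩⟩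

theorem covers_anti {T : Finset V} {F F' : Finset (Finset V)} (h : F' ⊆ F) (hc : Covers T F) :
    Covers T F' := fun B hB => hc B (h hB)

/-- A maximum matching satisfies `NoAug`. -/
theorem noAug_of_max {H M : Finset (Finset V)} (hMH : M ⊆ H) (hM : PD M)
    (hmax : ∀ M' ⊆ H, PD M' → M'.card ≤ M.card) (hne : ∀ c ∈ H, c.Nonempty) : NoAug H M := by
  intro S hSH hS
  set E := endsOf M S with hE
  have hEM : E ⊆ M := by
    intro e he
    obtain ⟨c, _, hc⟩ := mem_biUnion.1 he
    exact (mem_ends.1 hc).1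
  have hdisj : Disjoint S (M \ E) := by
    refine Finset.disjoint_left.2 ?_
    intro c hc hc2
    obtain ⟨hcM, hcE⟩ := mem_sdiff.1 hc2
    apply hcE
    obtain ⟨x, hx⟩ := hne c (hSH hc)
    exact mem_biUnion.2 ⟨c, hc, mem_ends.2 ⟨hcM, x, mem_inter.2 ⟨hx, hx⟩⟩⟩
  have hPD : PD (S ∪ (M \ E)) := by
    intro a ha b hb hab
    rcases mem_union.1 (mem_coe.1 ha) with ha1 | ha1 <;> rcases mem_union.1 (mem_coe.1 hb) with hb1 | hb1
    · exact hS (mem_coe.2 ha1) (mem_coe.2 hb1) hab
    · obtain ⟨hbM, hbE⟩ := mem_sdiff.1 hb1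
      change Disjoint a b
      rw [Finset.disjoint_iff_inter_eq_empty]
      by_contra hne2
      apply hbE
      obtain ⟨x, hx⟩ := Finset.nonempty_iff_ne_empty.2 hne2
      exact mem_biUnion.2 ⟨a, ha1, mem_ends.2 ⟨hbM, x, by
        rw [mem_inter] at hx ⊢
        exact ⟨hx.2, hx.1⟩⟩⟩
    · obtain ⟨haM, haE⟩ := mem_sdiff.1 ha1
      change Disjoint a b
      rw [Finset.disjoint_iff_inter_eq_empty]
      by_contra hne2
      apply haE
      obtain ⟨x, hx⟩ := Finset.nonempty_iff_ne_empty.2 hne2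
      exact mem_biUnion.2 ⟨b, hb1, mem_ends.2 ⟨haM, x, hx⟩⟩
    · exact hM (mem_coe.2 (mem_sdiff.1 ha1).1) (mem_coe.2 (mem_sdiff.1 hb1).1) hab
  have hsub : S ∪ (M \ E) ⊆ H := by
    intro c hc
    rcases mem_union.1 hc with h1 | h1
    · exact hSH h1
    · exact hMH (mem_sdiff.1 h1).1
  have h1 := hmax _ hsub hPD
  rw [Finset.card_union_of_disjoint hdisj, Finset.card_sdiff_of_subset hEM] at h1
  have h2 := Finset.card_le_card hEM
  omega

theorem tt_mono : Monotone tt := by
  refine monotone_nat_of_le_succ ?_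
  intro n
  change tt n ≤ 5 * tt n + 1
  omega

theorem sig_le_sBig {J j : ℕ} (h : j ≤ J + 1) : sig (tt j) 10 12 ≤ sBig J := by
  unfold sBig
  exact Finset.single_le_sum (f := fun j => sig (tt j) 10 12) (fun _ _ => Nat.zero_le _)
    (mem_range.2 (by omega))

/-- At most `6` bags are touched, for pairwise disjoint bags and a `6`-set. -/
theorem ends_card_le {M : Finset (Finset V)} (hM : PD M) {c : Finset V} (hc : c.card = 6) :
    (ends M c).card ≤ 6 := by
  have hdisj : ((ends M c : Finset (Finset V)) : Set (Finset V)).PairwiseDisjoint (fun e => e ∩ c) := by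
    intro a ha b hb hab
    have ha' := (mem_ends.1 (mem_coe.1 ha)).1
    have hb' := (mem_ends.1 (mem_coe.1 hb)).1
    have h0 : Disjoint a b := hM (mem_coe.2 ha') (mem_coe.2 hb') hab
    exact Finset.disjoint_of_subset_left inter_subset_left
      (Finset.disjoint_of_subset_right inter_subset_left h0)
  have h1 : ((ends M c).biUnion fun e => e ∩ c).card = ∑ e ∈ ends M c, (e ∩ c).card :=
    Finset.card_biUnion hdisj
  have h2 : ((ends M c).biUnion fun e => e ∩ c) ⊆ c := by
    intro x hx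
    obtain ⟨e, _, hx2⟩ := mem_biUnion.1 hx
    exact (mem_inter.1 hx2).2
  have h3 := Finset.card_le_card h2
  have h4 : (ends M c).card ≤ ∑ e ∈ ends M c, (e ∩ c).card := by
    rw [Finset.card_eq_sum_ones]
    refine Finset.sum_le_sum ?_
    intro e he
    exact Finset.card_pos.2 (mem_ends.1 he).2
  omega

theorem strFam_card_le {H M : Finset (Finset V)} (h6 : ∀ c ∈ H, c.card = 6) {t : ℕ}
    {e B : Finset V} (hB : B ∈ strFam H M t e) : B.card ≤ 6 * t := by
  obtain ⟨S, hS, rfl⟩ := mem_image.1 hB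
  have hS' : IsStr H M t e S := (mem_filter.1 hS).2
  have h1 : (vset S).card ≤ S.card * 6 :=
    Finset.card_biUnion_le_card_mul _ _ _ (fun c hc => (h6 c (hS'.1 hc)).le)
  have h2 := hS'.2.2.2.2
  nlinarith

theorem strFam_mono {H M : Finset (Finset V)} {t t' : ℕ} (h : t ≤ t') (e : Finset V) :
    strFam H M t e ⊆ strFam H M t' e := by
  intro B hB
  obtain ⟨S, hS, rfl⟩ := mem_image.1 hB
  have hS' : IsStr H M t e S := (mem_filter.1 hS).2
  refine mem_image.2 ⟨S, mem_filter.2 ⟨mem_univ _, ?_⟩, rfl⟩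
  exact ⟨hS'.1, hS'.2.1, hS'.2.2.1, hS'.2.2.2.1, hS'.2.2.2.2.trans h⟩

theorem not_covers_strFam {H M : Finset (Finset V)} {t : ℕ} {e T : Finset V} :
    ¬ Covers T (strFam H M t e) ↔ ∃ S, IsStr H M t e S ∧ Disjoint (vset S) T := by
  constructor
  · intro h
    unfold Covers at h
    push Not at h
    obtain ⟨B, hB, hB2⟩ := h
    obtain ⟨S, hS, rfl⟩ := mem_image.1 hB
    refine ⟨S, (mem_filter.1 hS).2, ?_⟩
    rw [Finset.disjoint_iff_inter_eq_empty, Finset.inter_comm]
    exact hB2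
  · rintro ⟨S, hS, hd⟩ hc
    have hB : vset S ∈ strFam H M t e := mem_image.2 ⟨S, mem_filter.2 ⟨mem_univ _, hS⟩, rfl⟩
    have h1 := hc _ hB
    rw [Finset.disjoint_iff_inter_eq_empty, Finset.inter_comm] at hd
    rw [hd] at h1
    exact Finset.not_nonempty_empty h1

theorem terrBig_card {H M : Finset (Finset V)} (h6 : ∀ c ∈ H, c.card = 6) (J : ℕ) {e : Finset V}
    (he : e.card = 6) : (terrBig H M J e).card ≤ tBd J := by
  unfold terrBig tBd
  refine (Finset.card_union_le _ _).trans ?_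
  rw [he]
  refine Nat.add_le_add_left ?_ 6
  refine Finset.card_biUnion_le.trans ?_
  refine Finset.sum_le_sum ?_
  intro j _
  exact terrOf_card (fun B hB => strFam_card_le h6 hB)

/-- Structures survive restriction: an edge avoiding a closed set touches no dead bag. -/
theorem endsOf_restr {M : Finset (Finset V)} {D : Finset V} (hD : closedD M D)
    {S : Finset (Finset V)} (hS : ∀ c ∈ S, Disjoint c D) : endsOf (alive M D) S = endsOf M S := by
  ext e
  simp only [endsOf, mem_biUnion, mem_ends]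
  constructor
  · rintro ⟨c, hc, he, hne⟩
    exact ⟨c, hc, (mem_filter.1 he).1, hne⟩
  · rintro ⟨c, hc, he, hne⟩
    refine ⟨c, hc, mem_filter.2 ⟨he, ?_⟩, hne⟩
    rw [Finset.disjoint_iff_inter_eq_empty]
    by_contra h
    have h1 : e ⊆ D := hD e he (Finset.nonempty_iff_ne_empty.2 h)
    obtain ⟨x, hx⟩ := hne
    obtain ⟨hx1, hx2⟩ := mem_inter.1 hx
    exact (Finset.disjoint_left.1 (hS c hc)) hx2 (h1 hx1)

theorem strFam_restr_mono {H M : Finset (Finset V)} {D D' : Finset V} (h : D ⊆ D')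
    (hD : closedD M D) (hD' : closedD M D') (t : ℕ) (e : Finset V) :
    strFam (restr H D') (alive M D') t e ⊆ strFam (restr H D) (alive M D) t e := by
  intro B hB
  obtain ⟨S, hS, rfl⟩ := mem_image.1 hB
  have hS' : IsStr (restr H D') (alive M D') t e S := (mem_filter.1 hS).2
  have h1 : ∀ c ∈ S, Disjoint c D' := fun c hc => (mem_filter.1 (hS'.1 hc)).2
  have h2 : ∀ c ∈ S, Disjoint c D := fun c hc => Finset.disjoint_of_subset_right h (h1 c hc)
  have h3 : endsOf (alive M D') S = endsOf (alive M D) S := by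
    rw [endsOf_restr hD' h1, endsOf_restr hD h2]
  refine mem_image.2 ⟨S, mem_filter.2 ⟨mem_univ _, ?_⟩, rfl⟩
  refine ⟨?_, hS'.2.1, ?_, ?_, hS'.2.2.2.2⟩
  · intro c hc
    exact mem_filter.2 ⟨(mem_filter.1 (hS'.1 hc)).1, h2 c hc⟩
  · rw [← h3]
    exact hS'.2.2.1
  · rw [← h3]
    exact hS'.2.2.2.1

theorem noAug_restr {H M : Finset (Finset V)} {D : Finset V} (hD : closedD M D)
    (h : NoAug H M) : NoAug (restr H D) (alive M D) := by
  intro S hS hPD
  rw [endsOf_restr hD (fun c hc => (mem_filter.1 (hS hc)).2)]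
  exact h S (fun c hc => (mem_filter.1 (hS hc)).1) hPD

end Vale.Agent.Lib.P045R
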