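import Mathlib

/-! Definitions for the theorem tau <= (6 - eps) nu on 6-partite hypergraphs. See notes/P045R_blueprint.md. -/

namespace Vale.Agent.Lib.P045R

open Finset
open scoped Classical

universe u

variable {V : Type u} [Fintype V] [DecidableEq V]

/-- `T` meets every member of `F`. -/
def Covers (T : Finset V) (F : Finset (Finset V)) : Prop := ∀ B ∈ F, (T ∩ B).Nonempty

/-- The bags of `M` touched by `c`. -/
noncomputable def ends (M : Finset (Finset V)) (c : Finset V) : Finset (Finset V) :=
  M.filter fun e => (e ∩ c).Nonempty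

/-- The bags of `M` touched by the edges of `S`. -/
noncomputable def endsOf (M S : Finset (Finset V)) : Finset (Finset V) := S.biUnion (ends M)

/-- The vertices of the edges of `S`. -/
noncomputable def vset (S : Finset (Finset V)) : Finset V := S.biUnion id

/-- Pairwise disjoint edges. -/
def PD (S : Finset (Finset V)) : Prop := (S : Set (Finset V)).PairwiseDisjoint id

/-- No set of pairwise disjoint edges has more edges than bags touched. -/
def NoAug (H M : Finset (Finset V)) : Prop :=
  ∀ S ⊆ H, PD S → S.card ≤ (endsOf M S).card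

/-- A structure at the bag `e` with at most `t` edges. -/
def IsStr (H M : Finset (Finset V)) (t : ℕ) (e : Finset V) (S : Finset (Finset V)) : Prop :=
  S ⊆ H ∧ PD S ∧ (endsOf M S).card ≤ S.card ∧ e ∈ endsOf M S ∧ S.card ≤ t

/-- Vertex sets of the structures at `e` with at most `t` edges. -/
noncomputable def strFam (H M : Finset (Finset V)) (t : ℕ) (e : Finset V) : Finset (Finset V) :=
  ((univ : Finset (Finset (Finset V))).filter fun S => IsStr H M t e S).image vset

/-- Inclusion-minimal covers of `F` with at most `s` vertices. -/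
noncomputable def minCov (s : ℕ) (F : Finset (Finset V)) : Finset (Finset V) :=
  (univ : Finset (Finset V)).filter fun Z =>
    Z.card ≤ s ∧ Covers Z F ∧ ∀ z ∈ Z, ¬ Covers (Z.erase z) F

/-- Union of the minimal covers with at most `s` vertices. -/
noncomputable def terrOf (s : ℕ) (F : Finset (Finset V)) : Finset V := (minCov s F).biUnion id

/-- Level sizes: `1, 6, 31, ...`. -/
def tt : ℕ → ℕ
  | 0 => 1
  | j + 1 => 5 * tt j + 1

/-- The bound in the kernel lemma. -/
def kerBd : ℕ → ℕ → ℕ
  | 0, _ => 0
  | a + 1, b => b * (1 + kerBd a b)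

/-- The bound on skew systems. -/
def skewBd : ℕ → ℕ → ℕ
  | 0, _ => 1
  | a + 1, R => 1 + R * skewBd a R

/-- Scale recursion for the joint choice of structures. -/
def sig (t : ℕ) : ℕ → ℕ → ℕ
  | 0, τ => τ
  | n + 1, τ => τ + n * kerBd (sig t n (τ + 6 * t)) (6 * t)

/-- The big scale for `J` levels. -/
def sBig (J : ℕ) : ℕ := (range (J + 2)).sum fun j => sig (tt j) 10 12

/-- Territory of the bag `e`. -/
noncomputable def terrBig (H M : Finset (Finset V)) (J : ℕ) (e : Finset V) : Finset V :=
  e ∪ (range (J + 2)).biUnion fun j => terrOf (sBig J) (strFam H M (tt j) e)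

/-- A bound on the size of territories. -/
def tBd (J : ℕ) : ℕ := 6 + (range (J + 2)).sum fun j => kerBd (sBig J) (6 * tt j)

/-- Edges avoiding `D`. -/
noncomputable def restr (H : Finset (Finset V)) (D : Finset V) : Finset (Finset V) :=
  H.filter fun c => Disjoint c D

/-- Bags avoiding `D`. -/
noncomputable def alive (M : Finset (Finset V)) (D : Finset V) : Finset (Finset V) :=
  M.filter fun e => Disjoint e D

/-- `D` contains every bag it touches. -/
def closedD (M : Finset (Finset V)) (D : Finset V) : Prop := ∀ e ∈ M, (e ∩ D).Nonempty → e ⊆ D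

/-- The bags all of whose territory vertices lie in fewer than `L` territories. -/
noncomputable def lowSet (H M : Finset (Finset V)) (J L : ℕ) : Finset (Finset V) :=
  M.filter fun e => ∀ z ∈ terrBig H M J e, (M.filter fun e' => z ∈ terrBig H M J e').card < L

/-- Edges living on `A` that are blocked at all their bags except `e`. -/
noncomputable def Fo (H M A : Finset (Finset V)) (j : ℕ) (e : Finset V) : Finset (Finset V) :=
  H.filter fun g => ends M g ⊆ A ∧ e ∈ ends M g ∧
    ∀ a ∈ ends M g, a ≠ e → ¬ Covers g (strFam H M (tt j) a)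

/-- The properties of the selected set of bags. -/
structure Good (H M A : Finset (Finset V)) (J : ℕ) : Prop where
  sub : A ⊆ M
  far : ∀ a ∈ A, ∀ b ∈ A, a ≠ b → Disjoint (terrBig H M J a) (terrBig H M J b)
  claimA : ∀ c ∈ H, ends M c ⊆ A → ∀ j ≤ J + 1, ∃ e ∈ ends M c, Covers c (strFam H M (tt j) e)
  typeA : ∀ e ∈ A, ∀ g ∈ Fo H M A J e, ∀ g' ∈ Fo H M A J e, (g ∩ g').Nonempty
  typeB : ∀ e ∈ A, ∀ j ≤ J, ∀ c ∈ H, ends M c ⊆ A → ∀ g ∈ Fo H M A j e,
    Covers c (strFam H M (tt (j + 1)) e) → (c ∩ g).Nonempty

/-- The parts met by a set. -/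
def partsOf (part : V → Fin 6) (Q : Finset V) : Finset (Fin 6) := Q.image part

/-- At most one vertex in each part. -/
def Trans (part : V → Fin 6) (Q : Finset V) : Prop := ∀ i, (Q.filter fun v => part v = i).card ≤ 1

/-- Exactly one vertex in each part. -/
def Edge6 (part : V → Fin 6) (g : Finset V) : Prop := ∀ i, (g.filter fun v => part v = i).card = 1

end Vale.Agent.Lib.P045R
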