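import Vale.Agent.Lib.P045R.Indep

namespace Vale.Agent.Lib.P045R

open Finset

universe u v

/-- The scales of the gap selection. -/
def gapScale (B d K : ℕ) : ℕ → ℕ
  | 0 => 1
  | i + 1 => K * (B * (2 * (2 * (d + B * gapScale B d K i) + 1))) + gapScale B d K i + 1

theorem gapScale_mono (B d K : ℕ) : Monotone (gapScale B d K) := by
  apply monotone_nat_of_le_succ
  intro i
  show gapScale B d K i ≤ K * (B * (2 * (2 * (d + B * gapScale B d K i) + 1))) + gapScale B d K i + 1
  omega

/-- PART Gap. Select many bags whose sets `W` pairwise meet only inside a very small set `Hb`.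
Proof: scales with gaps, see the blueprint. -/
theorem gap_select (B d K : ℕ) : ∃ K' : ℕ, 0 < K' ∧
    ∀ {β : Type v} {V : Type u} [DecidableEq β] [DecidableEq V] (X : Finset β) (W : β → Finset V)
      (out : β → Finset β), (∀ x ∈ X, (W x).card ≤ B) → (∀ x ∈ X, (out x).card ≤ d) →
      ∃ A ⊆ X, ∃ Hb : Finset V, X.card ≤ K' * A.card ∧ K * Hb.card ≤ A.card ∧
        (∀ a ∈ A, ∀ b ∈ A, b ∈ out a → b = a) ∧
        ∀ a ∈ A, ∀ b ∈ A, a ≠ b → W a ∩ W b ⊆ Hb := by
  refine ⟨2 * (2 * (d + B * gapScale B d K (2 * B + 1)) + 1), by positivity, ?_⟩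
  intro β V _ _ X W out hW hout
  classical
  set sc := gapScale B d K with hsc
  have hmono : Monotone sc := gapScale_mono B d K
  have hstep : ∀ i, sc (i + 1) = K * (B * (2 * (2 * (d + B * sc i) + 1))) + sc i + 1 := fun i => rfl
  have hpos : ∀ i, 0 < sc i := by
    intro i
    cases i with
    | zero => show 0 < gapScale B d K 0; simp [gapScale]
    | succ i => rw [hstep]; omega
  let deg : V → ℕ := fun z => (X.filter fun x => z ∈ W x).card
  let Med : ℕ → Finset β := fun i =>
    X.filter fun x => ∃ z ∈ W x, sc i ≤ deg z ∧ deg z < sc (i + 1)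
  have hMedsub : ∀ i, Med i ⊆ X := fun i => filter_subset _ _
  -- each `x` lies in at most `B` of the `Med i`
  have hcount : ∀ x ∈ X, ((range (2 * B + 1)).filter fun i => x ∈ Med i).card ≤ B := by
    intro x hx
    have hch : ∀ i ∈ (range (2 * B + 1)).filter (fun i => x ∈ Med i),
        ∃ z ∈ W x, sc i ≤ deg z ∧ deg z < sc (i + 1) := by
      intro i hi
      exact (mem_filter.1 (mem_filter.1 hi).2).2
    rcases ((range (2 * B + 1)).filter fun i => x ∈ Med i).eq_empty_or_nonempty with hemp | ⟨i0, hi0⟩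
    · rw [hemp]; simp
    haveI : Nonempty V := ⟨(hch i0 hi0).choose⟩
    choose! f hf using hch
    refine le_trans (card_le_card_of_injOn f (fun i hi => (hf i hi).1) ?_) (hW x hx)
    intro i hi j hj hij
    have h1 := hf i hi
    have h2 := hf j hj
    by_contra hne
    rcases Nat.lt_or_gt_of_ne hne with hlt | hlt
    · have := hmono (Nat.succ_le_of_lt hlt)
      have h3 := h1.2.2
      have h4 := h2.2.1
      rw [← hij] at h4
      simp only [Nat.succ_eq_add_one] at this
      omega
    · have := hmono (Nat.succ_le_of_lt hlt)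
      have h3 := h2.2.2
      have h4 := h1.2.1
      rw [hij] at h4
      simp only [Nat.succ_eq_add_one] at this
      omega
  have hsum : ∑ i ∈ range (2 * B + 1), (Med i).card ≤ B * X.card := by
    have h1 : ∑ i ∈ range (2 * B + 1), (Med i).card
        = ∑ x ∈ X, ((range (2 * B + 1)).filter fun i => x ∈ Med i).card := by
      have := sum_card_bipartiteAbove_eq_sum_card_bipartiteBelow
        (s := range (2 * B + 1)) (t := X) (fun i x => x ∈ Med i)
      simp only [bipartiteAbove, bipartiteBelow] at this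
      rw [← this]
      refine sum_congr rfl fun i _ => ?_
      congr 1
      ext x
      simp only [mem_filter]
      constructor
      · intro h; exact ⟨hMedsub i h, h⟩
      · intro h; exact h.2
    rw [h1]
    calc ∑ x ∈ X, ((range (2 * B + 1)).filter fun i => x ∈ Med i).card
        ≤ ∑ _x ∈ X, B := sum_le_sum hcount
      _ = B * X.card := by simp [mul_comm]
  -- pick a light level
  obtain ⟨i, hi, hMedi⟩ : ∃ i ∈ range (2 * B + 1), 2 * (Med i).card ≤ X.card := by
    by_contra hcon
    push Not at hcon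
    have h2 : ∑ _i ∈ range (2 * B + 1), X.card ≤ ∑ i ∈ range (2 * B + 1), 2 * (Med i).card :=
      sum_le_sum fun i hi => (hcon i hi).le
    rw [← mul_sum] at h2
    simp only [sum_const, card_range, smul_eq_mul] at h2
    have h3 : X.card = 0 := by nlinarith
    have h4 := hcon 0 (by simp)
    have h5 := card_le_card (hMedsub 0)
    omega
  let X1 : Finset β := X \ Med i
  have hX1sub : X1 ⊆ X := sdiff_subset
  have hX1card : X.card ≤ 2 * X1.card := by
    have := card_sdiff_add_card_eq_card (hMedsub i)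
    show X.card ≤ 2 * (X \ Med i).card
    omega
  let Hb : Finset V := (X.biUnion W).filter fun z => sc (i + 1) ≤ deg z
  have hHb : Hb.card * sc (i + 1) ≤ B * X.card := by
    have h1 : Hb.card * sc (i + 1) ≤ ∑ z ∈ Hb, deg z := by
      have := card_nsmul_le_sum Hb deg (sc (i + 1)) (fun z hz => (mem_filter.1 hz).2)
      simpa [smul_eq_mul] using this
    have h2 : ∑ z ∈ Hb, deg z ≤ ∑ z ∈ X.biUnion W, deg z :=
      sum_le_sum_of_subset (filter_subset _ _)
    have h3 : ∑ z ∈ X.biUnion W, deg z = ∑ x ∈ X, (W x).card := by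
      have := sum_card_bipartiteAbove_eq_sum_card_bipartiteBelow
        (s := X) (t := X.biUnion W) (fun x z => z ∈ W x)
      simp only [bipartiteAbove, bipartiteBelow] at this
      rw [show ∑ z ∈ X.biUnion W, deg z = _ from this.symm]
      refine sum_congr rfl fun x hx => ?_
      congr 1
      ext z
      simp only [mem_filter, mem_biUnion]
      constructor
      · intro h; exact h.2
      · intro h; exact ⟨⟨x, hx, h⟩, h⟩
    have h4 : ∑ x ∈ X, (W x).card ≤ B * X.card := by
      calc ∑ x ∈ X, (W x).card ≤ ∑ _x ∈ X, B := sum_le_sum hW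
        _ = B * X.card := by simp [mul_comm]
    omega
  -- low degree vertices of elements of `X1`
  have hlow : ∀ a ∈ X1, ∀ z ∈ W a, z ∉ Hb → deg z < sc i := by
    intro a ha z hz hzH
    have haX := hX1sub ha
    have haM : a ∉ Med i := (mem_sdiff.1 ha).2
    have h1 : deg z < sc (i + 1) := by
      by_contra hcon
      exact hzH (mem_filter.2 ⟨mem_biUnion.2 ⟨a, haX, hz⟩, not_lt.1 hcon⟩)
    by_contra hcon
    exact haM (mem_filter.2 ⟨haX, z, hz, not_lt.1 hcon, h1⟩)
  let out' : β → Finset β := fun a => out a ∪ X1.filter fun y => ∃ z ∈ W a, z ∈ W y ∧ z ∉ Hb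
  have hout' : ∀ a ∈ X1, (out' a).card ≤ d + B * sc i := by
    intro a ha
    have haX := hX1sub ha
    refine le_trans (card_union_le _ _) (Nat.add_le_add (hout a haX) ?_)
    have hsub : (X1.filter fun y => ∃ z ∈ W a, z ∈ W y ∧ z ∉ Hb)
        ⊆ ((W a).filter fun z => deg z < sc i).biUnion fun z => X.filter fun x => z ∈ W x := by
      intro y hy
      obtain ⟨hy1, z, hz, hzy, hzH⟩ := mem_filter.1 hy
      exact mem_biUnion.2 ⟨z, mem_filter.2 ⟨hz, hlow a ha z hz hzH⟩,
        mem_filter.2 ⟨hX1sub hy1, hzy⟩⟩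
    refine le_trans (card_le_card hsub) (le_trans card_biUnion_le ?_)
    have h1 : ∑ z ∈ (W a).filter (fun z => deg z < sc i), (X.filter fun x => z ∈ W x).card
        ≤ ((W a).filter fun z => deg z < sc i).card • sc i := by
      refine sum_le_card_nsmul _ _ _ fun z hz => ?_
      exact (mem_filter.1 hz).2.le
    refine le_trans h1 ?_
    rw [smul_eq_mul]
    exact Nat.mul_le_mul_right _ (le_trans (card_filter_le _ _) (hW a haX))
  obtain ⟨A, hA, hAcard, hAind⟩ := exists_indep X1 out' (d + B * sc i) hout'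
  refine ⟨A, hA.trans hX1sub, Hb, ?_, ?_, ?_, ?_⟩
  · -- size of `A`
    have hile : sc i ≤ sc (2 * B + 1) := hmono (by have := mem_range.1 hi; omega)
    have h1 : 2 * (2 * (d + B * sc i) + 1) ≤ 2 * (2 * (d + B * sc (2 * B + 1)) + 1) := by
      have := Nat.mul_le_mul_left B hile
      omega
    calc X.card ≤ 2 * X1.card := hX1card
      _ ≤ 2 * ((2 * (d + B * sc i) + 1) * A.card) := Nat.mul_le_mul_left _ hAcard
      _ = (2 * (2 * (d + B * sc i) + 1)) * A.card := by ring
      _ ≤ _ := Nat.mul_le_mul_right _ h1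
  · -- size of `Hb`
    set Q := B * (2 * (2 * (d + B * sc i) + 1)) with hQ
    have h1 : Hb.card * sc (i + 1) ≤ Q * A.card := by
      calc Hb.card * sc (i + 1) ≤ B * X.card := hHb
        _ ≤ B * (2 * ((2 * (d + B * sc i) + 1) * A.card)) :=
            Nat.mul_le_mul_left _ (hX1card.trans (Nat.mul_le_mul_left _ hAcard))
        _ = Q * A.card := by rw [hQ]; ring
    have h2 : sc (i + 1) = K * Q + sc i + 1 := hstep i
    rcases Nat.eq_zero_or_pos Q with hQ0 | hQpos
    · rw [hQ0, zero_mul] at h1
      have h3 : Hb.card = 0 := by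
        have h5 : Hb.card * sc (i + 1) = 0 := Nat.le_zero.1 h1
        rcases Nat.mul_eq_zero.1 h5 with h6 | h6
        · exact h6
        · have := hpos (i + 1)
          omega
      rw [h3]; simp
    · have h3 : Q * (K * Hb.card) ≤ Q * A.card := by
        calc Q * (K * Hb.card) = Hb.card * (K * Q) := by ring
          _ ≤ Hb.card * sc (i + 1) := Nat.mul_le_mul_left _ (by omega)
          _ ≤ Q * A.card := h1
      exact Nat.le_of_mul_le_mul_left h3 hQpos
  · intro a ha b hb hab
    exact hAind a ha b hb (mem_union_left _ hab)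
  · intro a ha b hb hne z hz
    obtain ⟨hza, hzb⟩ := mem_inter.1 hz
    by_contra hzH
    apply hne
    have hb' : b ∈ out' a := mem_union_right _ (mem_filter.2 ⟨hA hb, z, hza, hzb, hzH⟩)
    exact (hAind a ha b hb hb').symm

end Vale.Agent.Lib.P045R
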