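import Vale.Agent.Lib.P045R.Kernel

namespace Vale.Agent.Lib.P045R

open Finset
open scoped Classical

universe u

variable {V : Type u} [Fintype V] [DecidableEq V]

private theorem mem_minCov {s : ℕ} {F : Finset (Finset V)} {Z : Finset V} :
    Z ∈ minCov s F ↔ Z.card ≤ s ∧ Covers Z F ∧ ∀ z ∈ Z, ¬ Covers (Z.erase z) F := by
  simp [minCov]

private theorem mem_terrOf {s : ℕ} {F : Finset (Finset V)} {z : V} :
    z ∈ terrOf s F ↔ ∃ Z ∈ minCov s F, z ∈ Z := by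
  simp [terrOf]

/-- PART Terr. -/
theorem cover_reduce {s : ℕ} {F : Finset (Finset V)} {T : Finset V} (hT : T.card ≤ s)
    (hc : Covers T F) : Covers (T ∩ terrOf s F) F := by
  classical
  -- pick a subcover of least cardinality
  have hne : ((T.powerset).filter fun Z => Covers Z F).Nonempty :=
    ⟨T, by simp [hc]⟩
  obtain ⟨Z, hZ, hmin⟩ := Finset.exists_min_image _ Finset.card hne
  rw [mem_filter, mem_powerset] at hZ
  obtain ⟨hZT, hZc⟩ := hZ
  have hZmin : Z ∈ minCov s F := by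
    rw [mem_minCov]
    refine ⟨(card_le_card hZT).trans hT, hZc, ?_⟩
    intro z hz hcov
    have hmem : Z.erase z ∈ (T.powerset).filter fun Z => Covers Z F := by
      rw [mem_filter, mem_powerset]
      exact ⟨(erase_subset _ _).trans hZT, hcov⟩
    have := hmin _ hmem
    have hlt := card_erase_lt_of_mem hz
    omega
  intro B hB
  obtain ⟨x, hx⟩ := hZc B hB
  rw [mem_inter] at hx
  refine ⟨x, ?_⟩
  rw [mem_inter, mem_inter]
  exact ⟨⟨hZT hx.1, mem_terrOf.2 ⟨Z, hZmin, hx.1⟩⟩, hx.2⟩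

theorem terrOf_card {s R : ℕ} {F : Finset (Finset V)} (hR : ∀ B ∈ F, B.card ≤ R) :
    (terrOf s F).card ≤ kerBd s R := by
  classical
  obtain ⟨N, hN, hNp⟩ := kernel s R {T : Finset V | T.card ≤ s ∧ Covers T F} (↑F)
    (fun A hA => hA.1) (fun B hB => hR B (by simpa using hB))
    (fun A hA B hB => hA.2 B (by simpa using hB))
  refine le_trans (card_le_card ?_) hN
  intro z hz
  obtain ⟨Z, hZ, hzZ⟩ := mem_terrOf.1 hz
  rw [mem_minCov] at hZ
  obtain ⟨hZs, hZc, hZm⟩ := hZ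
  by_contra hzN
  apply hZm z hzZ
  intro B hB
  obtain ⟨x, hx⟩ := hNp Z ⟨hZs, hZc⟩ B (by simpa using hB)
  rw [mem_inter, mem_inter] at hx
  refine ⟨x, ?_⟩
  rw [mem_inter, mem_erase]
  refine ⟨⟨?_, hx.1.1⟩, hx.1.2⟩
  rintro rfl
  exact hzN hx.2

theorem terrOf_mono {s s' : ℕ} (h : s ≤ s') (F : Finset (Finset V)) :
    terrOf s F ⊆ terrOf s' F := by
  intro z hz
  obtain ⟨Z, hZ, hzZ⟩ := mem_terrOf.1 hz
  rw [mem_minCov] at hZ
  exact mem_terrOf.2 ⟨Z, mem_minCov.2 ⟨hZ.1.trans h, hZ.2⟩, hzZ⟩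

/-- If `z` is in a minimal cover `Z` then `Z.erase z` covers every subfamily avoiding `z` but does
not cover `F`. -/
theorem terrOf_gain {s : ℕ} {F : Finset (Finset V)} {z : V} (hz : z ∈ terrOf s F) :
    ∃ T : Finset V, T.card ≤ s ∧ ¬ Covers T F ∧ ∀ F' ⊆ F, (∀ B ∈ F', z ∉ B) → Covers T F' := by
  obtain ⟨Z, hZ, hzZ⟩ := mem_terrOf.1 hz
  rw [mem_minCov] at hZ
  obtain ⟨hZs, hZc, hZm⟩ := hZ
  refine ⟨Z.erase z, (card_erase_le).trans hZs, hZm z hzZ, ?_⟩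
  intro F' hF' hav B hB
  obtain ⟨x, hx⟩ := hZc B (hF' hB)
  rw [mem_inter] at hx
  refine ⟨x, ?_⟩
  rw [mem_inter, mem_erase]
  refine ⟨⟨?_, hx.1⟩, hx.2⟩
  rintro rfl
  exact hav B hB hx.2

end Vale.Agent.Lib.P045R
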