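import Vale.Agent.Lib.P045R.Star
import Vale.Agent.Lib.P045R.Gap
import Vale.Agent.Lib.P045R.Terr
import Vale.Agent.Lib.P045R.Basic

namespace Vale.Agent.Lib.P045R

open Finset
open scoped Classical

universe u

section aux

set_option linter.unusedSectionVars false

variable {V : Type u} [DecidableEq V]

theorem edge6_card {part : V → Fin 6} {c : Finset V} (h : Edge6 part c) : c.card = 6 := by
  have := Finset.card_eq_sum_card_fiberwise (f := part) (s := c) (t := univ)
    (fun x _ => Finset.mem_coe.2 (mem_univ _))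
  rw [this]
  simp only [Edge6] at h
  simp [h]

theorem edge6_unique {part : V → Fin 6} {c : Finset V} (h : Edge6 part c) {y z : V} (hy : y ∈ c)
    (hz : z ∈ c) (hp : part y = part z) : y = z := by
  have h1 := h (part z)
  rw [Finset.card_eq_one] at h1
  obtain ⟨a, ha⟩ := h1
  have hya : y ∈ c.filter (fun v => part v = part z) := mem_filter.2 ⟨hy, hp⟩
  have hza : z ∈ c.filter (fun v => part v = part z) := mem_filter.2 ⟨hz, rfl⟩
  rw [ha, mem_singleton] at hya hza
  rw [hya, hza]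

theorem edge6_exists {part : V → Fin 6} {c : Finset V} (h : Edge6 part c) (i : Fin 6) :
    ∃ y ∈ c, part y = i := by
  have h1 := h i
  rw [Finset.card_eq_one] at h1
  obtain ⟨a, ha⟩ := h1
  have : a ∈ c.filter (fun v => part v = i) := by rw [ha]; exact mem_singleton_self a
  exact ⟨a, (mem_filter.1 this).1, (mem_filter.1 this).2⟩

theorem trans_of_subset {part : V → Fin 6} {c Q : Finset V} (h : Edge6 part c) (hQ : Q ⊆ c) :
    Trans part Q := by
  intro i
  calc (Q.filter fun v => part v = i).card ≤ (c.filter fun v => part v = i).card :=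
        card_le_card (filter_subset_filter _ hQ)
    _ = 1 := h i

theorem filter_ne_card {part : V → Fin 6} {c : Finset V} (h : Edge6 part c) (p : Fin 6) :
    (c.filter fun v => part v ≠ p).card ≤ 5 := by
  obtain ⟨y, hy, hyp⟩ := edge6_exists h p
  have hsub : (c.filter fun v => part v ≠ p) ⊆ c.erase y := by
    intro z hz
    rw [mem_filter] at hz
    refine mem_erase.2 ⟨?_, hz.1⟩
    rintro rfl
    exact hz.2 hyp
  have h3 := card_le_card hsub
  rw [card_erase_of_mem hy, edge6_card h] at h3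
  omega

theorem card_touch_le {M X : Finset (Finset V)} (hM : PD M) (hXM : X ⊆ M) (W : Finset V)
    (hX : ∀ x ∈ X, (W ∩ x).Nonempty) : X.card ≤ W.card := by
  rcases X.eq_empty_or_nonempty with rfl | ⟨x0, hx0⟩
  · simp
  have : Nonempty V := by
    obtain ⟨v, _⟩ := hX x0 hx0
    exact ⟨v⟩
  choose! z hz using hX
  apply Finset.card_le_card_of_injOn z
  · intro x hx
    exact (mem_inter.1 (hz x hx)).1
  · intro x hx y hy hxy
    by_contra hne
    have hd := hM (hXM hx) (hXM hy) hne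
    have h1 := (mem_inter.1 (hz x hx)).2
    have h2 := (mem_inter.1 (hz y hy)).2
    rw [← hxy] at h2
    exact disjoint_left.1 hd h1 h2

end aux


section local_pieces

set_option linter.unusedSectionVars false

variable {V : Type u} [Fintype V] [DecidableEq V]

theorem pigeon_fiber {α β : Type*} [Fintype β] [Nonempty β] [DecidableEq β] (s : Finset α)
    (f : α → β) : ∃ y, s.card ≤ Fintype.card β * (s.filter fun x => f x = y).card := by
  obtain ⟨y0, -, hy0⟩ := Finset.exists_max_image (univ : Finset β)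
    (fun y => (s.filter fun x => f x = y).card) univ_nonempty
  refine ⟨y0, ?_⟩
  have h1 := Finset.card_eq_sum_card_fiberwise (f := f) (s := s) (t := univ)
    (fun x _ => Finset.mem_coe.2 (mem_univ _))
  rw [h1]
  calc ∑ y : β, (s.filter fun x => f x = y).card ≤ ∑ _y : β, (s.filter fun x => f x = y0).card :=
        sum_le_sum (fun y _ => hy0 y (mem_univ y))
    _ = Fintype.card β * (s.filter fun x => f x = y0).card := by
        simp [card_univ]

/-- Data at an absorbing bag. -/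
theorem abs_local {part : V → Fin 6} {Fe : Finset (Finset V)} {f : Finset V} {x : Finset V}
    (hf : f ∈ Fe) (hE : Edge6 part f) (hint : ∀ g ∈ Fe, ∀ g' ∈ Fe, (g ∩ g').Nonempty)
    (hx : (x ∩ f).Nonempty) (hxW : ¬ (terrOf 6 Fe ∩ x).Nonempty) :
    (f ∩ terrOf 6 Fe).card ≤ 5 ∧ Covers (f ∩ terrOf 6 Fe) Fe ∧
      ∀ Q ⊆ terrOf 6 Fe, Covers Q Fe → (Q ∩ (f ∩ terrOf 6 Fe)).Nonempty := by
  have h6 := edge6_card hE
  obtain ⟨z, hz⟩ := hx
  have hzx := (mem_inter.1 hz).1
  have hzf := (mem_inter.1 hz).2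
  have hzW : z ∉ terrOf 6 Fe := fun h => hxW ⟨z, mem_inter.2 ⟨h, hzx⟩⟩
  refine ⟨?_, ?_, ?_⟩
  · have hsub : f ∩ terrOf 6 Fe ⊆ f.erase z := by
      intro w hw
      rw [mem_inter] at hw
      refine mem_erase.2 ⟨?_, hw.1⟩
      rintro rfl
      exact hzW hw.2
    have := card_le_card hsub
    rw [card_erase_of_mem hzf, h6] at this
    omega
  · exact cover_reduce (s := 6) (T := f) (by omega) (fun B hB => hint f hf B hB)
  · intro Q hQ hc
    obtain ⟨w, hw⟩ := hc f hf
    rw [mem_inter] at hw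
    exact ⟨w, mem_inter.2 ⟨hw.1, mem_inter.2 ⟨hw.2, hQ hw.1⟩⟩⟩

/-- Data at a bag good for the part `p`. -/
theorem good_local {part : V → Fin 6} {P Fe : Finset (Finset V)} {g : Finset V} {p : Fin 6}
    (hg : g ∈ P) (hPF : P ⊆ Fe) (hE : Edge6 part g)
    (hc : Covers (g.filter fun v => part v ≠ p) P) :
    (g.filter fun v => part v ≠ p).card ≤ 5 ∧ Covers (g.filter fun v => part v ≠ p) P ∧
      ∀ Q : Finset V, Covers Q Fe → (∀ z ∈ Q, part z ≠ p) →
        (Q ∩ (g.filter fun v => part v ≠ p)).Nonempty := by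
  refine ⟨filter_ne_card hE p, hc, ?_⟩
  intro Q hQ hp
  obtain ⟨w, hw⟩ := hQ g (hPF hg)
  rw [mem_inter] at hw
  exact ⟨w, mem_inter.2 ⟨hw.1, mem_filter.2 ⟨hw.2, hp w hw.1⟩⟩⟩

/-- A family with no good part has the star property. -/
theorem star_of_not_good {part : V → Fin 6} {P : Finset (Finset V)}
    (hE : ∀ g ∈ P, Edge6 part g) (hint : ∀ g ∈ P, ∀ h ∈ P, (g ∩ h).Nonempty)
    (hng : ∀ p : Fin 6, ¬ ∃ g ∈ P, Covers (g.filter fun v => part v ≠ p) P) :
    ∀ g ∈ P, ∀ y ∈ g, ∃ h ∈ P, g ∩ h = {y} := by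
  intro g hg y hy
  have h1 : ¬ Covers (g.filter fun v => part v ≠ part y) P := fun hc => hng (part y) ⟨g, hg, hc⟩
  unfold Covers at h1
  push Not at h1
  obtain ⟨h, hh, hemp⟩ := h1
  refine ⟨h, hh, ?_⟩
  have hkey : ∀ z ∈ g ∩ h, z = y := by
    intro z hz
    rw [mem_inter] at hz
    have hpz : part z = part y := by
      by_contra hne
      have : z ∈ (g.filter fun v => part v ≠ part y) ∩ h :=
        mem_inter.2 ⟨mem_filter.2 ⟨hz.1, hne⟩, hz.2⟩
      rw [hemp] at this
      simp at this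
    exact edge6_unique (hE g hg) hz.1 hy hpz
  obtain ⟨z0, hz0⟩ := hint g hg h hh
  have hz0y := hkey z0 hz0
  subst hz0y
  ext w
  constructor
  · intro hw
    exact mem_singleton.2 (hkey w hw)
  · intro hw
    rw [mem_singleton.1 hw]
    exact hz0

/-- The two sided case at star closed bags. -/
theorem two_sided_local {part : V → Fin 6} {c Q Q' : Finset V} (hc : Edge6 part c)
    (hQ : Q ⊆ c) (hQ' : Q' ⊆ c) (hd : Disjoint Q Q') (h3 : 3 ≤ Q.card) (h3' : 3 ≤ Q'.card) :
    Q.card = 3 ∧ Q'.card = 3 ∧ (partsOf part Q).card = 3 ∧ partsOf part Q' = (partsOf part Q)ᶜ := by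
  have h6 := edge6_card hc
  have hU : (Q ∪ Q').card = Q.card + Q'.card := card_union_of_disjoint hd
  have hle : (Q ∪ Q').card ≤ 6 := by
    rw [← h6]
    exact card_le_card (union_subset hQ hQ')
  have hQ3 : Q.card = 3 := by omega
  have hQ'3 : Q'.card = 3 := by omega
  have hinj : ∀ (R : Finset V), R ⊆ c → (partsOf part R).card = R.card := by
    intro R hR
    unfold partsOf
    apply card_image_of_injOn
    intro a ha b hb hab
    exact edge6_unique hc (hR ha) (hR hb) hab
  have hJ := hinj Q hQ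
  have hJ' := hinj Q' hQ'
  refine ⟨hQ3, hQ'3, by omega, ?_⟩
  apply eq_of_subset_of_card_le
  · intro i hi
    rw [mem_compl]
    intro hi'
    unfold partsOf at hi hi'
    rw [mem_image] at hi hi'
    obtain ⟨a, ha, rfl⟩ := hi
    obtain ⟨b, hb, hab⟩ := hi'
    have : b = a := edge6_unique hc (hQ hb) (hQ' ha) hab
    subst this
    exact disjoint_left.1 hd hb ha
  · rw [card_compl, hJ, hJ', hQ3, hQ'3]
    simp

end local_pieces


/-- PART FinalLocal. The last stage: root territories, the gap selection, the three classes of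
bags (absorbing, good for a part, star closed), pigeonhole on the class and on the selection. -/
theorem final_local (K1 : ℕ) : ∃ K0 : ℕ, 0 < K0 ∧
    ∀ {V : Type u} [Fintype V] [DecidableEq V] (part : V → Fin 6) (H M A : Finset (Finset V))
      (F : Finset V → Finset (Finset V)),
      (∀ c ∈ H, Edge6 part c) → M ⊆ H → PD M → NoAug H M → A ⊆ M →
      (∀ P : Finset (Finset V), (∀ g ∈ P, Edge6 part g) → (∀ g ∈ P, ∀ h ∈ P, (g ∩ h).Nonempty) →
        ∃ T : Finset V, T.card ≤ 5 ∧ ∀ g ∈ P, (T ∩ g).Nonempty) →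
      (∀ e ∈ A, F e ⊆ H) →
      (∀ e ∈ A, ∀ g ∈ H, ends M g = {e} → g ∈ F e) →
      (∀ e ∈ A, ∀ g ∈ F e, ∀ g' ∈ F e, (g ∩ g').Nonempty) →
      (∀ c ∈ H, ends M c ⊆ A → (∃ e ∈ ends M c, c ∈ F e) ∨
        ∃ e ∈ ends M c, ∃ e' ∈ ends M c, e ≠ e' ∧ Covers c (F e) ∧ Covers c (F e')) →
      ∃ A' ⊆ A, ∃ (Hb : Finset V) (C : Finset V → Finset V), A.card ≤ K0 * A'.card ∧
        K1 * Hb.card ≤ A'.card ∧ (∀ e ∈ A', (C e).card ≤ 5) ∧
        ∀ c ∈ H, ends M c ⊆ A' → Disjoint c Hb → ∃ e ∈ A', (c ∩ C e).Nonempty := by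
  obtain ⟨K', hK'pos, hgap⟩ := gap_select.{u, u} (kerBd 6 6) (kerBd 6 6) (K1 * 2 ^ 65)
  refine ⟨K' * 2 ^ 65, by positivity, ?_⟩
  intro V _ _ part H M A F hE hMH hPD _hNo hAM hI hFH hFs hFint hdich
  have h6 : ∀ c ∈ H, c.card = 6 := fun c hc => edge6_card (hE c hc)
  -- territories
  set W : Finset V → Finset V := fun e => terrOf 6 (F e) with hWdef
  have hWcard : ∀ e ∈ A, (W e).card ≤ kerBd 6 6 := fun e he =>
    terrOf_card (R := 6) (fun B hB => (h6 B (hFH e he hB)).le)
  set out : Finset V → Finset (Finset V) := fun e => A.filter fun x => (W e ∩ x).Nonempty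
    with houtdef
  have houtcard : ∀ e ∈ A, (out e).card ≤ kerBd 6 6 := by
    intro e he
    refine le_trans (card_touch_le hPD ((filter_subset _ _).trans hAM) (W e) ?_) (hWcard e he)
    intro x hx
    exact (mem_filter.1 hx).2
  obtain ⟨A1, hA1A, Hb, hcard, hHb, hind, hov⟩ := hgap A W out hWcard houtcard
  -- the root families
  set Pe : Finset V → Finset (Finset V) := fun e => H.filter fun g => ends M g = {e} with hPedef
  have hPeF : ∀ e ∈ A, Pe e ⊆ F e := by
    intro e he g hg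
    rw [mem_filter] at hg
    exact hFs e he g hg.1 hg.2
  have hPeE : ∀ e, ∀ g ∈ Pe e, Edge6 part g := fun e g hg => hE g (mem_filter.1 hg).1
  have hPeI : ∀ e ∈ A, ∀ g ∈ Pe e, ∀ h ∈ Pe e, (g ∩ h).Nonempty := fun e he g hg h hh =>
    hFint e he g (hPeF e he hg) h (hPeF e he hh)
  have hPene : ∀ e ∈ A, (Pe e).Nonempty := by
    intro e he
    refine ⟨e, mem_filter.2 ⟨hMH (hAM he), ?_⟩⟩
    have heE := hE e (hMH (hAM he))
    ext x
    rw [mem_singleton, mem_ends]
    constructor
    · rintro ⟨hx, hne⟩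
      by_contra hxe
      have hd := hPD hx (hAM he) hxe
      obtain ⟨z, hz⟩ := hne
      rw [mem_inter] at hz
      exact disjoint_left.1 hd hz.1 hz.2
    · rintro rfl
      refine ⟨hAM he, ?_⟩
      obtain ⟨y, hy, _⟩ := edge6_exists heE 0
      exact ⟨y, mem_inter.2 ⟨hy, hy⟩⟩
  -- independence
  have hindW : ∀ e ∈ A1, ∀ x ∈ A1, x ≠ e → ¬ (W e ∩ x).Nonempty := by
    intro e he x hx hxe hne
    exact hxe (hind e he x hx (mem_filter.2 ⟨hA1A hx, hne⟩))
  -- classes
  set Abs : Finset (Finset V) :=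
    A1.filter fun e => ∃ f ∈ F e, ends M f ⊆ A1 ∧ ∃ x ∈ ends M f, x ≠ e with hAbsdef
  set Good : Fin 6 → Finset (Finset V) := fun p =>
    A1.filter fun e => ∃ g ∈ Pe e, Covers (g.filter fun v => part v ≠ p) (Pe e) with hGooddef
  set St : Finset (Finset V) := A1.filter fun e => e ∉ Abs ∧ ∀ p, e ∉ Good p with hStdef
  have hAbsData : ∀ e ∈ Abs, ∃ C : Finset V, C.card ≤ 5 ∧ Covers C (F e) ∧
      ∀ Q ⊆ W e, Covers Q (F e) → (Q ∩ C).Nonempty := by
    intro e he
    obtain ⟨he1, f, hf, hfA, x, hx, hxe⟩ := mem_filter.1 he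
    have heA := hA1A he1
    have hf0 := hFH e heA hf
    obtain ⟨hxM, hxf⟩ := mem_ends.1 hx
    exact ⟨_, abs_local (x := x) hf (hE f hf0) (hFint e heA) hxf (hindW e he1 x (hfA hx) hxe)⟩
  have hGoodData : ∀ p, ∀ e ∈ Good p, ∃ C : Finset V, C.card ≤ 5 ∧ Covers C (Pe e) ∧
      ∀ Q : Finset V, Covers Q (F e) → (∀ z ∈ Q, part z ≠ p) → (Q ∩ C).Nonempty := by
    intro p e he
    obtain ⟨he1, g, hg, hc⟩ := mem_filter.1 he
    exact ⟨_, good_local hg (hPeF e (hA1A he1)) (hPeE e g hg) hc⟩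
  have hStstar : ∀ e ∈ St, ∀ g ∈ Pe e, ∀ y ∈ g, ∃ h ∈ Pe e, g ∩ h = {y} := by
    intro e he
    obtain ⟨he1, _, hng⟩ := mem_filter.1 he
    apply star_of_not_good (hPeE e) (hPeI e (hA1A he1))
    intro p hex
    exact hng p (mem_filter.2 ⟨he1, hex⟩)
  have hStData : ∀ e ∈ St, ∃ (C : Finset V) (sel : Finset (Fin 6) → Bool), C.card ≤ 5 ∧
      (∀ g ∈ Pe e, (C ∩ g).Nonempty) ∧
      (∀ J : Finset (Fin 6), J.card = 3 → sel Jᶜ = !sel J) ∧
      ∀ Q : Finset V, Trans part Q → Q.card = 3 → (∀ g ∈ Pe e, (Q ∩ g).Nonempty) →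
        sel (partsOf part Q) = true → (C ∩ Q).Nonempty := by
    intro e he
    have he1 := (mem_filter.1 he).1
    have heA := hA1A he1
    exact star_local part (hPeE e) (hPene e heA) (hPeI e heA) (hStstar e he)
      (hI (Pe e) (hPeE e) (hPeI e heA))
  -- the shape of an edge living on a subset of the selected bags
  have hcase : ∀ c ∈ H, ends M c ⊆ A1 → Disjoint c Hb →
      (∃ e ∈ ends M c, c ∈ Pe e) ∨ (∃ e ∈ ends M c, e ∈ Abs ∧ c ∈ F e) ∨
      (∃ e ∈ ends M c, ∃ e' ∈ ends M c, e ≠ e' ∧ Covers (c ∩ W e) (F e) ∧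
        Covers (c ∩ W e') (F e') ∧ Disjoint (c ∩ W e) (c ∩ W e')) := by
    intro c hc hcA hcHb
    rcases hdich c hc (hcA.trans hA1A) with ⟨e, he, hcF⟩ | ⟨e, he, e', he', hee, hC, hC'⟩
    · by_cases hs : ends M c = {e}
      · exact Or.inl ⟨e, he, mem_filter.2 ⟨hc, hs⟩⟩
      · right; left
        refine ⟨e, he, mem_filter.2 ⟨hcA he, c, hcF, hcA, ?_⟩, hcF⟩
        by_contra hno
        push Not at hno
        apply hs
        ext x
        rw [mem_singleton]
        exact ⟨fun hx => hno x hx, fun hx => hx ▸ he⟩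
    · right; right
      refine ⟨e, he, e', he', hee, ?_, ?_, ?_⟩
      · exact cover_reduce (s := 6) (T := c) (h6 c hc).le hC
      · exact cover_reduce (s := 6) (T := c) (h6 c hc).le hC'
      · rw [disjoint_left]
        intro z hz hz'
        rw [mem_inter] at hz hz'
        have hmem : z ∈ W e ∩ W e' := mem_inter.2 ⟨hz.2, hz'.2⟩
        have := hov e (hcA he) e' (hcA he') hee hmem
        exact disjoint_left.1 hcHb hz.1 this
  -- the final bound
  have hK3 : (0 : ℕ) < 2 ^ 65 := by positivity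
  have hfinish : ∀ A' : Finset (Finset V), A1.card ≤ 2 ^ 65 * A'.card →
      A.card ≤ K' * 2 ^ 65 * A'.card ∧ K1 * Hb.card ≤ A'.card := by
    intro A' hA'
    constructor
    · calc A.card ≤ K' * A1.card := hcard
        _ ≤ K' * (2 ^ 65 * A'.card) := Nat.mul_le_mul_left _ hA'
        _ = K' * 2 ^ 65 * A'.card := by ring
    · have h1 : 2 ^ 65 * (K1 * Hb.card) ≤ 2 ^ 65 * A'.card := by
        calc 2 ^ 65 * (K1 * Hb.card) = K1 * 2 ^ 65 * Hb.card := by ring
          _ ≤ A1.card := hHb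
          _ ≤ _ := hA'
      exact Nat.le_of_mul_le_mul_left h1 hK3
  by_cases hStbig : A1.card ≤ 2 * St.card
  · -- star closed bags: pigeonhole on the selection
    choose! C sel hC5 hCc hsel hCQ using hStData
    obtain ⟨sel0, hsel0⟩ := pigeon_fiber St sel
    have hcardfun : Fintype.card (Finset (Fin 6) → Bool) = 2 ^ 64 := by
      simp [Fintype.card_finset]
    rw [hcardfun] at hsel0
    set A' := St.filter fun e => sel e = sel0 with hA'def
    have hA'St : A' ⊆ St := filter_subset _ _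
    have hA'A1 : A' ⊆ A1 := hA'St.trans (filter_subset _ _)
    have hb : A1.card ≤ 2 ^ 65 * A'.card := by
      calc A1.card ≤ 2 * St.card := hStbig
        _ ≤ 2 * (2 ^ 64 * A'.card) := Nat.mul_le_mul_left _ hsel0
        _ = 2 ^ 65 * A'.card := by ring
    obtain ⟨hb1, hb2⟩ := hfinish A' hb
    refine ⟨A', hA'A1.trans hA1A, Hb, C, hb1, hb2, fun e he => hC5 e (hA'St he), ?_⟩
    intro c hc hcA hcHb
    rcases hcase c hc (hcA.trans hA'A1) hcHb with ⟨e, he, hcP⟩ | ⟨e, he, hAb, _⟩ |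
      ⟨e, he, e', he', hee, hQ, hQ', hd⟩
    · refine ⟨e, hcA he, ?_⟩
      rw [inter_comm]
      exact hCc e (hA'St (hcA he)) c hcP
    · exact absurd hAb (mem_filter.1 (hA'St (hcA he))).2.1
    · have heS := hA'St (hcA he)
      have heS' := hA'St (hcA he')
      have heA := hA1A (mem_filter.1 heS).1
      have heA' := hA1A (mem_filter.1 heS').1
      have hsub : c ∩ W e ⊆ c := inter_subset_left
      have hsub' : c ∩ W e' ⊆ c := inter_subset_left
      have ht := trans_of_subset (hE c hc) hsub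
      have ht' := trans_of_subset (hE c hc) hsub'
      have hcP : ∀ g ∈ Pe e, ((c ∩ W e) ∩ g).Nonempty := fun g hg => hQ g (hPeF e heA hg)
      have hcP' : ∀ g ∈ Pe e', ((c ∩ W e') ∩ g).Nonempty := fun g hg => hQ' g (hPeF e' heA' hg)
      have h3 := cover_ge_three part (hPeE e) (hPene e heA) (hStstar e heS) ht hcP
      have h3' := cover_ge_three part (hPeE e') (hPene e' heA') (hStstar e' heS') ht' hcP'
      obtain ⟨hc3, hc3', hJ, hJ'⟩ := two_sided_local (hE c hc) hsub hsub' hd h3 h3'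
      have hse : sel e = sel0 := (mem_filter.1 (hcA he)).2
      have hse' : sel e' = sel0 := (mem_filter.1 (hcA he')).2
      have hcompl := hsel e heS _ hJ
      rw [hse] at hcompl
      cases hval : sel0 (partsOf part (c ∩ W e)) with
      | true =>
        obtain ⟨z, hz⟩ := hCQ e heS (c ∩ W e) ht hc3 hcP (by rw [hse]; exact hval)
        rw [mem_inter] at hz
        exact ⟨e, hcA he, z, mem_inter.2 ⟨hsub hz.2, hz.1⟩⟩
      | false =>
        have hv' : sel e' (partsOf part (c ∩ W e')) = true := by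
          rw [hse', hJ', hcompl, hval]
          rfl
        obtain ⟨z, hz⟩ := hCQ e' heS' (c ∩ W e') ht' hc3' hcP' hv'
        rw [mem_inter] at hz
        exact ⟨e', hcA he', z, mem_inter.2 ⟨hsub' hz.2, hz.1⟩⟩
  · -- absorbing or good bags: pigeonhole on the part
    push Not at hStbig
    set s := A1 \ St with hsdef
    have hsmem : ∀ e ∈ s, e ∈ Abs ∨ ∃ p, e ∈ Good p := by
      intro e he
      rw [hsdef, mem_sdiff] at he
      by_contra hno
      push Not at hno
      exact he.2 (mem_filter.2 ⟨he.1, hno.1, hno.2⟩)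
    let f : Finset V → Fin 6 := fun e => if h : ∃ p, e ∈ Good p then h.choose else 0
    have hf : ∀ e, (∃ p, e ∈ Good p) → e ∈ Good (f e) := by
      intro e h
      simp only [f, dif_pos h]
      exact h.choose_spec
    obtain ⟨p0, hp0⟩ := pigeon_fiber s f
    rw [Fintype.card_fin] at hp0
    set A' := s.filter fun e => f e = p0 with hA'def
    have hA's : A' ⊆ s := filter_subset _ _
    have hA'A1 : A' ⊆ A1 := hA's.trans sdiff_subset
    have hA'class : ∀ e ∈ A', e ∈ Abs ∨ e ∈ Good p0 := by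
      intro e he
      rcases hsmem e (hA's he) with h | h
      · exact Or.inl h
      · right
        have := hf e h
        rwa [(mem_filter.1 he).2] at this
    have hcs : St.card + s.card = A1.card := by
      have hStA1 : St ⊆ A1 := filter_subset _ _
      rw [hsdef, card_sdiff_of_subset hStA1]
      have := card_le_card hStA1
      omega
    have hb : A1.card ≤ 2 ^ 65 * A'.card := by
      have h12 : A1.card ≤ 12 * A'.card := by omega
      have h2 : 12 * A'.card ≤ 2 ^ 65 * A'.card := Nat.mul_le_mul_right _ (by norm_num)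
      exact h12.trans h2
    obtain ⟨hb1, hb2⟩ := hfinish A' hb
    have hData : ∀ e ∈ A', ∃ C : Finset V, C.card ≤ 5 ∧ Covers C (Pe e) ∧
        (e ∈ Abs → Covers C (F e)) ∧
        ∀ Q ⊆ W e, Covers Q (F e) → (∀ z ∈ Q, part z ≠ p0) → (Q ∩ C).Nonempty := by
      intro e he
      have heA := hA1A (hA'A1 he)
      by_cases hA : e ∈ Abs
      · obtain ⟨C, h5, hcov, hQ⟩ := hAbsData e hA
        exact ⟨C, h5, covers_anti (hPeF e heA) hcov, fun _ => hcov, fun Q hW hc _ => hQ Q hW hc⟩
      · rcases hA'class e he with h | h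
        · exact absurd h hA
        · obtain ⟨C, h5, hcov, hQ⟩ := hGoodData p0 e h
          exact ⟨C, h5, hcov, fun h' => absurd h' hA, fun Q _ hc hp => hQ Q hc hp⟩
    choose! C hC5 hCP hCF hCQ using hData
    refine ⟨A', hA'A1.trans hA1A, Hb, C, hb1, hb2, hC5, ?_⟩
    intro c hc hcA hcHb
    rcases hcase c hc (hcA.trans hA'A1) hcHb with ⟨e, he, hcP⟩ | ⟨e, he, hAb, hcF⟩ |
      ⟨e, he, e', he', hee, hQ, hQ', hd⟩
    · refine ⟨e, hcA he, ?_⟩
      rw [inter_comm]
      exact hCP e (hcA he) c hcP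
    · refine ⟨e, hcA he, ?_⟩
      rw [inter_comm]
      exact hCF e (hcA he) hAb c hcF
    · obtain ⟨y0, hy0, hy0p⟩ := edge6_exists (hE c hc) p0
      have havoid : ∀ Q : Finset V, Q ⊆ c → y0 ∉ Q → ∀ z ∈ Q, part z ≠ p0 := by
        intro Q hQc hy z hz hzp
        have : z = y0 := edge6_unique (hE c hc) (hQc hz) hy0 (hzp.trans hy0p.symm)
        exact hy (this ▸ hz)
      by_cases hy : y0 ∈ c ∩ W e
      · have hy' : y0 ∉ c ∩ W e' := fun h => disjoint_left.1 hd hy h
        obtain ⟨z, hz⟩ := hCQ e' (hcA he') (c ∩ W e') inter_subset_right hQ'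
          (havoid _ inter_subset_left hy')
        rw [mem_inter, mem_inter] at hz
        exact ⟨e', hcA he', z, mem_inter.2 ⟨hz.1.1, hz.2⟩⟩
      · obtain ⟨z, hz⟩ := hCQ e (hcA he) (c ∩ W e) inter_subset_right hQ
          (havoid _ inter_subset_left hy)
        rw [mem_inter, mem_inter] at hz
        exact ⟨e, hcA he, z, mem_inter.2 ⟨hz.1.1, hz.2⟩⟩

end Vale.Agent.Lib.P045R
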