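import Vale.Agent.Lib.P045R.Defs

namespace Vale.Agent.Lib.P045R

open Finset

/-- PART Indep. A digraph with out-degrees at most `d` has an independent set of size at least
`n / (2 d + 1)`. Proof: strong induction on `X.card`; some vertex has at most `2 d` neighbours. -/
theorem exists_indep {β : Type*} [DecidableEq β] (X : Finset β) (out : β → Finset β) (d : ℕ)
    (hd : ∀ x ∈ X, (out x).card ≤ d) :
    ∃ A ⊆ X, X.card ≤ (2 * d + 1) * A.card ∧ ∀ a ∈ A, ∀ b ∈ A, b ∈ out a → b = a := by
  induction' hn : X.card using Nat.strong_induction_on with n ih generalizing X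
  rcases X.eq_empty_or_nonempty with rfl | hne
  · exact ⟨∅, Subset.refl _, by simp at hn; simp [← hn], by simp⟩
  let Nbr : β → Finset β := fun x => X.filter (fun y => y ≠ x ∧ (y ∈ out x ∨ x ∈ out y))
  have h1 : ∀ x ∈ X, (X.filter (fun y => y ∈ out x)).card ≤ d := fun x hx =>
    (card_le_card (fun y hy => (mem_filter.1 hy).2)).trans (hd x hx)
  have h2 : ∑ x ∈ X, (X.filter (fun y => x ∈ out y)).card ≤ ∑ _x ∈ X, d := by
    calc ∑ x ∈ X, (X.filter (fun y => x ∈ out y)).card
        = ∑ x ∈ X, ∑ y ∈ X, (if x ∈ out y then 1 else 0) := by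
          refine sum_congr rfl fun x _ => ?_
          rw [card_filter]
      _ = ∑ y ∈ X, ∑ x ∈ X, (if x ∈ out y then 1 else 0) := sum_comm
      _ = ∑ y ∈ X, (X.filter (fun x => x ∈ out y)).card := by
          refine sum_congr rfl fun y _ => ?_
          rw [card_filter]
      _ ≤ ∑ _x ∈ X, d := sum_le_sum h1
  have hsum : ∑ x ∈ X, (Nbr x).card ≤ ∑ _x ∈ X, 2 * d := by
    have h3 : ∀ x ∈ X, (Nbr x).card ≤
        (X.filter (fun y => y ∈ out x)).card + (X.filter (fun y => x ∈ out y)).card := by
      intro x _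
      refine le_trans (card_le_card ?_) (card_union_le _ _)
      intro y hy
      have hy' := mem_filter.1 hy
      rcases hy'.2.2 with h | h
      · exact mem_union_left _ (mem_filter.2 ⟨hy'.1, h⟩)
      · exact mem_union_right _ (mem_filter.2 ⟨hy'.1, h⟩)
    calc ∑ x ∈ X, (Nbr x).card
        ≤ ∑ x ∈ X, ((X.filter (fun y => y ∈ out x)).card + (X.filter (fun y => x ∈ out y)).card) :=
          sum_le_sum h3
      _ = ∑ x ∈ X, (X.filter (fun y => y ∈ out x)).card +
            ∑ x ∈ X, (X.filter (fun y => x ∈ out y)).card := sum_add_distrib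
      _ ≤ ∑ _x ∈ X, d + ∑ _x ∈ X, d := Nat.add_le_add (sum_le_sum h1) h2
      _ = ∑ _x ∈ X, 2 * d := by
          rw [← sum_add_distrib]
          refine sum_congr rfl fun _ _ => by ring
  obtain ⟨x, hxX, hx⟩ := exists_le_of_sum_le hne hsum
  let X' : Finset β := (X.erase x) \ Nbr x
  have hX'sub : X' ⊆ X := fun y hy => mem_of_mem_erase (mem_sdiff.1 hy).1
  have hxX' : x ∉ X' := fun h => by
    have := (mem_sdiff.1 h).1
    simp at this
  have hcard : X.card ≤ X'.card + (2 * d + 1) := by
    have h4 : X.card - 1 - (Nbr x).card ≤ X'.card := by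
      have := le_card_sdiff (Nbr x) (X.erase x)
      rw [card_erase_of_mem hxX] at this
      exact this
    omega
  have hlt : X'.card < n := by
    rw [← hn]
    exact card_lt_card ⟨hX'sub, fun h => hxX' (h hxX)⟩
  obtain ⟨A', hA'sub, hA'card, hA'ind⟩ := ih _ hlt X' (fun y hy => hd y (hX'sub hy)) rfl
  have hxA' : x ∉ A' := fun h => hxX' (hA'sub h)
  refine ⟨insert x A', ?_, ?_, ?_⟩
  · intro y hy
    rcases mem_insert.1 hy with rfl | hy
    · exact hxX
    · exact hX'sub (hA'sub hy)
  · rw [card_insert_of_notMem hxA', ← hn]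
    nlinarith
  · intro a ha b hb hab
    rcases mem_insert.1 ha with rfl | ha'
    · rcases mem_insert.1 hb with rfl | hb'
      · rfl
      · exfalso
        have hbX' := hA'sub hb'
        have hbne : b ≠ a := fun h => hxA' (h ▸ hb')
        exact (mem_sdiff.1 hbX').2 (mem_filter.2 ⟨hX'sub hbX', hbne, Or.inl hab⟩)
    · rcases mem_insert.1 hb with rfl | hb'
      · exfalso
        have haX' := hA'sub ha'
        have hane : a ≠ b := fun h => hxA' (h ▸ ha')
        exact (mem_sdiff.1 haX').2 (mem_filter.2 ⟨hX'sub haX', hane, Or.inr hab⟩)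
      · exact hA'ind a ha' b hb' hab

end Vale.Agent.Lib.P045R
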