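import Vale.Agent.Lib.P045R.Terr
import Vale.Agent.Lib.P045R.Basic

namespace Vale.Agent.Lib.P045R

open Finset
open scoped Classical

universe u

variable {V : Type u} [Fintype V] [DecidableEq V]

private theorem le_kerBd (a b : ℕ) (hb : 1 ≤ b) : a ≤ kerBd a b := by
  induction a with
  | zero => exact Nat.zero_le _
  | succ a ih =>
    show a + 1 ≤ b * (1 + kerBd a b)
    calc a + 1 ≤ 1 + kerBd a b := by omega
      _ = 1 * (1 + kerBd a b) := by ring
      _ ≤ b * (1 + kerBd a b) := Nat.mul_le_mul_right _ hb

private theorem le_sig (t n τ : ℕ) : τ ≤ sig t n τ := by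
  cases n with
  | zero => exact le_refl _
  | succ n =>
    show τ ≤ τ + n * kerBd (sig t n (τ + 6 * t)) (6 * t)
    exact Nat.le_add_right _ _

private theorem sig_succ_ge (t n τ : ℕ) (hn : 1 ≤ n) (ht : 1 ≤ t) :
    sig t n (τ + 6 * t) ≤ sig t (n + 1) τ := by
  show sig t n (τ + 6 * t) ≤ τ + n * kerBd (sig t n (τ + 6 * t)) (6 * t)
  have h1 := le_kerBd (sig t n (τ + 6 * t)) (6 * t) (by omega)
  calc sig t n (τ + 6 * t) ≤ kerBd (sig t n (τ + 6 * t)) (6 * t) := h1
    _ = 1 * kerBd (sig t n (τ + 6 * t)) (6 * t) := by ring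
    _ ≤ n * kerBd (sig t n (τ + 6 * t)) (6 * t) := Nat.mul_le_mul_right _ hn
    _ ≤ _ := Nat.le_add_left _ _

private theorem strFam_zero_empty {H M : Finset (Finset V)} {e : Finset V} :
    strFam H M 0 e = ∅ := by
  unfold strFam
  rw [Finset.image_eq_empty, Finset.filter_eq_empty_iff]
  intro S _ hS
  obtain ⟨_, _, _, he, hc⟩ := hS
  have : S = ∅ := Finset.card_eq_zero.1 (Nat.le_zero.1 hc)
  subst this
  simp [endsOf] at he

/-- PART Joint. Structures at far apart bags, each avoiding `T`, can be chosen pairwise disjoint.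
Proof: induction on `n`, see the blueprint. -/
theorem joint {H M : Finset (Finset V)} (h6 : ∀ c ∈ H, c.card = 6) (t : ℕ) :
    ∀ (n τ : ℕ) (Es : Finset (Finset V)) (T : Finset V), Es.card ≤ n → T.card ≤ τ →
      (∀ a ∈ Es, ∀ b ∈ Es, a ≠ b → Disjoint (terrOf (sig t n τ) (strFam H M t a))
        (terrOf (sig t n τ) (strFam H M t b))) →
      (∀ e ∈ Es, ¬ Covers T (strFam H M t e)) →
      ∃ S : Finset V → Finset (Finset V),
        (∀ e ∈ Es, IsStr H M t e (S e) ∧ Disjoint (vset (S e)) T) ∧
        ∀ a ∈ Es, ∀ b ∈ Es, a ≠ b → Disjoint (vset (S a)) (vset (S b)) := by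
  intro n
  induction n with
  | zero =>
    intro τ Es T hEs _ _ _
    have hE : Es = ∅ := Finset.card_eq_zero.1 (Nat.le_zero.1 hEs)
    subst hE
    exact ⟨fun _ => ∅, by simp, by simp⟩
  | succ n ih =>
    intro τ Es T hEs hT hfar hnc
    rcases Es.eq_empty_or_nonempty with hE | ⟨e1, he1⟩
    · subst hE
      exact ⟨fun _ => ∅, by simp, by simp⟩
    -- `t` is positive since some family is not covered
    have ht : 1 ≤ t := by
      rcases Nat.eq_zero_or_pos t with h0 | h0
      · subst h0
        exact absurd (by rw [strFam_zero_empty]; intro B hB; simp at hB) (hnc e1 he1)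
      · exact h0
    set s' := sig t n (τ + 6 * t) with hs'
    set s := sig t (n + 1) τ with hs
    set Es' := Es.erase e1 with hEs'
    have hEs'card : Es'.card ≤ n := by
      rw [hEs', Finset.card_erase_of_mem he1]; omega
    have hs'le : Es'.Nonempty → s' ≤ s := by
      intro hne
      have hn : 1 ≤ n := le_trans (Finset.card_pos.2 hne) hEs'card
      exact sig_succ_ge t n τ hn ht
    have hsub : ∀ l ∈ Es', l ∈ Es := fun l hl => Finset.mem_of_mem_erase hl
    set Y := T ∪ Es'.biUnion (fun l => terrOf s' (strFam H M t l)) with hY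
    have hYcard : Y.card ≤ s := by
      have h1 : (Es'.biUnion (fun l => terrOf s' (strFam H M t l))).card
          ≤ n * kerBd s' (6 * t) := by
        calc _ ≤ Es'.card • kerBd s' (6 * t) := by
                apply Finset.card_biUnion_le_card_mul
                intro l _
                exact terrOf_card (fun B hB => strFam_card_le h6 hB)
          _ ≤ n * kerBd s' (6 * t) := by
                rw [smul_eq_mul]; exact Nat.mul_le_mul_right _ hEs'card
      have h2 : s = τ + n * kerBd s' (6 * t) := rfl
      calc Y.card ≤ T.card + _ := Finset.card_union_le _ _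
        _ ≤ s := by rw [h2]; omega
    -- `Y` does not cover the structures at `e1`
    have hYnc : ¬ Covers Y (strFam H M t e1) := by
      intro hc
      have hc2 := cover_reduce hYcard hc
      apply hnc e1 he1
      intro B hB
      obtain ⟨x, hx⟩ := hc2 B hB
      obtain ⟨hxY, hxB⟩ := Finset.mem_inter.1 hx
      obtain ⟨hxY, hxt⟩ := Finset.mem_inter.1 hxY
      rcases Finset.mem_union.1 hxY with hxT | hxU
      · exact ⟨x, Finset.mem_inter.2 ⟨hxT, hxB⟩⟩
      · obtain ⟨l, hl, hxl⟩ := Finset.mem_biUnion.1 hxU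
        exfalso
        have hne : l ≠ e1 := Finset.ne_of_mem_erase hl
        have hd := hfar l (hsub l hl) e1 he1 hne
        have hmono := terrOf_mono (hs'le ⟨l, hl⟩) (strFam H M t l)
        exact (Finset.disjoint_left.1 hd) (hmono hxl) hxt
    obtain ⟨S1, hS1, hS1d⟩ := not_covers_strFam.1 hYnc
    have hS1mem : vset S1 ∈ strFam H M t e1 := by
      unfold strFam
      exact Finset.mem_image.2 ⟨S1, by simpa using hS1, rfl⟩
    have hS1card : (vset S1).card ≤ 6 * t := strFam_card_le h6 hS1mem
    set T' := T ∪ vset S1 with hT'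
    have hT'card : T'.card ≤ τ + 6 * t := by
      calc T'.card ≤ T.card + (vset S1).card := Finset.card_union_le _ _
        _ ≤ τ + 6 * t := by omega
    have hT's' : T'.card ≤ s' := le_trans hT'card (le_sig _ _ _)
    have hTY : T ⊆ Y := Finset.subset_union_left
    have hdisjl : ∀ l ∈ Es', Disjoint (vset S1) (terrOf s' (strFam H M t l)) := by
      intro l hl
      apply Finset.disjoint_of_subset_right _ hS1d
      intro x hx
      exact Finset.mem_union.2 (Or.inr (Finset.mem_biUnion.2 ⟨l, hl, hx⟩))
    have hnc' : ∀ l ∈ Es', ¬ Covers T' (strFam H M t l) := by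
      intro l hl hc
      have hc2 := cover_reduce hT's' hc
      apply hnc l (hsub l hl)
      intro B hB
      obtain ⟨x, hx⟩ := hc2 B hB
      obtain ⟨hxY, hxB⟩ := Finset.mem_inter.1 hx
      obtain ⟨hxT', hxt⟩ := Finset.mem_inter.1 hxY
      rcases Finset.mem_union.1 hxT' with hxT | hxS
      · exact ⟨x, Finset.mem_inter.2 ⟨hxT, hxB⟩⟩
      · exact absurd hxt (Finset.disjoint_left.1 (hdisjl l hl) hxS)
    have hfar' : ∀ a ∈ Es', ∀ b ∈ Es', a ≠ b →
        Disjoint (terrOf s' (strFam H M t a)) (terrOf s' (strFam H M t b)) := by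
      intro a ha b hb hab
      have hd := hfar a (hsub a ha) b (hsub b hb) hab
      exact Finset.disjoint_of_subset_left (terrOf_mono (hs'le ⟨a, ha⟩) _)
        (Finset.disjoint_of_subset_right (terrOf_mono (hs'le ⟨a, ha⟩) _) hd)
    obtain ⟨S', hS', hS'd⟩ := ih (τ + 6 * t) Es' T' hEs'card hT'card hfar' hnc'
    refine ⟨fun e => if e = e1 then S1 else S' e, ?_, ?_⟩
    · intro e he
      by_cases h : e = e1
      · subst h
        simp only [if_true]
        exact ⟨hS1, Finset.disjoint_of_subset_right hTY hS1d⟩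
      · simp only [if_neg h]
        have hl : e ∈ Es' := Finset.mem_erase.2 ⟨h, he⟩
        exact ⟨(hS' e hl).1,
          Finset.disjoint_of_subset_right Finset.subset_union_left (hS' e hl).2⟩
    · intro a ha b hb hab
      by_cases h1 : a = e1
      · subst h1
        have h2 : b ≠ a := fun h => hab h.symm
        simp only [if_true, if_neg h2]
        have hl : b ∈ Es' := Finset.mem_erase.2 ⟨h2, hb⟩
        exact Finset.disjoint_of_subset_right Finset.subset_union_right (hS' b hl).2 |>.symm
      · by_cases h2 : b = e1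
        · subst h2
          simp only [if_true, if_neg h1]
          have hl : a ∈ Es' := Finset.mem_erase.2 ⟨h1, ha⟩
          exact Finset.disjoint_of_subset_right Finset.subset_union_right (hS' a hl).2
        · simp only [if_neg h1, if_neg h2]
          exact hS'd a (Finset.mem_erase.2 ⟨h1, ha⟩) b (Finset.mem_erase.2 ⟨h2, hb⟩) hab

end Vale.Agent.Lib.P045R
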