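import Vale.Agent.Lib.P045R.Defs

namespace Vale.Agent.Lib.P045R

open Finset

/-- PART Kernel. Cross-intersecting families of bounded rank: the intersections can all be seen
inside one bounded set. Proof: induction on `a`, see the blueprint. -/
theorem kernel {α : Type*} [DecidableEq α] (a b : ℕ) (𝒜 ℬ : Set (Finset α))
    (hA : ∀ A ∈ 𝒜, A.card ≤ a) (hB : ∀ B ∈ ℬ, B.card ≤ b)
    (hX : ∀ A ∈ 𝒜, ∀ B ∈ ℬ, (A ∩ B).Nonempty) :
    ∃ N : Finset α, N.card ≤ kerBd a b ∧ ∀ A ∈ 𝒜, ∀ B ∈ ℬ, (A ∩ B ∩ N).Nonempty := by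
  induction a generalizing 𝒜 ℬ with
  | zero =>
    refine ⟨∅, by simp [kerBd], ?_⟩
    intro A hAm B hBm
    have h0 : A = ∅ := Finset.card_eq_zero.1 (Nat.le_zero.1 (hA A hAm))
    have h1 := hX A hAm B hBm
    simp [h0] at h1
  | succ a ih =>
    by_cases hne : ℬ.Nonempty
    · obtain ⟨B0, hB0⟩ := hne
      have key : ∀ x : α, ∃ N : Finset α, N.card ≤ kerBd a b ∧
          ∀ A ∈ 𝒜, x ∈ A → ∀ B ∈ ℬ, x ∉ B → ((A.erase x) ∩ B ∩ N).Nonempty := by
        intro x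
        obtain ⟨N, hN, hh⟩ := ih {A' | ∃ A ∈ 𝒜, x ∈ A ∧ A' = A.erase x} {B | B ∈ ℬ ∧ x ∉ B}
          (by
            rintro A' ⟨A, hA1, hx, rfl⟩
            have h1 := hA A hA1
            rw [Finset.card_erase_of_mem hx]
            omega)
          (fun B hB' => hB B hB'.1)
          (by
            rintro A' ⟨A, hA1, hx, rfl⟩ B ⟨hB1, hxB⟩
            obtain ⟨y, hy⟩ := hX A hA1 B hB1
            obtain ⟨hyA, hyB⟩ := Finset.mem_inter.1 hy
            refine ⟨y, Finset.mem_inter.2 ⟨Finset.mem_erase.2 ⟨?_, hyA⟩, hyB⟩⟩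
            rintro rfl
            exact hxB hyB)
        exact ⟨N, hN, fun A hA1 hx B hB1 hxB => hh _ ⟨A, hA1, hx, rfl⟩ B ⟨hB1, hxB⟩⟩
      choose Nx hNx hNx2 using key
      refine ⟨B0 ∪ B0.biUnion Nx, ?_, ?_⟩
      · have h1 : (B0 ∪ B0.biUnion Nx).card ≤ B0.card + (B0.biUnion Nx).card :=
          Finset.card_union_le _ _
        have h2 : (B0.biUnion Nx).card ≤ B0.card * kerBd a b :=
          Finset.card_biUnion_le_card_mul _ _ _ (fun x _ => hNx x)
        have h3 : B0.card ≤ b := hB B0 hB0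
        have h4 : B0.card * kerBd a b ≤ b * kerBd a b := Nat.mul_le_mul_right _ h3
        change (B0 ∪ B0.biUnion Nx).card ≤ b * (1 + kerBd a b)
        rw [Nat.mul_add, Nat.mul_one]
        omega
      · intro A hA1 B hB1
        by_cases hc : (A ∩ B ∩ B0).Nonempty
        · obtain ⟨y, hy⟩ := hc
          obtain ⟨hy1, hy2⟩ := Finset.mem_inter.1 hy
          exact ⟨y, Finset.mem_inter.2 ⟨hy1, Finset.mem_union_left _ hy2⟩⟩
        · obtain ⟨x, hx⟩ := hX A hA1 B0 hB0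
          obtain ⟨hxA, hxB0⟩ := Finset.mem_inter.1 hx
          have hxB : x ∉ B := by
            intro hxB
            exact hc ⟨x, Finset.mem_inter.2 ⟨Finset.mem_inter.2 ⟨hxA, hxB⟩, hxB0⟩⟩
          obtain ⟨y, hy⟩ := hNx2 x A hA1 hxA B hB1 hxB
          obtain ⟨hy1, hy2⟩ := Finset.mem_inter.1 hy
          obtain ⟨hy3, hy4⟩ := Finset.mem_inter.1 hy1
          refine ⟨y, Finset.mem_inter.2 ⟨Finset.mem_inter.2 ⟨Finset.mem_of_mem_erase hy3, hy4⟩,
            Finset.mem_union_right _ (Finset.mem_biUnion.2 ⟨x, hxB0, hy2⟩)⟩⟩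
    · refine ⟨∅, by simp, ?_⟩
      intro A _ B hB1
      exact absurd ⟨B, hB1⟩ hne

end Vale.Agent.Lib.P045R
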