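import Vale.Agent.Lib.P045R.Skew
import Vale.Agent.Lib.P045R.Basic

namespace Vale.Agent.Lib.P045R

open Finset
open scoped Classical

universe u

variable {V : Type u} [Fintype V] [DecidableEq V]

variable {H M A : Finset (Finset V)}

theorem mem_Fo_iff {j : ℕ} {e g : Finset V} :
    g ∈ Fo H M A j e ↔ g ∈ H ∧ ends M g ⊆ A ∧ e ∈ ends M g ∧
      ∀ a ∈ ends M g, a ≠ e → ¬ Covers g (strFam H M (tt j) a) := by
  simp only [Fo, mem_filter]

/-- PART Level. `Fo` grows with the level. -/
theorem Fo_mono {j j' : ℕ} (h : j ≤ j') (e : Finset V) : Fo H M A j e ⊆ Fo H M A j' e := by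
  intro g hg
  rw [mem_Fo_iff] at hg ⊢
  obtain ⟨h1, h2, h3, h4⟩ := hg
  refine ⟨h1, h2, h3, fun a ha hae hc => h4 a ha hae ?_⟩
  exact covers_anti (strFam_mono (tt_mono h) a) hc

/-- A drop count: an antitone sequence drops at most its initial value many times. -/
theorem drop_count (a : ℕ → ℕ) (ha : ∀ j, a (j + 1) ≤ a j) (P : ℕ → Prop)
    (hP : ∀ j, P j → a (j + 1) < a j) (J : ℕ) :
    ((range J).filter P).card + a J ≤ a 0 := by
  induction J with
  | zero => simp
  | succ J ih =>
    rw [range_add_one, filter_insert]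
    split_ifs with hJ
    · have h1 := hP J hJ
      have h2 : ((insert J ((range J).filter P)).card) ≤ ((range J).filter P).card + 1 :=
        card_insert_le _ _
      omega
    · have h1 := ha J
      omega

/-- Some level is stable for at least half of the bags: `phi 6 6` of `Fo` is antitone in `j` with
values at most `skewBd 6 6`. -/
theorem level_select (J : ℕ) (hJ : 2 * skewBd 6 6 ≤ J) (h6 : ∀ c ∈ H, c.card = 6) :
    ∃ j < J, ∃ A' ⊆ A, A.card ≤ 2 * A'.card ∧ ∀ e ∈ A', ∀ T : Finset V, T.card ≤ 6 →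
      Covers T (Fo H M A j e) → Covers T (Fo H M A (j + 1) e) := by
  set B := skewBd 6 6 with hB
  have hBpos : 0 < B := by
    simp [hB, skewBd]
  have hJpos : 0 < J := by omega
  -- the bad pairs
  let bad : Finset V → ℕ → Prop := fun e j => ∃ T : Finset V, T.card ≤ 6 ∧
    Covers T (Fo H M A j e) ∧ ¬ Covers T (Fo H M A (j + 1) e)
  have hcount : ∀ e, ((range J).filter (bad e)).card ≤ B := by
    intro e
    have h := drop_count (fun j => phi 6 6 (Fo H M A j e))
      (fun j => phi_mono 6 6 (Fo_mono (Nat.le_succ j) e)) (bad e) ?_ J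
    · have h2 : phi 6 6 (Fo H M A 0 e) ≤ B := phi_le 6 6 _
      refine le_trans ?_ h2
      convert (Nat.le_add_right _ _).trans h
    · rintro j ⟨T, hT, hc, hn⟩
      refine phi_strict 6 6 (Fo_mono (Nat.le_succ j) e) ?_ hT hc hn
      intro C hC
      rw [mem_Fo_iff] at hC
      exact (h6 C hC.1).le
  have hsum : ∑ j ∈ range J, (A.filter fun e => bad e j).card ≤ A.card * B := by
    have h1 : ∑ j ∈ range J, (A.filter fun e => bad e j).card
        = ∑ e ∈ A, ((range J).filter (bad e)).card := by
      simp only [card_filter]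
      rw [sum_comm]
    rw [h1]
    calc ∑ e ∈ A, ((range J).filter (bad e)).card ≤ ∑ _e ∈ A, B := sum_le_sum fun e _ => hcount e
      _ = A.card * B := by simp
  have hex : ∃ j < J, 2 * (A.filter fun e => bad e j).card ≤ A.card := by
    by_contra hcon
    push Not at hcon
    have hlt : ∑ _j ∈ range J, A.card < ∑ j ∈ range J, 2 * (A.filter fun e => bad e j).card := by
      apply sum_lt_sum_of_nonempty
      · exact nonempty_range_iff.2 hJpos.ne'
      · intro j hj
        exact hcon j (mem_range.1 hj)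
    rw [← mul_sum] at hlt
    simp only [sum_const, card_range, smul_eq_mul] at hlt
    have h3 : 2 * (A.card * B) ≤ J * A.card := by
      calc 2 * (A.card * B) = (2 * B) * A.card := by ring
        _ ≤ J * A.card := Nat.mul_le_mul_right _ hJ
    omega
  obtain ⟨j, hjJ, hj⟩ := hex
  refine ⟨j, hjJ, A.filter fun e => ¬ bad e j, filter_subset _ _, ?_, ?_⟩
  · have h := card_filter_add_card_filter_not (s := A) (fun e => bad e j)
    omega
  · intro e he T hT hc
    rw [mem_filter] at he
    by_contra hn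
    exact he.2 ⟨T, hT, hc, hn⟩

/-- Every edge living on `A'` is forced at a bag, or covers the families of two bags. -/
theorem dichotomy {J j : ℕ} (hG : Good H M A J) (h6 : ∀ c ∈ H, c.card = 6) (hj : j < J)
    {A' : Finset (Finset V)} (hA' : A' ⊆ A)
    (hst : ∀ e ∈ A', ∀ T : Finset V, T.card ≤ 6 →
      Covers T (Fo H M A j e) → Covers T (Fo H M A (j + 1) e)) :
    ∀ c ∈ H, ends M c ⊆ A' → (∃ e ∈ ends M c, c ∈ Fo H M A (j + 1) e) ∨
      ∃ e ∈ ends M c, ∃ e' ∈ ends M c, e ≠ e' ∧ Covers c (Fo H M A (j + 1) e) ∧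
        Covers c (Fo H M A (j + 1) e') := by
  intro c hc hends
  have hendsA : ends M c ⊆ A := hends.trans hA'
  obtain ⟨e, he, hce⟩ := hG.claimA c hc hendsA (j + 1) (by omega)
  have hlift : ∀ a ∈ ends M c, Covers c (strFam H M (tt (j + 1)) a) →
      Covers c (Fo H M A (j + 1) a) := by
    intro a ha hca
    refine hst a (hends ha) c (h6 c hc).le ?_
    intro g hg
    exact hG.typeB a (hendsA ha) j hj.le c hc hendsA g hg hca
  by_cases hex : ∃ e' ∈ ends M c, e' ≠ e ∧ Covers c (strFam H M (tt (j + 1)) e')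
  · obtain ⟨e', he', hne, hce'⟩ := hex
    exact Or.inr ⟨e, he, e', he', hne.symm, hlift e he hce, hlift e' he' hce'⟩
  · push Not at hex
    refine Or.inl ⟨e, he, ?_⟩
    rw [mem_Fo_iff]
    refine ⟨hc, hendsA, he, fun a ha hae hca => ?_⟩
    exact hex a ha hae hca

end Vale.Agent.Lib.P045R
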