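import Vale.Agent.Lib.P045R.Defs

namespace Vale.Agent.Lib.P045R

open Finset
open scoped Classical

universe u

variable {V : Type u} [Fintype V] [DecidableEq V]

/-- Skew system: `A i` misses `B i`, and `A i` meets `B l` whenever `i` is before `l`. -/
def SkewList (L : List (Finset V × Finset V)) : Prop :=
  (∀ p ∈ L, Disjoint p.1 p.2) ∧ L.Pairwise fun p q => (p.1 ∩ q.2).Nonempty

/-- Counting: every member of the list meets `Q`, so the list is at most the sum of the fibres. -/
private theorem length_le_sum_filter (Q : Finset V) (L : List (Finset V × Finset V))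
    (h : ∀ p ∈ L, (p.1 ∩ Q).Nonempty) :
    L.length ≤ ∑ x ∈ Q, (L.filter fun p => x ∈ p.1).length := by
  induction L with
  | nil => simp
  | cons a L ih =>
    have ih' := ih (fun p hp => h p (List.mem_cons_of_mem _ hp))
    obtain ⟨x, hx⟩ := h a List.mem_cons_self
    have hx1 := (mem_inter.1 hx).1
    have hx2 := (mem_inter.1 hx).2
    have hsum : ∑ y ∈ Q, ((a :: L).filter fun p => y ∈ p.1).length
        = ∑ y ∈ Q, ((if y ∈ a.1 then 1 else 0) + (L.filter fun p => y ∈ p.1).length) := by
      refine Finset.sum_congr rfl fun y _ => ?_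
      by_cases hy : y ∈ a.1
      · simp [hy, add_comm]
      · simp [hy]
    rw [hsum, Finset.sum_add_distrib]
    have h1 : 1 ≤ ∑ y ∈ Q, (if y ∈ a.1 then 1 else 0) := by
      have : (if x ∈ a.1 then 1 else 0) ≤ ∑ y ∈ Q, (if y ∈ a.1 then 1 else 0) :=
        Finset.single_le_sum (f := fun y => if y ∈ a.1 then 1 else 0)
          (fun _ _ => Nat.zero_le _) hx2
      simpa [hx1] using this
    simp only [List.length_cons]
    omega

/-- PART Skew. Proof: look at the last pair, pigeonhole on its second set, erase, induct on `s`. -/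
theorem skew_length_le (s R : ℕ) (L : List (Finset V × Finset V)) (hL : SkewList L)
    (h : ∀ p ∈ L, p.1.card ≤ s ∧ p.2.card ≤ R) : L.length ≤ skewBd s R := by
  induction s generalizing L with
  | zero =>
    rcases L with _ | ⟨a, _ | ⟨b, L⟩⟩
    · simp
    · simp [skewBd]
    · exfalso
      have hab := (List.pairwise_cons.1 hL.2).1 b (by simp)
      have ha0 := (h a (by simp)).1
      have : a.1 = ∅ := Finset.card_eq_zero.1 (Nat.le_zero.1 ha0)
      simp [this] at hab
  | succ s ih =>
    rcases List.eq_nil_or_concat L with rfl | ⟨L', q, rfl⟩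
    · simp
    · have hskew := hL
      have hdisj := hL.1
      have hpw := hL.2
      rw [List.concat_eq_append, List.pairwise_append] at hpw
      obtain ⟨hpw1, _, hpw3⟩ := hpw
      have hq : ∀ p ∈ L', (p.1 ∩ q.2).Nonempty := fun p hp =>
        hpw3 p hp q (by simp)
      have hlen := length_le_sum_filter q.2 L' hq
      have hfib : ∀ x ∈ q.2, (L'.filter fun p => x ∈ p.1).length ≤ skewBd s R := by
        intro x _
        have hmem : ∀ p ∈ L', p ∈ L'.concat q := fun p hp => by
          rw [List.concat_eq_append]; exact List.mem_append_left _ hp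
        set L2 := L'.filter fun p => x ∈ p.1 with hL2
        have hmem2 : ∀ p ∈ L2, p ∈ L' ∧ x ∈ p.1 := fun p hp => by
          have := List.mem_filter.1 hp
          exact ⟨this.1, by simpa using this.2⟩
        have key := ih (L2.map fun p => (p.1.erase x, p.2)) ?_ ?_
        · simpa using key
        · refine ⟨?_, ?_⟩
          · intro p hp
            obtain ⟨p0, hp0, rfl⟩ := List.mem_map.1 hp
            exact Finset.disjoint_of_subset_left (Finset.erase_subset _ _)
              (hdisj p0 (hmem p0 (hmem2 p0 hp0).1))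
          · rw [List.pairwise_map]
            have hpw2 : L2.Pairwise fun p q => (p.1 ∩ q.2).Nonempty :=
              List.Pairwise.filter _ hpw1
            refine List.Pairwise.imp_of_mem ?_ hpw2
            intro a b ha hb hab
            obtain ⟨y, hy⟩ := hab
            have hy1 := (mem_inter.1 hy).1
            have hy2 := (mem_inter.1 hy).2
            have hxb : x ∉ b.2 := fun hxb =>
              (Finset.disjoint_left.1 (hdisj b (hmem b (hmem2 b hb).1)))
                (hmem2 b hb).2 hxb
            have hyx : y ≠ x := fun e => hxb (e ▸ hy2)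
            exact ⟨y, mem_inter.2 ⟨mem_erase.2 ⟨hyx, hy1⟩, hy2⟩⟩
        · intro p hp
          obtain ⟨p0, hp0, rfl⟩ := List.mem_map.1 hp
          have h0 := h p0 (hmem p0 (hmem2 p0 hp0).1)
          refine ⟨?_, h0.2⟩
          rw [Finset.card_erase_of_mem (hmem2 p0 hp0).2]
          have := h0.1
          omega
      have hqR : q.2.card ≤ R := (h q (by rw [List.concat_eq_append]; simp)).2
      have hsum : ∑ x ∈ q.2, (L'.filter fun p => x ∈ p.1).length ≤ R * skewBd s R :=
        calc _ ≤ ∑ _x ∈ q.2, skewBd s R := Finset.sum_le_sum hfib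
          _ = q.2.card * skewBd s R := by simp
          _ ≤ R * skewBd s R := Nat.mul_le_mul_right _ hqR
      have : (L'.concat q).length = L'.length + 1 := by simp
      rw [this]
      show L'.length + 1 ≤ 1 + R * skewBd s R
      omega

/-- The potential: the longest skew system of covers of `F`. -/
noncomputable def phi (s R : ℕ) (F : Finset (Finset V)) : ℕ :=
  Nat.findGreatest (fun m => ∃ L : List (Finset V × Finset V), L.length = m ∧ SkewList L ∧
    ∀ p ∈ L, p.1.card ≤ s ∧ p.2.card ≤ R ∧ Covers p.1 F) (skewBd s R)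

theorem phi_le (s R : ℕ) (F : Finset (Finset V)) : phi s R F ≤ skewBd s R :=
  Nat.findGreatest_le _

private theorem phi_spec (s R : ℕ) (F : Finset (Finset V)) :
    ∃ L : List (Finset V × Finset V), L.length = phi s R F ∧ SkewList L ∧
      ∀ p ∈ L, p.1.card ≤ s ∧ p.2.card ≤ R ∧ Covers p.1 F := by
  have h0 : ∃ L : List (Finset V × Finset V), L.length = 0 ∧ SkewList L ∧
      ∀ p ∈ L, p.1.card ≤ s ∧ p.2.card ≤ R ∧ Covers p.1 F :=
    ⟨[], rfl, ⟨by simp, List.Pairwise.nil⟩, by simp⟩
  exact Nat.findGreatest_spec (P := fun m => ∃ L : List (Finset V × Finset V), L.length = m ∧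
    SkewList L ∧ ∀ p ∈ L, p.1.card ≤ s ∧ p.2.card ≤ R ∧ Covers p.1 F) (Nat.zero_le _) h0

private theorem le_phi (s R : ℕ) (F : Finset (Finset V)) (L : List (Finset V × Finset V))
    (hS : SkewList L) (h : ∀ p ∈ L, p.1.card ≤ s ∧ p.2.card ≤ R ∧ Covers p.1 F) :
    L.length ≤ phi s R F := by
  have hb : L.length ≤ skewBd s R :=
    skew_length_le s R L hS fun p hp => ⟨(h p hp).1, (h p hp).2.1⟩
  exact Nat.le_findGreatest (P := fun m => ∃ L : List (Finset V × Finset V), L.length = m ∧
    SkewList L ∧ ∀ p ∈ L, p.1.card ≤ s ∧ p.2.card ≤ R ∧ Covers p.1 F) hb ⟨L, rfl, hS, h⟩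

theorem phi_mono (s R : ℕ) {F F' : Finset (Finset V)} (h : F' ⊆ F) : phi s R F ≤ phi s R F' := by
  obtain ⟨L, hlen, hS, hL⟩ := phi_spec s R F
  rw [← hlen]
  exact le_phi s R F' L hS fun p hp =>
    ⟨(hL p hp).1, (hL p hp).2.1, fun B hB => (hL p hp).2.2 B (h hB)⟩

theorem phi_strict (s R : ℕ) {F F' : Finset (Finset V)} (h : F' ⊆ F)
    (hR : ∀ B ∈ F, B.card ≤ R) {T : Finset V} (hT : T.card ≤ s) (hc : Covers T F')
    (hn : ¬ Covers T F) : phi s R F < phi s R F' := by
  obtain ⟨L, hlen, hS, hL⟩ := phi_spec s R F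
  unfold Covers at hn
  push Not at hn
  obtain ⟨B, hB, hTB⟩ := hn
  have hdisj : Disjoint T B := by
    rw [Finset.disjoint_iff_inter_eq_empty]
    exact hTB
  have key := le_phi s R F' (L ++ [(T, B)]) ?_ ?_
  · simp only [List.length_append, List.length_singleton, hlen] at key
    omega
  · refine ⟨?_, ?_⟩
    · intro p hp
      rcases List.mem_append.1 hp with hp | hp
      · exact hS.1 p hp
      · rw [List.mem_singleton.1 hp]; exact hdisj
    · rw [List.pairwise_append]
      refine ⟨hS.2, by simp, ?_⟩
      intro a ha b hb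
      rw [List.mem_singleton.1 hb]
      exact (hL a ha).2.2 B hB
  · intro p hp
    rcases List.mem_append.1 hp with hp | hp
    · exact ⟨(hL p hp).1, (hL p hp).2.1, fun B' hB' => (hL p hp).2.2 B' (h hB')⟩
    · rw [List.mem_singleton.1 hp]
      exact ⟨hT, hR B hB, hc⟩

end Vale.Agent.Lib.P045R
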