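import Vale.Agent.Lib.P045R.Scale
import Vale.Agent.Lib.P045R.Skew
import Vale.Agent.Lib.P045R.Terr
import Vale.Agent.Lib.P045R.Basic

namespace Vale.Agent.Lib.P045R

open Finset
open scoped Classical

universe u

/-- PART ScaleInst. `scale_abstract` with `Tr D e = terrBig (restr H D) (alive M D) J e` and
`psi D e` = the sum over levels of `phi (sBig J) (6 * tt j)` of the structure families in
`(restr H D, alive M D)` if `e` is alive, the maximum plus one if `e` is dead. -/
theorem scale_select (J : ℕ) (K : ℕ → ℕ) : ∃ Lmax : ℕ,
    ∀ {V : Type u} [Fintype V] [DecidableEq V] (H M : Finset (Finset V)),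
      (∀ c ∈ H, c.card = 6) → PD M → (∀ e ∈ M, e.card = 6) →
      ∃ D, closedD M D ∧ ∃ L ≤ Lmax, K L * (D \ vset M).card ≤ M.card ∧
        M.card ≤ 4 * (lowSet (restr H D) (alive M D) J L).card := by
  classical
  set W : ℕ := 1 + (range (J + 2)).sum fun j => skewBd (sBig J) (6 * tt j) with hW
  obtain ⟨Lmax, hL⟩ := scale_abstract.{u} (tBd J) W K
  refine ⟨Lmax, ?_⟩
  intro V _ _ H M h6 hPD hM6
  have h6r : ∀ D : Finset V, ∀ c ∈ restr H D, c.card = 6 := by
    intro D c hc
    exact h6 c (mem_filter.1 hc).1
  let psi : Finset V → Finset V → ℕ := fun D e =>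
    if e ∈ alive M D then
      (range (J + 2)).sum fun j => phi (sBig J) (6 * tt j) (strFam (restr H D) (alive M D) (tt j) e)
    else W
  have hsum_lt : ∀ D e, ((range (J + 2)).sum fun j =>
      phi (sBig J) (6 * tt j) (strFam (restr H D) (alive M D) (tt j) e)) < W := by
    intro D e
    have : ((range (J + 2)).sum fun j =>
        phi (sBig J) (6 * tt j) (strFam (restr H D) (alive M D) (tt j) e)) ≤
        (range (J + 2)).sum fun j => skewBd (sBig J) (6 * tt j) :=
      sum_le_sum fun j _ => phi_le _ _ _
    omega
  have hpsi_le : ∀ D e, psi D e ≤ W := by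
    intro D e
    by_cases he : e ∈ alive M D
    · simp only [psi, if_pos he]
      exact (hsum_lt D e).le
    · simp only [psi, if_neg he]
      exact le_rfl
  have halive_mono : ∀ {D D' : Finset V}, D ⊆ D' → ∀ {e}, e ∈ alive M D' → e ∈ alive M D := by
    intro D D' hDD e he
    obtain ⟨he1, he2⟩ := mem_filter.1 he
    exact mem_filter.2 ⟨he1, Disjoint.mono_right hDD he2⟩
  obtain ⟨D, hD, L, hLle, h1, h2⟩ := hL M hPD hM6
    (fun D e => terrBig (restr H D) (alive M D) J e) psi
    (by
      intro D _ e he
      refine ⟨?_, ?_⟩
      · exact terrBig_card (h6r D) J (hM6 e (mem_filter.1 he).1)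
      · exact subset_union_left)
    hpsi_le
    (by
      intro D D' hDD hD hD' e he
      by_cases he' : e ∈ alive M D'
      · have heD := halive_mono hDD he'
        simp only [psi, if_pos he', if_pos heD]
        refine sum_le_sum fun j _ => ?_
        exact phi_mono _ _ (strFam_restr_mono hDD hD hD' (tt j) e)
      · have : psi D' e = W := by simp only [psi, if_neg he']
        rw [this]
        exact hpsi_le D e)
    (by
      intro D D' hDD hD hD' e he z hz hzD'
      have hpsiD : psi D e = (range (J + 2)).sum fun j =>
          phi (sBig J) (6 * tt j) (strFam (restr H D) (alive M D) (tt j) e) := by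
        simp only [psi, if_pos he]
      by_cases he' : e ∈ alive M D'
      · have hpsiD' : psi D' e = (range (J + 2)).sum fun j =>
            phi (sBig J) (6 * tt j) (strFam (restr H D') (alive M D') (tt j) e) := by
          simp only [psi, if_pos he']
        rw [hpsiD, hpsiD']
        have hz' : z ∈ e ∪ (range (J + 2)).biUnion fun j =>
            terrOf (sBig J) (strFam (restr H D) (alive M D) (tt j) e) := hz
        rcases mem_union.1 hz' with hze | hzt
        · exfalso
          exact (disjoint_left.1 (mem_filter.1 he').2) hze hzD'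
        · obtain ⟨j, hj, hzj⟩ := mem_biUnion.1 hzt
          refine sum_lt_sum (fun i _ => phi_mono _ _ (strFam_restr_mono hDD hD hD' (tt i) e))
            ⟨j, hj, ?_⟩
          obtain ⟨T, hTc, hTn, hTF⟩ := terrOf_gain hzj
          have hsub := strFam_restr_mono (H := H) (M := M) hDD hD hD' (tt j) e
          have hcov : Covers T (strFam (restr H D') (alive M D') (tt j) e) := by
            refine hTF _ hsub ?_
            intro B hB hzB
            obtain ⟨S, hS, rfl⟩ := mem_image.1 hB
            obtain ⟨c, hc, hzc⟩ := mem_biUnion.1 hzB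
            have hS' := (mem_filter.1 hS).2
            have hcr : c ∈ restr H D' := hS'.1 hc
            exact (disjoint_left.1 (mem_filter.1 hcr).2) hzc hzD'
          exact phi_strict _ _ hsub
            (fun B hB => strFam_card_le (h6r D) hB) hTc hcov hTn
      · have : psi D' e = W := by simp only [psi, if_neg he']
        rw [this, hpsiD]
        exact hsum_lt D e)
  refine ⟨D, hD, L, hLle, h1, ?_⟩
  exact h2

end Vale.Agent.Lib.P045R
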