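import Vale.Agent.Lib.P045R.TypeAB
import Vale.Agent.Lib.P045R.Indep

namespace Vale.Agent.Lib.P045R

open Finset
open scoped Classical

universe u

section Tagged

/-- Items of a tagged set: vertices and tagged bags. -/
noncomputable def encTag {V : Type u} [DecidableEq V] (u : Finset V) (U : Fin 3 → Finset (Finset V)) :
    Finset (V ⊕ (Fin 3 × Finset V)) :=
  u.image Sum.inl ∪ (univ : Finset (Fin 3)).biUnion fun t => (U t).image fun a => Sum.inr (t, a)

theorem encTag_card {V : Type u} [DecidableEq V] (u : Finset V) (U : Fin 3 → Finset (Finset V)) :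
    (encTag u U).card ≤ u.card + ∑ t, (U t).card := by
  unfold encTag
  refine (card_union_le _ _).trans ?_
  refine add_le_add card_image_le ?_
  refine card_biUnion_le.trans ?_
  exact sum_le_sum fun t _ => card_image_le

/-- The kernel lemma for tagged sets. -/
theorem kernel_tagged {V : Type u} [DecidableEq V] {ι κ : Type u} (a b : ℕ) (P : ι → Prop) (Q : κ → Prop)
    (u : ι → Finset V) (U : ι → Fin 3 → Finset (Finset V))
    (v : κ → Finset V) (W : κ → Fin 3 → Finset (Finset V))
    (hA : ∀ i, P i → (u i).card + ∑ t, (U i t).card ≤ a)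
    (hB : ∀ k, Q k → (v k).card + ∑ t, (W k t).card ≤ b)
    (hX : ∀ i, P i → ∀ k, Q k → (u i ∩ v k).Nonempty ∨ ∃ t, (U i t ∩ W k t).Nonempty) :
    ∃ O : Finset (Finset V), O.card ≤ kerBd a b ∧ ∀ i, P i → ∀ k, Q k →
      (u i ∩ v k).Nonempty ∨ ∃ t, ∃ x ∈ O, x ∈ U i t ∧ x ∈ W k t := by
  obtain ⟨N, hN, hNX⟩ := kernel a b
    {A | ∃ i, P i ∧ A = encTag (u i) (U i)} {B | ∃ k, Q k ∧ B = encTag (v k) (W k)}
    (by
      rintro A ⟨i, hi, rfl⟩
      exact (encTag_card _ _).trans (hA i hi))
    (by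
      rintro B ⟨k, hk, rfl⟩
      exact (encTag_card _ _).trans (hB k hk))
    (by
      rintro A ⟨i, hi, rfl⟩ B ⟨k, hk, rfl⟩
      rcases hX i hi k hk with ⟨x, hx⟩ | ⟨t, x, hx⟩
      · rw [mem_inter] at hx
        refine ⟨Sum.inl x, mem_inter.2 ⟨?_, ?_⟩⟩
        · exact mem_union_left _ (mem_image_of_mem _ hx.1)
        · exact mem_union_left _ (mem_image_of_mem _ hx.2)
      · rw [mem_inter] at hx
        refine ⟨Sum.inr (t, x), mem_inter.2 ⟨?_, ?_⟩⟩
        · exact mem_union_right _ (mem_biUnion.2 ⟨t, mem_univ _, mem_image_of_mem _ hx.1⟩)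
        · exact mem_union_right _ (mem_biUnion.2 ⟨t, mem_univ _, mem_image_of_mem _ hx.2⟩))
  refine ⟨N.biUnion fun x => Sum.elim (fun _ => ∅) (fun p => {p.2}) x, ?_, ?_⟩
  · refine card_biUnion_le.trans ?_
    refine le_trans (sum_le_sum (g := fun _ => 1) ?_) ?_
    · rintro (x | ⟨t, a⟩) _
      · simp
      · simp
    · simpa using hN
  · intro i hi k hk
    obtain ⟨x, hx⟩ := hNX _ ⟨i, hi, rfl⟩ _ ⟨k, hk, rfl⟩
    rw [mem_inter, mem_inter] at hx
    obtain ⟨⟨h1, h2⟩, h3⟩ := hx
    rcases x with x | ⟨t, a⟩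
    · left
      refine ⟨x, mem_inter.2 ⟨?_, ?_⟩⟩
      · unfold encTag at h1
        rw [mem_union] at h1
        rcases h1 with h1 | h1
        · obtain ⟨y, hy, hyx⟩ := mem_image.1 h1
          cases hyx
          exact hy
        · obtain ⟨t, _, ht⟩ := mem_biUnion.1 h1
          obtain ⟨y, _, hyx⟩ := mem_image.1 ht
          cases hyx
      · unfold encTag at h2
        rw [mem_union] at h2
        rcases h2 with h2 | h2
        · obtain ⟨y, hy, hyx⟩ := mem_image.1 h2
          cases hyx
          exact hy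
        · obtain ⟨t, _, ht⟩ := mem_biUnion.1 h2
          obtain ⟨y, _, hyx⟩ := mem_image.1 ht
          cases hyx
    · right
      refine ⟨t, a, mem_biUnion.2 ⟨Sum.inr (t, a), h3, by simp⟩, ?_, ?_⟩
      · unfold encTag at h1
        rw [mem_union] at h1
        rcases h1 with h1 | h1
        · obtain ⟨y, _, hyx⟩ := mem_image.1 h1
          cases hyx
        · obtain ⟨t', _, ht⟩ := mem_biUnion.1 h1
          obtain ⟨y, hy, hyx⟩ := mem_image.1 ht
          cases hyx
          exact hy
      · unfold encTag at h2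
        rw [mem_union] at h2
        rcases h2 with h2 | h2
        · obtain ⟨y, _, hyx⟩ := mem_image.1 h2
          cases hyx
        · obtain ⟨t', _, ht⟩ := mem_biUnion.1 h2
          obtain ⟨y, hy, hyx⟩ := mem_image.1 ht
          cases hyx
          exact hy

end Tagged

section Main

variable {V : Type u} [Fintype V] [DecidableEq V]

/-- Bags of `X` whose territory meets `c`. -/
noncomputable def touchX (H M X : Finset (Finset V)) (J : ℕ) (c : Finset V) : Finset (Finset V) :=
  X.filter fun a => (c ∩ terrBig H M J a).Nonempty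

/-- Bags of `X` whose territory meets that of a bag of `Y`. -/
noncomputable def closeX (H M X : Finset (Finset V)) (J : ℕ) (Y : Finset (Finset V)) :
    Finset (Finset V) :=
  X.filter fun x => ∃ y ∈ Y, ¬ Disjoint (terrBig H M J y) (terrBig H M J x)

/-- The other bags of `g`. -/
noncomputable def Es (M : Finset (Finset V)) (e g : Finset V) : Finset (Finset V) :=
  (ends M g).erase e

variable {H M X : Finset (Finset V)} {J L : ℕ}

theorem fiber_card_le
    (hlow : ∀ e ∈ X, ∀ z ∈ terrBig H M J e, (X.filter fun e' => z ∈ terrBig H M J e').card < L)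
    (z : V) : (X.filter fun e' => z ∈ terrBig H M J e').card ≤ L := by
  by_cases h : (X.filter fun e' => z ∈ terrBig H M J e').Nonempty
  · obtain ⟨e, he⟩ := h
    rw [mem_filter] at he
    exact (hlow e he.1 z he.2).le
  · rw [not_nonempty_iff_eq_empty] at h
    rw [h]
    simp

theorem touchX_card
    (hlow : ∀ e ∈ X, ∀ z ∈ terrBig H M J e, (X.filter fun e' => z ∈ terrBig H M J e').card < L)
    {c : Finset V} (hc : c.card = 6) : (touchX H M X J c).card ≤ 6 * L := by
  have hsub : touchX H M X J c ⊆ c.biUnion fun z => X.filter fun e' => z ∈ terrBig H M J e' := by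
    intro a ha
    rw [touchX, mem_filter] at ha
    obtain ⟨z, hz⟩ := ha.2
    rw [mem_inter] at hz
    exact mem_biUnion.2 ⟨z, hz.1, mem_filter.2 ⟨ha.1, hz.2⟩⟩
  refine (card_le_card hsub).trans ?_
  refine (card_biUnion_le_card_mul _ _ L fun z _ => fiber_card_le hlow z).trans ?_
  rw [hc]

theorem closeX_single_card (h6 : ∀ c ∈ H, c.card = 6)
    (hlow : ∀ e ∈ X, ∀ z ∈ terrBig H M J e, (X.filter fun e' => z ∈ terrBig H M J e').card < L)
    {y : Finset V} (hy : y.card = 6) : (closeX H M X J {y}).card ≤ tBd J * L := by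
  have hsub : closeX H M X J {y} ⊆
      (terrBig H M J y).biUnion fun z => X.filter fun e' => z ∈ terrBig H M J e' := by
    intro a ha
    rw [closeX, mem_filter] at ha
    obtain ⟨y', hy', hd⟩ := ha.2
    rw [mem_singleton] at hy'
    subst hy'
    rw [not_disjoint_iff] at hd
    obtain ⟨z, hz1, hz2⟩ := hd
    exact mem_biUnion.2 ⟨z, hz1, mem_filter.2 ⟨ha.1, hz2⟩⟩
  refine (card_le_card hsub).trans ?_
  refine (card_biUnion_le_card_mul _ _ L fun z _ => fiber_card_le hlow z).trans ?_
  exact Nat.mul_le_mul_right _ (terrBig_card h6 J hy)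

theorem closeX_card (h6 : ∀ c ∈ H, c.card = 6)
    (hlow : ∀ e ∈ X, ∀ z ∈ terrBig H M J e, (X.filter fun e' => z ∈ terrBig H M J e').card < L)
    {Y : Finset (Finset V)} (hY : ∀ y ∈ Y, y.card = 6) {n : ℕ} (hn : Y.card ≤ n) :
    (closeX H M X J Y).card ≤ n * (tBd J * L) := by
  have hsub : closeX H M X J Y ⊆ Y.biUnion fun y => closeX H M X J {y} := by
    intro a ha
    rw [closeX, mem_filter] at ha
    obtain ⟨y, hy, hd⟩ := ha.2
    refine mem_biUnion.2 ⟨y, hy, ?_⟩
    rw [closeX, mem_filter]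
    exact ⟨ha.1, y, mem_singleton_self y, hd⟩
  refine (card_le_card hsub).trans ?_
  refine (card_biUnion_le_card_mul _ _ _ fun y hy => closeX_single_card h6 hlow (hY y hy)).trans ?_
  exact Nat.mul_le_mul_right _ hn

theorem Es_card {hM : PD M} {e g : Finset V} (hg : g.card = 6) (he : e ∈ ends M g) :
    (Es M e g).card ≤ 5 := by
  have := ends_card_le hM hg
  rw [Es, card_erase_of_mem he]
  omega

/-- Edges of the B family at `e` at level `j`. -/
def BFam (H M X : Finset (Finset V)) (J : ℕ) (e : Finset V) (j : ℕ) (g : Finset V) : Prop :=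
  g ∈ H ∧ ends M g ⊆ X ∧ e ∈ ends M g ∧
    (∀ a ∈ ends M g, ∀ b ∈ ends M g, a ≠ e → b ≠ e → a ≠ b →
      Disjoint (terrBig H M J a) (terrBig H M J b)) ∧
    ∀ a ∈ ends M g, a ≠ e → ¬ Covers g (strFam H M (tt j) a)

theorem levelB_out (h6 : ∀ c ∈ H, c.card = 6) (hM : PD M)
    (hlow : ∀ e ∈ X, ∀ z ∈ terrBig H M J e, (X.filter fun e' => z ∈ terrBig H M J e').card < L)
    (e : Finset V) (j : ℕ) :
    ∃ O : Finset (Finset V), O.card ≤ kerBd (6 + 6 * L) 11 ∧ (j ≤ J →
      ∀ c ∈ H, ends M c ⊆ X → Covers c (strFam H M (tt (j + 1)) e) →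
      ∀ g, BFam H M X J e j g → (c ∩ g).Nonempty ∨ ∃ x ∈ O, x ∈ Es M e g) := by
  by_cases hj : j ≤ J
  · obtain ⟨O, hO, hOX⟩ := kernel_tagged (V := V) (ι := Finset V) (κ := Finset V) (6 + 6 * L) 11
      (fun c => c ∈ H ∧ ends M c ⊆ X ∧ Covers c (strFam H M (tt (j + 1)) e))
      (fun g => BFam H M X J e j g)
      (fun c => c) (fun c => ![touchX H M X J c, ∅, ∅])
      (fun g => g) (fun g => ![Es M e g, ∅, ∅])
      (by
        rintro c ⟨hc, -, -⟩
        have := touchX_card hlow (h6 c hc)
        simp only [Fin.sum_univ_three]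
        simp [h6 c hc]
        omega)
      (by
        rintro g ⟨hg, -, he, -, -⟩
        have := Es_card (hM := hM) (h6 g hg) he
        simp only [Fin.sum_univ_three]
        simp [h6 g hg]
        omega)
      (by
        rintro c ⟨hc, -, hcov⟩ g ⟨hg, hgX, he, hfar, hblock⟩
        rcases cross_B h6 hM J hj (h6 c hc) hg he hfar hblock hcov with h | ⟨a, ha, hae, hct⟩
        · exact Or.inl h
        · right
          refine ⟨0, a, mem_inter.2 ⟨?_, ?_⟩⟩
          · simp only [Matrix.cons_val_zero]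
            rw [touchX, mem_filter]
            exact ⟨hgX ha, hct⟩
          · simp only [Matrix.cons_val_zero]
            exact mem_erase.2 ⟨hae, ha⟩)
    refine ⟨O, hO, fun _ c hc hcX hcov g hg => ?_⟩
    rcases hOX c ⟨hc, hcX, hcov⟩ g hg with h | ⟨t, x, hx, h1, h2⟩
    · exact Or.inl h
    · right
      refine ⟨x, hx, ?_⟩
      fin_cases t
      · simpa using h2
      · simp at h2
      · simp at h2
  · exact ⟨∅, by simp, fun h => absurd h hj⟩

theorem levelA_out (h6 : ∀ c ∈ H, c.card = 6) (hM : PD M) (no : NoAug H M)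
    (hbag : ∀ e ∈ M, e.card = 6) (hXM : X ⊆ M)
    (hlow : ∀ e ∈ X, ∀ z ∈ terrBig H M J e, (X.filter fun e' => z ∈ terrBig H M J e').card < L)
    (e : Finset V) :
    ∃ O : Finset (Finset V),
      O.card ≤ kerBd (6 + 5 * (tBd J * L) + 6 * L + 5) (6 + 5 + 5 + 6 * L) ∧
      ∀ g, BFam H M X J e J g → ∀ g', BFam H M X J e J g' →
        (g ∩ g').Nonempty ∨ ∃ x ∈ O, x ∈ Es M e g ∨ x ∈ Es M e g' := by
  obtain ⟨O, hO, hOX⟩ := kernel_tagged (V := V) (ι := Finset V) (κ := Finset V)
      (6 + 5 * (tBd J * L) + 6 * L + 5) (6 + 5 + 5 + 6 * L)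
      (fun g => BFam H M X J e J g)
      (fun g => BFam H M X J e J g)
      (fun g => g) (fun g => ![closeX H M X J (Es M e g), touchX H M X J g, Es M e g])
      (fun g => g) (fun g => ![Es M e g, Es M e g, touchX H M X J g])
      (by
        rintro g ⟨hg, hgX, he, -, -⟩
        have h1 := touchX_card hlow (h6 g hg)
        have h2 := Es_card (hM := hM) (h6 g hg) he
        have h3 := closeX_card (Y := Es M e g) (n := 5) h6 hlow
          (fun y hy => hbag y (hXM (hgX (mem_of_mem_erase hy)))) h2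
        simp only [Fin.sum_univ_three]
        simp [h6 g hg]
        omega)
      (by
        rintro g ⟨hg, hgX, he, -, -⟩
        have h1 := touchX_card hlow (h6 g hg)
        have h2 := Es_card (hM := hM) (h6 g hg) he
        simp only [Fin.sum_univ_three]
        simp [h6 g hg]
        omega)
      (by
        rintro g ⟨hg, hgX, he, hfar, hblock⟩ g' ⟨hg', hgX', he', hfar', hblock'⟩
        rcases cross_A h6 hM no J hg hg' he he' hfar hfar' hblock hblock' with
          h | ⟨a, ha, hae, hct⟩ | ⟨a, ha, hae, hct⟩ | ⟨a, ha, hae, b, hb, hbe, hd⟩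
        · exact Or.inl h
        · right
          refine ⟨2, a, mem_inter.2 ⟨?_, ?_⟩⟩
          · simp
            exact mem_erase.2 ⟨hae, ha⟩
          · simp
            rw [touchX, mem_filter]
            exact ⟨hgX ha, hct⟩
        · right
          refine ⟨1, a, mem_inter.2 ⟨?_, ?_⟩⟩
          · simp
            rw [touchX, mem_filter]
            exact ⟨hgX' ha, hct⟩
          · simp
            exact mem_erase.2 ⟨hae, ha⟩
        · right
          refine ⟨0, b, mem_inter.2 ⟨?_, ?_⟩⟩
          · simp only [Matrix.cons_val_zero]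
            rw [closeX, mem_filter]
            exact ⟨hgX' hb, a, mem_erase.2 ⟨hae, ha⟩, hd⟩
          · simp only [Matrix.cons_val_zero]
            exact mem_erase.2 ⟨hbe, hb⟩)
  refine ⟨O, hO, fun g hg g' hg' => ?_⟩
  rcases hOX g hg g' hg' with h | ⟨t, x, hx, h1, h2⟩
  · exact Or.inl h
  · right
    refine ⟨x, hx, ?_⟩
    fin_cases t
    · right; simpa using h2
    · right; simpa using h2
    · left; simpa using h1

end Main

/-- PART Sparse. Kernel lemma at each bag, then an independent set. See the blueprint. -/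
theorem sparse_exists (J L : ℕ) : ∃ Dsp : ℕ, 0 < Dsp ∧
    ∀ {V : Type u} [Fintype V] [DecidableEq V] (H M X : Finset (Finset V)),
      (∀ c ∈ H, c.card = 6) → PD M → NoAug H M → X ⊆ M → (∀ e ∈ M, e.card = 6) →
      (∀ e ∈ X, ∀ z ∈ terrBig H M J e, (X.filter fun e' => z ∈ terrBig H M J e').card < L) →
      ∃ A ⊆ X, X.card ≤ Dsp * A.card ∧ Good H M A J := by
  set d : ℕ := tBd J * L + (J + 1) * kerBd (6 + 6 * L) 11 +
    kerBd (6 + 5 * (tBd J * L) + 6 * L + 5) (6 + 5 + 5 + 6 * L) with hd
  refine ⟨2 * d + 1, by omega, ?_⟩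
  intro V _ _ H M X h6 hM no hXM hbag hlow
  choose OB hOBc hOB using fun e j => levelB_out (J := J) (L := L) (X := X) h6 hM hlow e j
  choose OA hOAc hOA using fun e => levelA_out (J := J) (L := L) (X := X) h6 hM no hbag hXM hlow e
  let out : Finset V → Finset (Finset V) := fun e =>
    closeX H M X J {e} ∪ (range (J + 1)).biUnion (fun j => OB e j) ∪ OA e
  have hout : ∀ x ∈ X, (out x).card ≤ d := by
    intro x hx
    have h1 := closeX_single_card (J := J) (L := L) (X := X) h6 hlow (hbag x (hXM hx))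
    have h2 : ((range (J + 1)).biUnion (fun j => OB x j)).card ≤ (J + 1) * kerBd (6 + 6 * L) 11 := by
      refine (card_biUnion_le_card_mul _ _ _ fun j _ => hOBc x j).trans ?_
      simp
    have h3 := hOAc x
    have h4 := card_union_le (closeX H M X J {x} ∪ (range (J + 1)).biUnion (fun j => OB x j)) (OA x)
    have h5 := card_union_le (closeX H M X J {x}) ((range (J + 1)).biUnion (fun j => OB x j))
    simp only [out]
    omega
  obtain ⟨A, hAX, hAc, hAi⟩ := exists_indep X out d hout
  have hfar : ∀ a ∈ A, ∀ b ∈ A, a ≠ b → Disjoint (terrBig H M J a) (terrBig H M J b) := by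
    intro a ha b hb hab
    by_contra hcon
    refine hab (hAi a ha b hb ?_).symm
    refine mem_union_left _ (mem_union_left _ ?_)
    rw [closeX, mem_filter]
    exact ⟨hAX hb, a, mem_singleton_self a, hcon⟩
  refine ⟨A, hAX, hAc, ⟨hAX.trans hXM, hfar, ?_, ?_, ?_⟩⟩
  · intro c hc hcA j hj
    exact claimA_of_far h6 hM no J hc (fun a ha b hb hab => hfar a (hcA ha) b (hcA hb) hab) hj
  · intro e he g hg g' hg'
    rw [Fo, mem_filter] at hg hg'
    obtain ⟨hgH, hgA, heg, hgb⟩ := hg
    obtain ⟨hgH', hgA', heg', hgb'⟩ := hg'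
    have hB : BFam H M X J e J g :=
      ⟨hgH, hgA.trans hAX, heg, fun a ha b hb _ _ hab => hfar a (hgA ha) b (hgA hb) hab, hgb⟩
    have hB' : BFam H M X J e J g' :=
      ⟨hgH', hgA'.trans hAX, heg', fun a ha b hb _ _ hab => hfar a (hgA' ha) b (hgA' hb) hab, hgb'⟩
    rcases hOA e g hB g' hB' with h | ⟨x, hx, h⟩
    · exact h
    · exfalso
      have hxO : x ∈ out e := mem_union_right _ hx
      rcases h with h | h
      · rw [Es, mem_erase] at h
        exact h.1 (hAi e he x (hgA h.2) hxO)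
      · rw [Es, mem_erase] at h
        exact h.1 (hAi e he x (hgA' h.2) hxO)
  · intro e he j hj c hc hcA g hg hcov
    rw [Fo, mem_filter] at hg
    obtain ⟨hgH, hgA, heg, hgb⟩ := hg
    have hB : BFam H M X J e j g :=
      ⟨hgH, hgA.trans hAX, heg, fun a ha b hb _ _ hab => hfar a (hgA ha) b (hgA hb) hab, hgb⟩
    rcases hOB e j hj c hc (hcA.trans hAX) hcov g hB with h | ⟨x, hx, h⟩
    · exact h
    · exfalso
      have hxO : x ∈ out e := by
        refine mem_union_left _ (mem_union_right _ (mem_biUnion.2 ⟨j, ?_, hx⟩))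
        rw [mem_range]
        omega
      rw [Es, mem_erase] at h
      exact h.1 (hAi e he x (hgA h.2) hxO)

end Vale.Agent.Lib.P045R
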