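import Vale.Agent.Lib.P045R.FinalLocal
import Vale.Agent.Lib.P045R.Sparse
import Vale.Agent.Lib.P045R.Level
import Vale.Agent.Lib.P045R.ScaleInst

namespace Vale.Agent.Lib.P045R

open Finset
open scoped Classical

universe u

private theorem edge6_card_aux {V : Type u} [DecidableEq V] {part : V → Fin 6} {g : Finset V}
    (h : Edge6 part g) : g.card = 6 := by
  have h1 := Finset.card_eq_sum_card_fiberwise (f := part) (s := g) (t := univ)
    (fun x _ => mem_coe.2 (mem_univ _))
  rw [h1]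
  have h2 : ∀ i ∈ (univ : Finset (Fin 6)), (g.filter fun v => part v = i).card = 1 :=
    fun i _ => h i
  rw [Finset.sum_congr rfl h2]
  simp

private theorem vset_card_le_aux {V : Type u} [DecidableEq V] {S : Finset (Finset V)}
    (h : ∀ e ∈ S, e.card = 6) : (vset S).card ≤ S.card * 6 := by
  unfold vset
  exact Finset.card_biUnion_le_card_mul _ _ _ (fun e he => (h e he).le)

private theorem numeric_aux {m a d h t q S C c' N : ℕ}
    (ht : t ≤ 6 * (m - a) + d + h + a * 5) (ham : a ≤ m) (hh : 4 * h ≤ a)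
    (hd : 4 * q * d ≤ m) (hq : m ≤ q * a) (hq0 : 0 < q) (hS : q ≤ S) (hC : C = 2 * S + 1)
    (hc' : c' = 6 * C - 1) (hN : m ≤ N) : C * t ≤ c' * N := by
  have hd' : 4 * d ≤ a := by
    have h1 : q * (4 * d) ≤ q * a := by
      calc q * (4 * d) = 4 * q * d := by ring
        _ ≤ m := hd
        _ ≤ q * a := hq
    exact Nat.le_of_mul_le_mul_left h1 hq0
  have h2 : 2 * t + a ≤ 12 * m := by omega
  have hC1 : 1 ≤ C := by omega
  have hc1 : c' + 1 = 6 * C := by omega
  have h3 : 2 * m ≤ C * a := by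
    have h4 : 2 * q ≤ C := by omega
    calc 2 * m ≤ 2 * (q * a) := Nat.mul_le_mul_left _ hq
      _ = (2 * q) * a := by ring
      _ ≤ C * a := Nat.mul_le_mul_right _ h4
  have h5 : C * (2 * t + a) ≤ C * (12 * m) := Nat.mul_le_mul_left _ h2
  have h6 : C * t + m ≤ (c' + 1) * m := by
    rw [hc1]
    nlinarith
  have h7 : C * t ≤ c' * m := by nlinarith
  exact h7.trans (Nat.mul_le_mul_left _ hN)

/-- PART Main. Assembly for a finite vertex type. -/
theorem main_fintype
    (hI6 : ∀ {V : Type u} [DecidableEq V] (part : V → Fin 6) (P : Finset (Finset V)),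
      (∀ e ∈ P, ∀ i : Fin 6, (e.filter fun v => part v = i).card = 1) →
      (∀ e ∈ P, ∀ f ∈ P, (e ∩ f).Nonempty) →
      ∃ T : Finset V, T.card ≤ 5 ∧ ∀ e ∈ P, ∃ v ∈ e, v ∈ T) :
    ∃ C : ℕ, 0 < C ∧ ∀ {V : Type u} [Fintype V] [DecidableEq V] (part : V → Fin 6)
      (H : Finset (Finset V)), (∀ c ∈ H, Edge6 part c) → ∀ N : ℕ,
      (∀ M ⊆ H, PD M → M.card ≤ N) →
      ∃ T : Finset V, C * T.card ≤ (6 * C - 1) * N ∧ ∀ c ∈ H, (T ∩ c).Nonempty := by
  obtain ⟨K0, hK0, hfin⟩ := final_local.{u} 4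
  obtain ⟨J, hJdef⟩ : ∃ J : ℕ, J = 2 * skewBd 6 6 := ⟨_, rfl⟩
  choose Dsp hDsp0 hDsp using fun L => sparse_exists.{u} J L
  obtain ⟨q, hqdef⟩ : ∃ q : ℕ → ℕ, ∀ L, q L = 4 * Dsp L * 2 * K0 := ⟨_, fun _ => rfl⟩
  have hq0 : ∀ L, 0 < q L := fun L => by
    rw [hqdef]
    have := hDsp0 L
    positivity
  obtain ⟨Lmax, hscale⟩ := scale_select.{u} J (fun L => 4 * q L)
  refine ⟨2 * (∑ L ∈ range (Lmax + 1), q L) + 1, by omega, ?_⟩
  intro V _ _ part H hE N hN
  -- a maximum matching
  obtain ⟨M, hMmem, hMmax⟩ := Finset.exists_max_image (H.powerset.filter PD) Finset.card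
    ⟨∅, by simp [PD]⟩
  have hMH : M ⊆ H := mem_powerset.1 (mem_filter.1 hMmem).1
  have hMPD : PD M := (mem_filter.1 hMmem).2
  have hmax : ∀ M' ⊆ H, PD M' → M'.card ≤ M.card := fun M' h1 h2 =>
    hMmax M' (mem_filter.2 ⟨mem_powerset.2 h1, h2⟩)
  have h6 : ∀ c ∈ H, c.card = 6 := fun c hc => edge6_card_aux (hE c hc)
  have no : NoAug H M := noAug_of_max hMH hMPD hmax
    (fun c hc => Finset.card_pos.1 (by rw [h6 c hc]; norm_num))
  have hm6 : ∀ e ∈ M, e.card = 6 := fun e he => h6 e (hMH he)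
  obtain ⟨D, hD, L, hL, hdK, hlow⟩ := hscale H M h6 hMPD hm6
  -- the restricted instance
  have hH'sub : restr H D ⊆ H := filter_subset _ _
  have hM'sub : alive M D ⊆ M := filter_subset _ _
  have hM'PD : PD (alive M D) := Set.PairwiseDisjoint.subset hMPD (by exact_mod_cast hM'sub)
  have no' : NoAug (restr H D) (alive M D) := noAug_restr hD no
  have h6' : ∀ c ∈ restr H D, c.card = 6 := fun c hc => h6 c (hH'sub hc)
  have hE' : ∀ c ∈ restr H D, Edge6 part c := fun c hc => hE c (hH'sub hc)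
  have hM'6 : ∀ e ∈ alive M D, e.card = 6 := fun e he => hm6 e (hM'sub he)
  have hM'H' : alive M D ⊆ restr H D := by
    intro e he
    exact mem_filter.2 ⟨hMH (hM'sub he), (mem_filter.1 he).2⟩
  have hX : lowSet (restr H D) (alive M D) J L ⊆ alive M D := filter_subset _ _
  obtain ⟨A, hAX, hXA, hG⟩ := hDsp L (restr H D) (alive M D) (lowSet (restr H D) (alive M D) J L)
    h6' hM'PD no' hX hM'6 (by
      intro e he z hz
      have h1 := (mem_filter.1 he).2 z hz
      exact lt_of_le_of_lt (card_le_card (filter_subset_filter _ hX)) h1)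
  obtain ⟨j, hj, As, hAs, hAAs, hst⟩ := level_select (H := restr H D) (M := alive M D) (A := A) J
    hJdef.ge h6'
  have dich := dichotomy hG h6' hj hAs hst
  have hAsM' : As ⊆ alive M D := fun e he => hX (hAX (hAs he))
  obtain ⟨A2, hA2, Hb, Cs, hAsA2, hHb, hCs, hhit⟩ := hfin part (restr H D) (alive M D) As
    (fun e => Fo (restr H D) (alive M D) A (j + 1) e) hE' hM'H' hM'PD no' hAsM'
    (by
      intro P hP1 hP2
      obtain ⟨T, hT1, hT2⟩ := hI6 part P (fun e he i => hP1 e he i) hP2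
      refine ⟨T, hT1, fun g hg => ?_⟩
      obtain ⟨v, hv, hvT⟩ := hT2 g hg
      exact ⟨v, mem_inter.2 ⟨hvT, hv⟩⟩)
    (fun e _ => filter_subset _ _)
    (by
      intro e he g hg hge
      unfold Fo
      refine mem_filter.2 ⟨hg, ?_, ?_, ?_⟩
      · rw [hge]
        exact singleton_subset_iff.2 (hAs he)
      · rw [hge]
        exact mem_singleton_self _
      · intro a ha hae
        rw [hge] at ha
        exact absurd (mem_singleton.1 ha) hae)
    (by
      intro e he g hg g' hg'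
      exact hG.typeA e (hAs he) g (Fo_mono (Nat.succ_le_of_lt hj) e hg) g'
        (Fo_mono (Nat.succ_le_of_lt hj) e hg'))
    dich
  have hA2M' : A2 ⊆ alive M D := fun e he => hAsM' (hA2 he)
  have hA2M : A2 ⊆ M := fun e he => hM'sub (hA2M' he)
  -- the cover
  refine ⟨(vset M \ vset A2) ∪ (D \ vset M) ∪ Hb ∪ A2.biUnion Cs, ?_, ?_⟩
  · have hS : q L ≤ ∑ L ∈ range (Lmax + 1), q L :=
      Finset.single_le_sum (f := q) (fun _ _ => Nat.zero_le _) (mem_range.2 (Nat.lt_succ_of_le hL))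
    refine numeric_aux (m := M.card) (a := A2.card) (d := (D \ vset M).card) (h := Hb.card)
      (q := q L) (S := ∑ L ∈ range (Lmax + 1), q L) ?_ (card_le_card hA2M) hHb hdK ?_ (hq0 L) hS rfl
      rfl (hN M hMH hMPD)
    · have h1 : (vset M \ vset A2).card ≤ 6 * (M.card - A2.card) := by
        have h2 : vset M \ vset A2 ⊆ vset (M \ A2) := by
          intro v hv
          obtain ⟨hv1, hv2⟩ := mem_sdiff.1 hv
          obtain ⟨e, he, hve⟩ := mem_biUnion.1 hv1
          refine mem_biUnion.2 ⟨e, mem_sdiff.2 ⟨he, ?_⟩, hve⟩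
          intro heA
          exact hv2 (mem_biUnion.2 ⟨e, heA, hve⟩)
        have h3 := vset_card_le_aux (S := M \ A2)
          (fun e he => hm6 e (mem_sdiff.1 he).1)
        rw [card_sdiff_of_subset hA2M] at h3
        calc (vset M \ vset A2).card ≤ (vset (M \ A2)).card := card_le_card h2
          _ ≤ (M.card - A2.card) * 6 := h3
          _ = 6 * (M.card - A2.card) := by ring
      have h4 : (A2.biUnion Cs).card ≤ A2.card * 5 :=
        Finset.card_biUnion_le_card_mul _ _ _ hCs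
      have h5 := card_union_le ((vset M \ vset A2) ∪ (D \ vset M) ∪ Hb) (A2.biUnion Cs)
      have h6 := card_union_le ((vset M \ vset A2) ∪ (D \ vset M)) Hb
      have h7 := card_union_le (vset M \ vset A2) (D \ vset M)
      omega
    · calc M.card ≤ 4 * (lowSet (restr H D) (alive M D) J L).card := hlow
        _ ≤ 4 * (Dsp L * A.card) := Nat.mul_le_mul_left _ hXA
        _ ≤ 4 * (Dsp L * (2 * As.card)) :=
            Nat.mul_le_mul_left _ (Nat.mul_le_mul_left _ hAAs)
        _ ≤ 4 * (Dsp L * (2 * (K0 * A2.card))) :=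
            Nat.mul_le_mul_left _ (Nat.mul_le_mul_left _ (Nat.mul_le_mul_left _ hAsA2))
        _ = q L * A2.card := by rw [hqdef]; ring
  · intro c hc
    by_contra hne
    have hT : ∀ v ∈ c, v ∉ (vset M \ vset A2) ∪ (D \ vset M) ∪ Hb ∪ A2.biUnion Cs :=
      fun v hv hvT => hne ⟨v, mem_inter.2 ⟨hvT, hv⟩⟩
    have hnotin : ∀ e ∈ M, e ∉ A2 → ∀ v ∈ e, v ∉ vset A2 := by
      intro e he heA v hv hv2
      obtain ⟨e', he', hve'⟩ := mem_biUnion.1 hv2
      have hee : e = e' := by
        by_contra hne'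
        have := hMPD (mem_coe.2 he) (mem_coe.2 (hA2M he')) hne'
        exact disjoint_left.1 this hv hve'
      exact heA (hee ▸ he')
    have hin1 : ∀ v ∈ c, v ∈ vset M → v ∈ vset A2 := by
      intro v hv h1
      by_contra h2
      exact hT v hv (mem_union_left _ (mem_union_left _ (mem_union_left _ (mem_sdiff.2 ⟨h1, h2⟩))))
    have hcD : Disjoint c D := by
      rw [disjoint_left]
      intro v hvc hvD
      by_cases hvM : v ∈ vset M
      · obtain ⟨e, he, hve⟩ := mem_biUnion.1 hvM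
        have heA : e ∉ A2 := by
          intro heA
          have h1 := (mem_filter.1 (hA2M' heA)).2
          exact disjoint_left.1 h1 hve hvD
        exact hnotin e he heA v hve (hin1 v hvc hvM)
      · exact hT v hvc (mem_union_left _ (mem_union_left _ (mem_union_right _
          (mem_sdiff.2 ⟨hvD, hvM⟩))))
    have hcH' : c ∈ restr H D := mem_filter.2 ⟨hc, hcD⟩
    have hends : ends (alive M D) c ⊆ A2 := by
      intro e he
      obtain ⟨heM', v, hv⟩ := mem_ends.1 he
      by_contra heA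
      have hve := (mem_inter.1 hv).1
      have hvc := (mem_inter.1 hv).2
      exact hnotin e (hM'sub heM') heA v hve
        (hin1 v hvc (mem_biUnion.2 ⟨e, hM'sub heM', hve⟩))
    have hcHb : Disjoint c Hb := by
      rw [disjoint_left]
      intro v hvc hvH
      exact hT v hvc (mem_union_left _ (mem_union_right _ hvH))
    obtain ⟨e, heA, x, hx⟩ := hhit c hcH' hends hcHb
    exact hT x (mem_inter.1 hx).1 (mem_union_right _
      (mem_biUnion.2 ⟨e, heA, (mem_inter.1 hx).2⟩))

/-- PART MainV. Arbitrary vertex types: pass to the vertices of `H`. -/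
theorem main_any
    (hI6 : ∀ {V : Type u} [DecidableEq V] (part : V → Fin 6) (P : Finset (Finset V)),
      (∀ e ∈ P, ∀ i : Fin 6, (e.filter fun v => part v = i).card = 1) →
      (∀ e ∈ P, ∀ f ∈ P, (e ∩ f).Nonempty) →
      ∃ T : Finset V, T.card ≤ 5 ∧ ∀ e ∈ P, ∃ v ∈ e, v ∈ T) :
    ∃ C : ℕ, 0 < C ∧ ∀ {V : Type u} [DecidableEq V] (part : V → Fin 6) (H : Finset (Finset V)),
      (∀ e ∈ H, ∀ i : Fin 6, (e.filter fun v => part v = i).card = 1) → ∀ N : ℕ,
      (∀ M ⊆ H, (M : Set (Finset V)).PairwiseDisjoint id → M.card ≤ N) →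
      ∃ T : Finset V, C * T.card ≤ (6 * C - 1) * N ∧ ∀ e ∈ H, ∃ v ∈ e, v ∈ T := by
  obtain ⟨C, hC, hmain⟩ := main_fintype.{u} hI6
  refine ⟨C, hC, ?_⟩
  intro V _ part H hE N hN
  obtain ⟨W, hW⟩ : ∃ W : Finset V, W = H.biUnion id := ⟨_, rfl⟩
  have hWmem : ∀ e ∈ H, ∀ x ∈ e, x ∈ W := fun e he x hx => by
    rw [hW]
    exact mem_biUnion.2 ⟨e, he, hx⟩
  let ι : {v // v ∈ W} ↪ V := Function.Embedding.subtype _
  let part' : {v // v ∈ W} → Fin 6 := fun v => part v.1
  let φ : Finset V → Finset {v // v ∈ W} := fun e => e.subtype (· ∈ W)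
  have hφmap : ∀ e ∈ H, (φ e).map ι = e := fun e he =>
    Finset.subtype_map_of_mem (fun x hx => hWmem e he x hx)
  have hE' : ∀ c ∈ H.image φ, Edge6 part' c := by
    intro c hc i
    obtain ⟨e, he, rfl⟩ := mem_image.1 hc
    have h1 := hE e he i
    rw [← h1]
    conv_rhs => rw [← hφmap e he]
    rw [Finset.filter_map, card_map]
    rfl
  obtain ⟨T', hcard, hcov⟩ := hmain (V := {v // v ∈ W}) part' (H.image φ) hE' N (by
    intro M' hM' hPD
    have h1 : (M'.image (fun s => s.map ι)).card = M'.card :=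
      card_image_of_injective _ (Finset.map_injective ι)
    rw [← h1]
    apply hN
    · intro e he
      obtain ⟨s, hs, rfl⟩ := mem_image.1 he
      obtain ⟨e0, he0, rfl⟩ := mem_image.1 (hM' hs)
      rw [hφmap e0 he0]
      exact he0
    · intro a ha b hb hab
      obtain ⟨s, hs, rfl⟩ := mem_image.1 (mem_coe.1 ha)
      obtain ⟨t, ht, rfl⟩ := mem_image.1 (mem_coe.1 hb)
      have hst : s ≠ t := by
        rintro rfl
        exact hab rfl
      have h2 := hPD (mem_coe.2 hs) (mem_coe.2 ht) hst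
      simpa [Function.onFun, Finset.disjoint_map] using h2)
  refine ⟨T'.map ι, by rwa [card_map], ?_⟩
  intro e he
  obtain ⟨x, hx⟩ := hcov (φ e) (mem_image_of_mem _ he)
  refine ⟨x.1, ?_, mem_map_of_mem ι (mem_inter.1 hx).1⟩
  exact mem_subtype.1 (mem_inter.1 hx).2

end Vale.Agent.Lib.P045R
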