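import Vale.Agent.Lib.P045R.Defs
import Vale.Agent.Lib.P045R.NFCert

namespace Vale.Agent.Lib.P045R

universe u

namespace NFC

/-- One pattern of the case tree. -/
def checkOne (n : ℕ) : Bool := checkRoot (patOf n) (certList.getD n Tr.L)

theorem c0 : checkOne 0 = true := by decide +kernel
theorem c1 : checkOne 1 = true := by decide +kernel
theorem c2 : checkOne 2 = true := by decide +kernel
theorem c3 : checkOne 3 = true := by decide +kernel
theorem c4 : checkOne 4 = true := by decide +kernel
theorem c5 : checkOne 5 = true := by decide +kernel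
theorem c6 : checkOne 6 = true := by decide +kernel
theorem c7 : checkOne 7 = true := by decide +kernel
theorem c8 : checkOne 8 = true := by decide +kernel
theorem c9 : checkOne 9 = true := by decide +kernel
theorem c10 : checkOne 10 = true := by decide +kernel
theorem c11 : checkOne 11 = true := by decide +kernel
theorem c12 : checkOne 12 = true := by decide +kernel
theorem c13 : checkOne 13 = true := by decide +kernel
theorem c14 : checkOne 14 = true := by decide +kernel
theorem c15 : checkOne 15 = true := by decide +kernel
theorem c16 : checkOne 16 = true := by decide +kernel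
theorem c17 : checkOne 17 = true := by decide +kernel
theorem c18 : checkOne 18 = true := by decide +kernel
theorem c19 : checkOne 19 = true := by decide +kernel
theorem c20 : checkOne 20 = true := by decide +kernel
theorem c21 : checkOne 21 = true := by decide +kernel
theorem c22 : checkOne 22 = true := by decide +kernel
theorem c23 : checkOne 23 = true := by decide +kernel
theorem c24 : checkOne 24 = true := by decide +kernel
theorem c25 : checkOne 25 = true := by decide +kernel
theorem c26 : checkOne 26 = true := by decide +kernel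
theorem c27 : checkOne 27 = true := by decide +kernel
theorem c28 : checkOne 28 = true := by decide +kernel
theorem c29 : checkOne 29 = true := by decide +kernel
theorem c30 : checkOne 30 = true := by decide +kernel
theorem c31 : checkOne 31 = true := by decide +kernel
theorem c32 : checkOne 32 = true := by decide +kernel
theorem c33 : checkOne 33 = true := by decide +kernel
theorem c34 : checkOne 34 = true := by decide +kernel
theorem c35 : checkOne 35 = true := by decide +kernel
theorem c36 : checkOne 36 = true := by decide +kernel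
theorem c37 : checkOne 37 = true := by decide +kernel
theorem c38 : checkOne 38 = true := by decide +kernel
theorem c39 : checkOne 39 = true := by decide +kernel
theorem c40 : checkOne 40 = true := by decide +kernel
theorem c41 : checkOne 41 = true := by decide +kernel
theorem c42 : checkOne 42 = true := by decide +kernel
theorem c43 : checkOne 43 = true := by decide +kernel
theorem c44 : checkOne 44 = true := by decide +kernel
theorem c45 : checkOne 45 = true := by decide +kernel
theorem c46 : checkOne 46 = true := by decide +kernel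
theorem c47 : checkOne 47 = true := by decide +kernel
theorem c48 : checkOne 48 = true := by decide +kernel
theorem c49 : checkOne 49 = true := by decide +kernel
theorem c50 : checkOne 50 = true := by decide +kernel
theorem c51 : checkOne 51 = true := by decide +kernel
theorem c52 : checkOne 52 = true := by decide +kernel
theorem c53 : checkOne 53 = true := by decide +kernel
theorem c54 : checkOne 54 = true := by decide +kernel
theorem c55 : checkOne 55 = true := by decide +kernel
theorem c56 : checkOne 56 = true := by decide +kernel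
theorem c57 : checkOne 57 = true := by decide +kernel
theorem c58 : checkOne 58 = true := by decide +kernel
theorem c59 : checkOne 59 = true := by decide +kernel
theorem c60 : checkOne 60 = true := by decide +kernel
theorem c61 : checkOne 61 = true := by decide +kernel
theorem c62 : checkOne 62 = true := by decide +kernel
theorem c63 : checkOne 63 = true := by decide +kernel

theorem certList_ok : checkAll certList = true := by
  unfold checkAll
  rw [List.all_eq_true]
  intro n hn
  have hn' := List.mem_range.1 hn
  show checkOne n = true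
  interval_cases n
  · exact c0
  · exact c1
  · exact c2
  · exact c3
  · exact c4
  · exact c5
  · exact c6
  · exact c7
  · exact c8
  · exact c9
  · exact c10
  · exact c11
  · exact c12
  · exact c13
  · exact c14
  · exact c15
  · exact c16
  · exact c17
  · exact c18
  · exact c19
  · exact c20
  · exact c21
  · exact c22
  · exact c23
  · exact c24
  · exact c25
  · exact c26
  · exact c27
  · exact c28
  · exact c29
  · exact c30
  · exact c31
  · exact c32
  · exact c33
  · exact c34
  · exact c35
  · exact c36
  · exact c37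
  · exact c38
  · exact c39
  · exact c40
  · exact c41
  · exact c42
  · exact c43
  · exact c44
  · exact c45
  · exact c46
  · exact c47
  · exact c48
  · exact c49
  · exact c50
  · exact c51
  · exact c52
  · exact c53
  · exact c54
  · exact c55
  · exact c56
  · exact c57
  · exact c58
  · exact c59
  · exact c60
  · exact c61
  · exact c62
  · exact c63

section

variable {W : Type u} {G : Set (Fin 6 → W)}

theorem ex1_port (hstar : ∀ g ∈ G, ∀ y, ∃ h ∈ G, h y = g y ∧ ∀ i, i ≠ y → h i ≠ g i)
    (v : Fin 6 → W) (i1 i2 i3 k : Fin 6) (h12 : i1 ≠ i2) (h13 : i1 ≠ i3) (h23 : i2 ≠ i3)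
    (hk1 : i1 ≠ k) (hk2 : i2 ≠ k) (hk3 : i3 ≠ k)
    (H : ∀ f ∈ G, f i1 = v i1 ∨ f i2 = v i2 ∨ f i3 = v i3) :
    ∀ f ∈ G, Ex1 (f i1 = v i1) (f i2 = v i2) (f i3 = v i3) := by
  intro f hf
  by_cases a : f i1 = v i1 <;> by_cases b : f i2 = v i2 <;> by_cases c : f i3 = v i3
  · exfalso
    obtain ⟨h, hh, -, hne⟩ := hstar f hf k
    rcases H h hh with h1 | h1 | h1
    · exact hne i1 hk1 (h1.trans a.symm)
    · exact hne i2 hk2 (h1.trans b.symm)
    · exact hne i3 hk3 (h1.trans c.symm)
  · exfalso
    obtain ⟨h, hh, he, hne⟩ := hstar f hf i3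
    rcases H h hh with h1 | h1 | h1
    · exact hne i1 h13 (h1.trans a.symm)
    · exact hne i2 h23 (h1.trans b.symm)
    · exact c (he.symm.trans h1)
  · exfalso
    obtain ⟨h, hh, he, hne⟩ := hstar f hf i2
    rcases H h hh with h1 | h1 | h1
    · exact hne i1 h12 (h1.trans a.symm)
    · exact b (he.symm.trans h1)
    · exact hne i3 h23.symm (h1.trans c.symm)
  · exact Or.inl ⟨a, b, c⟩
  · exfalso
    obtain ⟨h, hh, he, hne⟩ := hstar f hf i1
    rcases H h hh with h1 | h1 | h1
    · exact a (he.symm.trans h1)
    · exact hne i2 h12.symm (h1.trans b.symm)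
    · exact hne i3 h13.symm (h1.trans c.symm)
  · exact Or.inr (Or.inl ⟨a, b, c⟩)
  · exact Or.inr (Or.inr ⟨a, b, c⟩)
  · exfalso
    rcases H f hf with h1 | h1 | h1
    · exact a h1
    · exact b h1
    · exact c h1

end

open Classical in
/-- The code of the second value at a coordinate. -/
noncomputable def cd {W : Type u} (u' w' : W) : ℕ := if w' = u' then 0 else 1

/-- Values of the codes `0` and `1`. -/
def vl {W : Type u} (u' w' : W) (c : ℕ) : W := if c = 0 then u' else w'

theorem cd_le {W : Type u} (u' w' : W) : cd u' w' ≤ 1 := by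
  unfold cd; split_ifs <;> omega

theorem vl_cd {W : Type u} (u' w' : W) : vl u' w' (cd u' w') = w' := by
  by_cases e : w' = u'
  · have : cd u' w' = 0 := by unfold cd; rw [if_pos e]
    rw [this]
    unfold vl
    rw [if_pos rfl, e]
  · have : cd u' w' = 1 := by unfold cd; rw [if_neg e]
    rw [this]
    unfold vl
    rw [if_neg (by norm_num)]

theorem vl_inj {W : Type u} (u' w' : W) : ∀ c < cd u' w' + 1, ∀ c' < cd u' w' + 1,
    vl u' w' c = vl u' w' c' → c = c' := by
  intro c hc c' hc' h
  by_cases e : w' = u'
  · have : cd u' w' = 0 := by unfold cd; rw [if_pos e]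
    omega
  · have h1 : cd u' w' = 1 := by unfold cd; rw [if_neg e]
    rw [h1] at hc hc'
    interval_cases c <;> interval_cases c' <;> simp_all [vl, Ne.symm e]

end NFC

open NFC in
/-- The normal form of the one-two-sided lemma. -/
theorem nf_false {W : Type u} (G : Set (Fin 6 → W)) (hne : G.Nonempty)
    (hint : ∀ g ∈ G, ∀ h ∈ G, ∃ i, g i = h i)
    (hstar : ∀ g ∈ G, ∀ y, ∃ h ∈ G, h y = g y ∧ ∀ i, i ≠ y → h i ≠ g i)
    (q r s t : Fin 6 → W)
    (hq : ∀ g ∈ G, g 0 = q 0 ∨ g 1 = q 1 ∨ g 2 = q 2)
    (hr : ∀ g ∈ G, g 3 = r 3 ∨ g 4 = r 4 ∨ g 5 = r 5)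
    (hs : ∀ g ∈ G, g 0 = s 0 ∨ g 1 = s 1 ∨ g 3 = s 3)
    (ht : ∀ g ∈ G, g 2 = t 2 ∨ g 4 = t 4 ∨ g 5 = t 5) : False := by
  have HQ := ex1_port hstar q 0 1 2 3 (by decide) (by decide) (by decide) (by decide) (by decide)
    (by decide) hq
  have HR := ex1_port hstar r 3 4 5 0 (by decide) (by decide) (by decide) (by decide) (by decide)
    (by decide) hr
  have HS := ex1_port hstar s 0 1 3 2 (by decide) (by decide) (by decide) (by decide) (by decide)
    (by decide) hs
  have HT := ex1_port hstar t 2 4 5 0 (by decide) (by decide) (by decide) (by decide) (by decide)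
    (by decide) ht
  set a := cd (q 0) (s 0) with ha
  set b := cd (q 1) (s 1) with hb
  set v := cd (r 3) (s 3) with hv
  set w := cd (q 2) (t 2) with hw
  set x := cd (r 4) (t 4) with hx
  set y := cd (r 5) (t 5) with hy
  have ha1 : a ≤ 1 := cd_le _ _
  have hb1 : b ≤ 1 := cd_le _ _
  have hv1 : v ≤ 1 := cd_le _ _
  have hw1 : w ≤ 1 := cd_le _ _
  have hx1 : x ≤ 1 := cd_le _ _
  have hy1 : y ≤ 1 := cd_le _ _
  let p : Pat := ⟨a, b, v, w, x, y⟩
  let ρ : ℕ → ℕ → W := fun i c =>
    match i with
    | 0 => vl (q 0) (s 0) c
    | 1 => vl (q 1) (s 1) c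
    | 2 => vl (q 2) (t 2) c
    | 3 => vl (r 3) (s 3) c
    | 4 => vl (r 4) (t 4) c
    | _ => vl (r 5) (t 5) c
  have I : Inv G q r s t p ρ [] (kn0 p) := by
    refine
      { inj := ?_, mem := by simp, pos := ?_
        ha := Nat.lt_succ_self _, hb := Nat.lt_succ_self _, hw := Nat.lt_succ_self _
        hv := Nat.lt_succ_self _, hx := Nat.lt_succ_self _, hy := Nat.lt_succ_self _
        q0 := if_pos rfl, q1 := if_pos rfl, q2 := if_pos rfl
        r3 := if_pos rfl, r4 := if_pos rfl, r5 := if_pos rfl
        s0 := vl_cd _ _, s1 := vl_cd _ _, s3 := vl_cd _ _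
        t2 := vl_cd _ _, t4 := vl_cd _ _, t5 := vl_cd _ _ }
    · intro i hi
      interval_cases i
      · exact vl_inj _ _
      · exact vl_inj _ _
      · exact vl_inj _ _
      · exact vl_inj _ _
      · exact vl_inj _ _
      · exact vl_inj _ _
    · intro i hi
      interval_cases i <;> exact Nat.succ_pos _
  -- the index of the pattern
  have hidx : patOf (32 * a + 16 * b + 8 * v + 4 * w + 2 * x + y) = p := by
    have e1 : (32 * a + 16 * b + 8 * v + 4 * w + 2 * x + y) / 32 % 2 = a := by omega
    have e2 : (32 * a + 16 * b + 8 * v + 4 * w + 2 * x + y) / 16 % 2 = b := by omega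
    have e3 : (32 * a + 16 * b + 8 * v + 4 * w + 2 * x + y) / 8 % 2 = v := by omega
    have e4 : (32 * a + 16 * b + 8 * v + 4 * w + 2 * x + y) / 4 % 2 = w := by omega
    have e5 : (32 * a + 16 * b + 8 * v + 4 * w + 2 * x + y) / 2 % 2 = x := by omega
    have e6 : (32 * a + 16 * b + 8 * v + 4 * w + 2 * x + y) % 2 = y := by omega
    unfold patOf
    rw [e1, e2, e3, e4, e5, e6]
  have hlt : 32 * a + 16 * b + 8 * v + 4 * w + 2 * x + y ∈ List.range 64 :=
    List.mem_range.2 (by omega)
  have hall := (List.all_eq_true.1 certList_ok) _ hlt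
  rw [hidx] at hall
  exact root_sound hint hstar HQ HR HS HT p _ I hne hall

end Vale.Agent.Lib.P045R
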