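import Mathlib

/-! A small checker for the normal form lemma `nf_false`: a case tree over coded edges. -/

namespace Vale.Agent.Lib.P045R.NFC

universe u

/-- A coded edge (or a vector of numbers of known codes), one number per coordinate. -/
abbrev Ed := List ℕ

def at_ (e : Ed) (i : ℕ) : ℕ := e.getD i 0

/-- Exactly one of three. -/
def ex1 (a b c : Bool) : Bool := (a && !b && !c) || (!a && b && !c) || (!a && !b && c)

/-- The codes of the values of the third and fourth covers, the first two having code `0`. -/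
structure Pat where
  a : ℕ
  b : ℕ
  v : ℕ
  w : ℕ
  x : ℕ
  y : ℕ

def valid (p : Pat) (h : Ed) : Bool :=
  ex1 (at_ h 0 == 0) (at_ h 1 == 0) (at_ h 2 == 0) &&
  ex1 (at_ h 3 == 0) (at_ h 4 == 0) (at_ h 5 == 0) &&
  ex1 (at_ h 0 == p.a) (at_ h 1 == p.b) (at_ h 3 == p.v) &&
  ex1 (at_ h 2 == p.w) (at_ h 4 == p.x) (at_ h 5 == p.y)

def meets (e h : Ed) : Bool := (List.range 6).any fun i => at_ e i == at_ h i

def optStep (kn g : Ed) (y i : ℕ) : List ℕ :=
  if i = y then [at_ g y] else ((List.range (at_ kn i)).filter fun c => c != at_ g i) ++ [at_ kn i]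

def optRoot (kn : Ed) (i : ℕ) : List ℕ := List.range (at_ kn i) ++ [at_ kn i]

def bump (kn h : Ed) : Ed := (List.range 6).map fun i => max (at_ kn i) (at_ h i + 1)

/-- Case tree, first child and next sibling: for the current new edge an index of an edge and a
coordinate, then the tree of the next new edges and the tree of the next sibling. -/
inductive Tr where
  | L
  | N (gi y : ℕ) (first next : Tr)

/-- All codings of an edge with the given options at the six coordinates and exactly one vertex in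
each of the four covers. -/
def enum (p : Pat) (O : ℕ → List ℕ) : List Ed :=
  (O 0).flatMap fun x0 => (O 1).flatMap fun x1 => (O 2).flatMap fun x2 =>
    if ex1 (x0 == 0) (x1 == 0) (x2 == 0) then
      (O 3).flatMap fun x3 =>
        if ex1 (x0 == p.a) (x1 == p.b) (x3 == p.v) then
          (O 4).flatMap fun x4 => (O 5).flatMap fun x5 =>
            if ex1 (x3 == 0) (x4 == 0) (x5 == 0) && ex1 (x2 == p.w) (x4 == p.x) (x5 == p.y) then
              [[x0, x1, x2, x3, x4, x5]]
            else []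
        else []
    else []

/-- Every edge of `cs`, added to `E`, leads to a contradiction according to the tree. -/
def chain (p : Pat) : ℕ → List Ed → Ed → List Ed → Tr → Bool
  | 0, _, _, _, _ => false
  | _ + 1, _, _, [], _ => true
  | _ + 1, _, _, _ :: _, Tr.L => false
  | n + 1, E, kn, h :: cs, Tr.N gi y first next =>
    (match (E ++ [h])[gi]? with
      | none => false
      | some g =>
        decide (y < 6) && chain p n (E ++ [h]) (bump kn h)
          ((enum p (optStep (bump kn h) g y)).filter fun h' => (E ++ [h]).all fun e => meets e h')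
          first) &&
    chain p n E kn cs next

def kn0 (p : Pat) : Ed := [p.a + 1, p.b + 1, p.w + 1, p.v + 1, p.x + 1, p.y + 1]

def checkRoot (p : Pat) (t : Tr) : Bool :=
  chain p 100 [] (kn0 p) (enum p (optRoot (kn0 p))) t

def patOf (n : ℕ) : Pat := ⟨n / 32 % 2, n / 16 % 2, n / 8 % 2, n / 4 % 2, n / 2 % 2, n % 2⟩

def checkAll (c : List Tr) : Bool :=
  (List.range 64).all fun n => checkRoot (patOf n) (c.getD n Tr.L)

/-- Exactly one of three propositions. -/
def Ex1 (A B C : Prop) : Prop := (A ∧ ¬ B ∧ ¬ C) ∨ (¬ A ∧ B ∧ ¬ C) ∨ (¬ A ∧ ¬ B ∧ C)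

theorem ex1_of {a b c : Bool} {A B C : Prop} (ha : a = true ↔ A) (hb : b = true ↔ B)
    (hc : c = true ↔ C) (h : Ex1 A B C) : ex1 a b c = true := by
  rcases h with ⟨h1, h2, h3⟩ | ⟨h1, h2, h3⟩ | ⟨h1, h2, h3⟩ <;>
  · have e1 := ha; have e2 := hb; have e3 := hc
    cases a <;> cases b <;> cases c <;> simp_all [ex1]

section Sound

variable {W : Type u} {G : Set (Fin 6 → W)} {q r s t : Fin 6 → W}

/-- The invariant of the checker. -/
structure Inv (G : Set (Fin 6 → W)) (q r s t : Fin 6 → W) (p : Pat) (ρ : ℕ → ℕ → W)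
    (E : List Ed) (kn : Ed) : Prop where
  inj : ∀ i < 6, ∀ c < at_ kn i, ∀ c' < at_ kn i, ρ i c = ρ i c' → c = c'
  mem : ∀ e ∈ E, (fun i : Fin 6 => ρ i (at_ e i)) ∈ G ∧ ∀ i < 6, at_ e i < at_ kn i
  pos : ∀ i < 6, 0 < at_ kn i
  ha : p.a < at_ kn 0
  hb : p.b < at_ kn 1
  hw : p.w < at_ kn 2
  hv : p.v < at_ kn 3
  hx : p.x < at_ kn 4
  hy : p.y < at_ kn 5
  q0 : ρ 0 0 = q 0
  q1 : ρ 1 0 = q 1
  q2 : ρ 2 0 = q 2
  r3 : ρ 3 0 = r 3
  r4 : ρ 4 0 = r 4
  r5 : ρ 5 0 = r 5
  s0 : ρ 0 p.a = s 0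
  s1 : ρ 1 p.b = s 1
  s3 : ρ 3 p.v = s 3
  t2 : ρ 2 p.w = t 2
  t4 : ρ 4 p.x = t 4
  t5 : ρ 5 p.y = t 5

open Classical in
/-- The code of the value of `f` at coordinate `i`. -/
noncomputable def code (ρ : ℕ → ℕ → W) (kn : Ed) (f : Fin 6 → W) (i : ℕ) : ℕ :=
  if hc : ∃ c, c < at_ kn i ∧ ρ i c = f (Fin.ofNat 6 i) then Classical.choose hc else at_ kn i

open Classical in
/-- The extended valuation. -/
noncomputable def rhoN (ρ : ℕ → ℕ → W) (kn : Ed) (f : Fin 6 → W) (i c : ℕ) : W :=
  if c = at_ kn i then f (Fin.ofNat 6 i) else ρ i c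

noncomputable def codeE (ρ : ℕ → ℕ → W) (kn : Ed) (f : Fin 6 → W) : Ed :=
  (List.range 6).map (code ρ kn f)

theorem at_map (φ : ℕ → ℕ) {i : ℕ} (hi : i < 6) : at_ ((List.range 6).map φ) i = φ i := by
  interval_cases i <;> rfl

theorem code_le (ρ : ℕ → ℕ → W) (kn : Ed) (f : Fin 6 → W) (i : ℕ) : code ρ kn f i ≤ at_ kn i := by
  unfold code
  split_ifs with hc
  · exact (Classical.choose_spec hc).1.le
  · exact le_rfl

theorem code_lt_spec {ρ : ℕ → ℕ → W} {kn : Ed} {f : Fin 6 → W} {i : ℕ}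
    (h : code ρ kn f i < at_ kn i) : ρ i (code ρ kn f i) = f (Fin.ofNat 6 i) := by
  unfold code at h ⊢
  split_ifs at h ⊢ with hc
  · exact (Classical.choose_spec hc).2
  · exact absurd h (lt_irrefl _)

theorem code_eq_of {ρ : ℕ → ℕ → W} {kn : Ed} {f : Fin 6 → W} {i : ℕ}
    (hinj : ∀ c < at_ kn i, ∀ c' < at_ kn i, ρ i c = ρ i c' → c = c') {c : ℕ} (hc : c < at_ kn i)
    (h : ρ i c = f (Fin.ofNat 6 i)) : code ρ kn f i = c := by
  have hex : ∃ c, c < at_ kn i ∧ ρ i c = f (Fin.ofNat 6 i) := ⟨c, hc, h⟩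
  unfold code
  rw [dif_pos hex]
  exact hinj _ (Classical.choose_spec hex).1 _ hc ((Classical.choose_spec hex).2.trans h.symm)

theorem rhoN_old {ρ : ℕ → ℕ → W} {kn : Ed} {f : Fin 6 → W} {i c : ℕ} (h : c < at_ kn i) :
    rhoN ρ kn f i c = ρ i c := by
  unfold rhoN
  rw [if_neg h.ne]

theorem rhoN_code (ρ : ℕ → ℕ → W) (kn : Ed) (f : Fin 6 → W) (i : ℕ) :
    rhoN ρ kn f i (code ρ kn f i) = f (Fin.ofNat 6 i) := by
  rcases (code_le ρ kn f i).lt_or_eq with h | h
  · rw [rhoN_old h, code_lt_spec h]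
  · unfold rhoN
    rw [if_pos h]

theorem at_bump (kn h : Ed) {i : ℕ} (hi : i < 6) :
    at_ (bump kn h) i = max (at_ kn i) (at_ h i + 1) := by
  unfold bump
  rw [at_map _ hi]

theorem code_iff {ρ : ℕ → ℕ → W} {kn : Ed} {f : Fin 6 → W} {i : ℕ}
    (hinj : ∀ c < at_ kn i, ∀ c' < at_ kn i, ρ i c = ρ i c' → c = c') {c : ℕ} (hc : c < at_ kn i) :
    code ρ kn f i = c ↔ f (Fin.ofNat 6 i) = ρ i c := by
  constructor
  · intro h
    have hlt : code ρ kn f i < at_ kn i := h ▸ hc
    rw [← code_lt_spec hlt, h]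
  · intro h
    exact code_eq_of hinj hc h.symm

variable {p : Pat} {ρ : ℕ → ℕ → W} {E : List Ed} {kn : Ed} {f : Fin 6 → W}

theorem beq_iff_of {i : ℕ} (hi : i < 6) (hinj : ∀ c < at_ kn i, ∀ c' < at_ kn i,
    ρ i c = ρ i c' → c = c') {c : ℕ} (hc : c < at_ kn i) {v : W} (hv : ρ i c = v) :
    ((at_ (codeE ρ kn f) i == c) = true) ↔ f (Fin.ofNat 6 i) = v := by
  unfold codeE
  rw [at_map _ hi, beq_iff_eq, code_iff hinj hc, hv]

theorem valid_codeE (I : Inv G q r s t p ρ E kn) (_hf : f ∈ G)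
    (HQ : Ex1 (f 0 = q 0) (f 1 = q 1) (f 2 = q 2))
    (HR : Ex1 (f 3 = r 3) (f 4 = r 4) (f 5 = r 5))
    (HS : Ex1 (f 0 = s 0) (f 1 = s 1) (f 3 = s 3))
    (HT : Ex1 (f 2 = t 2) (f 4 = t 4) (f 5 = t 5)) : valid p (codeE ρ kn f) = true := by
  have hp := I.pos
  unfold valid
  simp only [Bool.and_eq_true]
  refine ⟨⟨⟨ex1_of ?_ ?_ ?_ HQ, ex1_of ?_ ?_ ?_ HR⟩, ex1_of ?_ ?_ ?_ HS⟩, ex1_of ?_ ?_ ?_ HT⟩
  · exact beq_iff_of (by norm_num) (I.inj 0 (by norm_num)) (hp 0 (by norm_num)) I.q0
  · exact beq_iff_of (by norm_num) (I.inj 1 (by norm_num)) (hp 1 (by norm_num)) I.q1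
  · exact beq_iff_of (by norm_num) (I.inj 2 (by norm_num)) (hp 2 (by norm_num)) I.q2
  · exact beq_iff_of (by norm_num) (I.inj 3 (by norm_num)) (hp 3 (by norm_num)) I.r3
  · exact beq_iff_of (by norm_num) (I.inj 4 (by norm_num)) (hp 4 (by norm_num)) I.r4
  · exact beq_iff_of (by norm_num) (I.inj 5 (by norm_num)) (hp 5 (by norm_num)) I.r5
  · exact beq_iff_of (by norm_num) (I.inj 0 (by norm_num)) I.ha I.s0
  · exact beq_iff_of (by norm_num) (I.inj 1 (by norm_num)) I.hb I.s1
  · exact beq_iff_of (by norm_num) (I.inj 3 (by norm_num)) I.hv I.s3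
  · exact beq_iff_of (by norm_num) (I.inj 2 (by norm_num)) I.hw I.t2
  · exact beq_iff_of (by norm_num) (I.inj 4 (by norm_num)) I.hx I.t4
  · exact beq_iff_of (by norm_num) (I.inj 5 (by norm_num)) I.hy I.t5

theorem meets_codeE (I : Inv G q r s t p ρ E kn)
    {e : Ed} (he : e ∈ E) (hm : ∃ i : Fin 6, ρ i (at_ e i) = f i) :
    meets e (codeE ρ kn f) = true := by
  obtain ⟨i, hi⟩ := hm
  unfold meets
  rw [List.any_eq_true]
  refine ⟨i, List.mem_range.2 i.2, ?_⟩
  unfold codeE
  rw [at_map _ i.2, beq_iff_eq]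
  have hb := (I.mem e he).2 i i.2
  have : Fin.ofNat 6 (i : ℕ) = i := by simp
  exact (code_eq_of (I.inj i i.2) hb (by rw [hi, this])).symm

theorem inv_step (I : Inv G q r s t p ρ E kn) (hf : f ∈ G) :
    Inv G q r s t p (rhoN ρ kn f) (E ++ [codeE ρ kn f]) (bump kn (codeE ρ kn f)) := by
  have hbump : ∀ i < 6, at_ (bump kn (codeE ρ kn f)) i = max (at_ kn i) (code ρ kn f i + 1) := by
    intro i hi
    rw [at_bump _ _ hi]
    unfold codeE
    rw [at_map _ hi]
  have hge : ∀ i < 6, at_ kn i ≤ at_ (bump kn (codeE ρ kn f)) i := fun i hi => by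
    rw [hbump i hi]
    exact le_max_left _ _
  refine
    { inj := ?_, mem := ?_, pos := fun i hi => lt_of_lt_of_le (I.pos i hi) (hge i hi)
      ha := lt_of_lt_of_le I.ha (hge 0 (by norm_num))
      hb := lt_of_lt_of_le I.hb (hge 1 (by norm_num))
      hw := lt_of_lt_of_le I.hw (hge 2 (by norm_num))
      hv := lt_of_lt_of_le I.hv (hge 3 (by norm_num))
      hx := lt_of_lt_of_le I.hx (hge 4 (by norm_num))
      hy := lt_of_lt_of_le I.hy (hge 5 (by norm_num))
      q0 := (rhoN_old (I.pos 0 (by norm_num))).trans I.q0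
      q1 := (rhoN_old (I.pos 1 (by norm_num))).trans I.q1
      q2 := (rhoN_old (I.pos 2 (by norm_num))).trans I.q2
      r3 := (rhoN_old (I.pos 3 (by norm_num))).trans I.r3
      r4 := (rhoN_old (I.pos 4 (by norm_num))).trans I.r4
      r5 := (rhoN_old (I.pos 5 (by norm_num))).trans I.r5
      s0 := (rhoN_old I.ha).trans I.s0
      s1 := (rhoN_old I.hb).trans I.s1
      s3 := (rhoN_old I.hv).trans I.s3
      t2 := (rhoN_old I.hw).trans I.t2
      t4 := (rhoN_old I.hx).trans I.t4
      t5 := (rhoN_old I.hy).trans I.t5 }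
  · intro i hi c hc c' hc' hval
    rw [hbump i hi] at hc hc'
    have hle := code_le ρ kn f i
    -- either the old range or the new code
    have key : ∀ d, d < max (at_ kn i) (code ρ kn f i + 1) →
        d < at_ kn i ∨ (d = at_ kn i ∧ code ρ kn f i = at_ kn i) := by
      intro d hd
      rcases lt_or_eq_of_le (Nat.le_of_lt_succ (lt_of_lt_of_le hd (by
        rw [max_le_iff]; exact ⟨Nat.le_succ _, Nat.succ_le_succ hle⟩))) with h | h
      · exact Or.inl h
      · right
        refine ⟨h, ?_⟩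
        rcases lt_max_iff.1 hd with h1 | h1
        · omega
        · omega
    have hnew : ∀ d, d < at_ kn i → code ρ kn f i = at_ kn i →
        ρ i d ≠ f (Fin.ofNat 6 i) := by
      intro d hd hcode h
      have := code_eq_of (I.inj i hi) hd h
      omega
    rcases key c hc with h1 | ⟨h1, h1'⟩ <;> rcases key c' hc' with h2 | ⟨h2, h2'⟩
    · rw [rhoN_old h1, rhoN_old h2] at hval
      exact I.inj i hi c h1 c' h2 hval
    · exfalso
      rw [rhoN_old h1] at hval
      have : rhoN ρ kn f i c' = f (Fin.ofNat 6 i) := by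
        unfold rhoN
        rw [if_pos h2]
      exact hnew c h1 h2' (hval.trans this)
    · exfalso
      rw [rhoN_old h2] at hval
      have : rhoN ρ kn f i c = f (Fin.ofNat 6 i) := by
        unfold rhoN
        rw [if_pos h1]
      exact hnew c' h2 h1' (hval.symm.trans this)
    · omega
  · intro e he
    rcases List.mem_append.1 he with he' | he'
    · obtain ⟨h1, h2⟩ := I.mem e he'
      refine ⟨?_, fun i hi => lt_of_lt_of_le (h2 i hi) (hge i hi)⟩
      have : (fun i : Fin 6 => rhoN ρ kn f i (at_ e i)) = fun i : Fin 6 => ρ i (at_ e i) := by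
        funext i
        exact rhoN_old (h2 i i.2)
      rw [this]
      exact h1
    · rw [List.mem_singleton] at he'
      subst he'
      refine ⟨?_, ?_⟩
      · have : (fun i : Fin 6 => rhoN ρ kn f i (at_ (codeE ρ kn f) i)) = f := by
          funext i
          unfold codeE
          rw [at_map _ i.2, rhoN_code]
          simp
        rw [this]
        exact hf
      · intro i hi
        rw [hbump i hi]
        unfold codeE
        rw [at_map _ hi]
        exact lt_max_of_lt_right (Nat.lt_succ_self _)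

theorem mem_enum {O : ℕ → List ℕ} {x0 x1 x2 x3 x4 x5 : ℕ} (h0 : x0 ∈ O 0) (h1 : x1 ∈ O 1)
    (h2 : x2 ∈ O 2) (h3 : x3 ∈ O 3) (h4 : x4 ∈ O 4) (h5 : x5 ∈ O 5)
    (hv : valid p [x0, x1, x2, x3, x4, x5] = true) :
    [x0, x1, x2, x3, x4, x5] ∈ enum p O := by
  have hv' : ((((ex1 (x0 == 0) (x1 == 0) (x2 == 0) && ex1 (x3 == 0) (x4 == 0) (x5 == 0)) &&
      ex1 (x0 == p.a) (x1 == p.b) (x3 == p.v)) && ex1 (x2 == p.w) (x4 == p.x) (x5 == p.y)) = true) :=
    hv
  simp only [Bool.and_eq_true] at hv'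
  obtain ⟨⟨⟨hQ, hR⟩, hS⟩, hT⟩ := hv'
  unfold enum
  simp only [List.mem_flatMap]
  refine ⟨x0, h0, x1, h1, x2, h2, ?_⟩
  rw [if_pos hQ]
  simp only [List.mem_flatMap]
  refine ⟨x3, h3, ?_⟩
  rw [if_pos hS]
  simp only [List.mem_flatMap]
  refine ⟨x4, h4, x5, h5, ?_⟩
  rw [if_pos (by simp only [Bool.and_eq_true]; exact ⟨hR, hT⟩)]
  exact List.mem_singleton.2 rfl

theorem codeE_eq (ρ : ℕ → ℕ → W) (kn : Ed) (f : Fin 6 → W) : codeE ρ kn f =
    [code ρ kn f 0, code ρ kn f 1, code ρ kn f 2, code ρ kn f 3, code ρ kn f 4, code ρ kn f 5] :=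
  rfl

theorem codeE_mem_enum {O : ℕ → List ℕ} (h : ∀ i ∈ List.range 6, code ρ kn f i ∈ O i)
    (hv : valid p (codeE ρ kn f) = true) : codeE ρ kn f ∈ enum p O := by
  rw [codeE_eq] at hv ⊢
  exact mem_enum (h 0 (by simp)) (h 1 (by simp)) (h 2 (by simp)) (h 3 (by simp)) (h 4 (by simp))
    (h 5 (by simp)) hv

variable (hint : ∀ g ∈ G, ∀ h ∈ G, ∃ i, g i = h i)
  (hstar : ∀ g ∈ G, ∀ y, ∃ h ∈ G, h y = g y ∧ ∀ i, i ≠ y → h i ≠ g i)
  (HQ : ∀ f ∈ G, Ex1 (f 0 = q 0) (f 1 = q 1) (f 2 = q 2))
  (HR : ∀ f ∈ G, Ex1 (f 3 = r 3) (f 4 = r 4) (f 5 = r 5))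
  (HS : ∀ f ∈ G, Ex1 (f 0 = s 0) (f 1 = s 1) (f 3 = s 3))
  (HT : ∀ f ∈ G, Ex1 (f 2 = t 2) (f 4 = t 4) (f 5 = t 5))

include hint hstar HQ HR HS HT in
theorem chain_sound (p : Pat) : ∀ (n : ℕ) (E : List Ed) (kn : Ed) (cs : List Ed) (T : Tr),
    chain p n E kn cs T = true → ∀ h ∈ cs, ∀ ρ : ℕ → ℕ → W,
      Inv G q r s t p ρ (E ++ [h]) (bump kn h) → False := by
  intro n
  induction n with
  | zero => intro E kn cs T h; simp [chain] at h
  | succ n ih =>
    intro E kn cs T h0 h hh ρ I
    cases cs with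
    | nil => simp at hh
    | cons c cs =>
      cases T with
      | L => simp [chain] at h0
      | N gi y first next =>
        simp only [chain, Bool.and_eq_true] at h0
        obtain ⟨h1, h2⟩ := h0
        rcases List.mem_cons.1 hh with rfl | hh'
        · cases hg : (E ++ [h])[gi]? with
          | none => rw [hg] at h1; simp at h1
          | some g =>
            rw [hg] at h1
            simp only [Bool.and_eq_true, decide_eq_true_eq] at h1
            obtain ⟨hy, hall⟩ := h1
            have hgE : g ∈ E ++ [h] := List.mem_of_getElem? hg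
            obtain ⟨hgG, hgb⟩ := I.mem g hgE
            obtain ⟨f, hf, hfy, hfne⟩ := hstar _ hgG ⟨y, hy⟩
            refine ih _ _ _ _ hall (codeE ρ (bump kn h) f) ?_ _ (inv_step I hf)
            rw [List.mem_filter]
            refine ⟨codeE_mem_enum ?_ (valid_codeE I hf (HQ f hf) (HR f hf) (HS f hf) (HT f hf)), ?_⟩
            · intro i hi
              have hi' := List.mem_range.1 hi
              unfold optStep
              split_ifs with hiy
              · subst hiy
                rw [List.mem_singleton]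
                refine code_eq_of (I.inj _ hi') (hgb _ hi') ?_
                have : Fin.ofNat 6 i = ⟨i, hi'⟩ := by
                  apply Fin.ext; simp [Fin.ofNat, Nat.mod_eq_of_lt hi']
                rw [this, hfy]
              · rcases (code_le ρ (bump kn h) f i).lt_or_eq with hlt | heq
                · apply List.mem_append_left
                  rw [List.mem_filter]
                  refine ⟨List.mem_range.2 hlt, ?_⟩
                  simp only [bne_iff_ne, ne_eq]
                  intro hcg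
                  have h1 := code_lt_spec hlt
                  rw [hcg] at h1
                  have hne := hfne ⟨i, hi'⟩ (by intro h; exact hiy (congrArg Fin.val h))
                  apply hne
                  have : Fin.ofNat 6 i = ⟨i, hi'⟩ := by
                    apply Fin.ext; simp [Fin.ofNat, Nat.mod_eq_of_lt hi']
                  rw [this] at h1
                  exact h1.symm
                · apply List.mem_append_right
                  rw [List.mem_singleton]
                  exact heq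
            · simp only [List.all_eq_true]
              intro e he
              obtain ⟨i, hi⟩ := hint _ (I.mem e he).1 f hf
              exact meets_codeE I he ⟨i, hi⟩
        · exact ih _ _ _ _ h2 h hh' ρ I

include hint hstar HQ HR HS HT in
theorem root_sound (p : Pat) (tr : Tr) {ρ : ℕ → ℕ → W} (I : Inv G q r s t p ρ [] (kn0 p))
    (hne : G.Nonempty) (h : checkRoot p tr = true) : False := by
  obtain ⟨f, hf⟩ := hne
  have hmem : codeE ρ (kn0 p) f ∈ enum p (optRoot (kn0 p)) := by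
    refine codeE_mem_enum ?_ (valid_codeE I hf (HQ f hf) (HR f hf) (HS f hf) (HT f hf))
    intro i _
    unfold optRoot
    rcases (code_le ρ (kn0 p) f i).lt_or_eq with hlt | heq
    · exact List.mem_append_left _ (List.mem_range.2 hlt)
    · exact List.mem_append_right _ (List.mem_singleton.2 heq)
  exact chain_sound hint hstar HQ HR HS HT p _ _ _ _ _ h _ hmem _ (inv_step I hf)

end Sound

end Vale.Agent.Lib.P045R.NFC
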