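import Vale.Agent.Lib.P045R.Defs

namespace Vale.Agent.Lib.P045R

open Finset
open scoped Classical

universe u

section round
variable {V : Type u} [Fintype V] [DecidableEq V]

omit [Fintype V] in
lemma scale_bag_eq {M : Finset (Finset V)} (hPD : PD M) {e e' : Finset V} (he : e ∈ M) (he' : e' ∈ M)
    {x : V} (hx : x ∈ e) (hx' : x ∈ e') : e = e' := by
  by_contra hne
  have := hPD he he' hne
  exact disjoint_left.1 this hx hx'

lemma scale_round (M : Finset (Finset V)) (hPD : PD M) (Tr : Finset V → Finset V → Finset V)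
    (psi : Finset V → Finset V → ℕ) (B L : ℕ) (D : Finset V) (hD : closedD M D)
    (hTr : ∀ e ∈ alive M D, (Tr D e).card ≤ B)
    (hmono : ∀ D', D ⊆ D' → closedD M D' → ∀ e ∈ M, psi D e ≤ psi D' e)
    (hgain : ∀ D', D ⊆ D' → closedD M D' → ∀ e ∈ alive M D, ∀ z ∈ Tr D e, z ∈ D' →
      psi D e < psi D' e) :
    ∃ D' : Finset V, ∃ z : ℕ, closedD M D' ∧ z * L ≤ B * M.card ∧
      (D' \ vset M).card ≤ (D \ vset M).card + z ∧
      (M \ alive M D').card ≤ (M \ alive M D).card + z ∧
      (∑ e ∈ M, psi D e) + ((alive M D) \ ((alive M D).filter fun e => ∀ z ∈ Tr D e,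
          ((alive M D).filter fun e' => z ∈ Tr D e').card < L)).card ≤ ∑ e ∈ M, psi D' e := by
  set A := alive M D with hA
  have hAM : A ⊆ M := filter_subset _ _
  set Z : Finset V := univ.filter fun z => L ≤ (A.filter fun e' => z ∈ Tr D e').card with hZ
  set Zb : Finset (Finset V) := M.filter fun e => (e ∩ Z).Nonempty with hZb
  have hclosed : closedD M (D ∪ Z ∪ Zb.biUnion id) := by
    intro e he hne
    obtain ⟨x, hx⟩ := hne
    have hxe := (mem_inter.1 hx).1
    rcases mem_union.1 (mem_inter.1 hx).2 with h | h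
    · rcases mem_union.1 h with h | h
      · have : e ⊆ D := hD e he ⟨x, mem_inter.2 ⟨hxe, h⟩⟩
        exact fun y hy => mem_union_left _ (mem_union_left _ (this hy))
      · have : e ∈ Zb := mem_filter.2 ⟨he, ⟨x, mem_inter.2 ⟨hxe, h⟩⟩⟩
        exact fun y hy => mem_union_right _ (mem_biUnion.2 ⟨e, this, hy⟩)
    · obtain ⟨e'', he'', hx''⟩ := mem_biUnion.1 h
      have : e = e'' := scale_bag_eq hPD he (mem_filter.1 he'').1 hxe hx''
      subst this
      exact fun y hy => mem_union_right _ (mem_biUnion.2 ⟨e, he'', hy⟩)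
  have hsub : D ⊆ D ∪ Z ∪ Zb.biUnion id :=
    fun y hy => mem_union_left _ (mem_union_left _ hy)
  have hZD' : Z ⊆ D ∪ Z ∪ Zb.biUnion id :=
    fun y hy => mem_union_left _ (mem_union_right _ hy)
  refine ⟨D ∪ Z ∪ Zb.biUnion id, Z.card, hclosed, ?_, ?_, ?_, ?_⟩
  · -- double counting
    have h1 : Z.card * L ≤ ∑ z ∈ Z, (A.filter fun e' => z ∈ Tr D e').card := by
      rw [← smul_eq_mul]
      apply Finset.card_nsmul_le_sum
      intro z hz
      exact (mem_filter.1 hz).2
    have h2 : ∑ z ∈ Z, (A.filter fun e' => z ∈ Tr D e').card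
        ≤ ∑ z ∈ (univ : Finset V), (A.filter fun e' => z ∈ Tr D e').card :=
      sum_le_sum_of_subset (subset_univ _)
    have h3 : ∑ z ∈ (univ : Finset V), (A.filter fun e' => z ∈ Tr D e').card
        = ∑ e ∈ A, ((univ : Finset V).filter fun z => z ∈ Tr D e).card := by
      have := Finset.sum_card_bipartiteAbove_eq_sum_card_bipartiteBelow
        (s := (univ : Finset V)) (t := A) (fun z e' => z ∈ Tr D e')
      simpa [Finset.bipartiteAbove, Finset.bipartiteBelow] using this
    have h4 : ∑ e ∈ A, ((univ : Finset V).filter fun z => z ∈ Tr D e).card ≤ A.card * B := by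
      rw [← smul_eq_mul]
      apply Finset.sum_le_card_nsmul
      intro e he
      have : ((univ : Finset V).filter fun z => z ∈ Tr D e) = Tr D e := by
        ext z; simp
      rw [this]
      exact hTr e he
    have h5 : A.card * B ≤ B * M.card := by
      rw [mul_comm]
      exact Nat.mul_le_mul_left _ (card_le_card hAM)
    omega
  · -- new outside vertices
    have : (D ∪ Z ∪ Zb.biUnion id) \ vset M ⊆ (D \ vset M) ∪ Z := by
      intro y hy
      obtain ⟨hy1, hy2⟩ := mem_sdiff.1 hy
      rcases mem_union.1 hy1 with h | h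
      · rcases mem_union.1 h with h | h
        · exact mem_union_left _ (mem_sdiff.2 ⟨h, hy2⟩)
        · exact mem_union_right _ h
      · obtain ⟨e'', he'', hx''⟩ := mem_biUnion.1 h
        exact absurd (mem_biUnion.2 ⟨e'', (mem_filter.1 he'').1, hx''⟩) hy2
    exact (card_le_card this).trans (card_union_le _ _)
  · -- new dead bags
    have hZbZ : Zb.card ≤ Z.card := by
      apply Finset.card_le_card_of_forall_subsingleton (fun e z => z ∈ e)
      · intro e he
        obtain ⟨x, hx⟩ := (mem_filter.1 he).2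
        exact ⟨x, (mem_inter.1 hx).2, (mem_inter.1 hx).1⟩
      · intro z _ e he e' he'
        exact scale_bag_eq hPD (mem_filter.1 he.1).1 (mem_filter.1 he'.1).1 he.2 he'.2
    have : M \ alive M (D ∪ Z ∪ Zb.biUnion id) ⊆ (M \ A) ∪ Zb := by
      intro e he
      obtain ⟨he1, he2⟩ := mem_sdiff.1 he
      have hnd : ¬ Disjoint e (D ∪ Z ∪ Zb.biUnion id) := fun h => he2 (mem_filter.2 ⟨he1, h⟩)
      obtain ⟨x, hxe, hx⟩ := not_disjoint_iff.1 hnd
      rcases mem_union.1 hx with h | h
      · rcases mem_union.1 h with h | h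
        · refine mem_union_left _ (mem_sdiff.2 ⟨he1, fun h' => ?_⟩)
          exact disjoint_left.1 (mem_filter.1 h').2 hxe h
        · exact mem_union_right _ (mem_filter.2 ⟨he1, ⟨x, mem_inter.2 ⟨hxe, h⟩⟩⟩)
      · obtain ⟨e'', he'', hx''⟩ := mem_biUnion.1 h
        have : e = e'' := scale_bag_eq hPD he1 (mem_filter.1 he'').1 hxe hx''
        subst this
        exact mem_union_right _ he''
    exact (card_le_card this).trans ((card_union_le _ _).trans (by omega))
  · -- potential
    set Hi := A \ (A.filter fun e => ∀ z ∈ Tr D e, (A.filter fun e' => z ∈ Tr D e').card < L) with hHi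
    have hHiM : Hi ⊆ M := fun e he => hAM (mem_sdiff.1 he).1
    have hcard : Hi.card = ∑ e ∈ M, if e ∈ Hi then 1 else 0 := by
      rw [Finset.sum_boole, Nat.cast_id]
      congr 1
      ext e
      simp only [mem_filter]
      exact ⟨fun h => ⟨hHiM h, h⟩, fun h => h.2⟩
    rw [hcard, ← sum_add_distrib]
    apply sum_le_sum
    intro e he
    by_cases h : e ∈ Hi
    · rw [if_pos h]
      obtain ⟨h1, h2⟩ := mem_sdiff.1 h
      have : ¬ ∀ z ∈ Tr D e, (A.filter fun e' => z ∈ Tr D e').card < L :=
        fun h' => h2 (mem_filter.2 ⟨h1, h'⟩)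
      push Not at this
      obtain ⟨z, hz, hzL⟩ := this
      have hzZ : z ∈ Z := mem_filter.2 ⟨mem_univ _, hzL⟩
      have := hgain _ hsub hclosed e h1 z hz (hZD' hzZ)
      omega
    · rw [if_neg h]
      have := hmono _ hsub hclosed e he
      omega

end round

/-- PART Scale. The abstract round argument: delete hubs at a decreasing sequence of scales, each
round raises the total potential by at least half of the bags. See the blueprint. -/
theorem scale_abstract (B W : ℕ) (K : ℕ → ℕ) : ∃ Lmax : ℕ,
    ∀ {V : Type u} [Fintype V] [DecidableEq V] (M : Finset (Finset V)), PD M →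
      (∀ e ∈ M, e.card = 6) → ∀ (Tr : Finset V → Finset V → Finset V)
        (psi : Finset V → Finset V → ℕ),
      (∀ D, closedD M D → ∀ e ∈ alive M D, (Tr D e).card ≤ B ∧ e ⊆ Tr D e) →
      (∀ D e, psi D e ≤ W) →
      (∀ D D', D ⊆ D' → closedD M D → closedD M D' → ∀ e ∈ M, psi D e ≤ psi D' e) →
      (∀ D D', D ⊆ D' → closedD M D → closedD M D' → ∀ e ∈ alive M D, ∀ z ∈ Tr D e, z ∈ D' →
        psi D e < psi D' e) →
      ∃ D, closedD M D ∧ ∃ L ≤ Lmax, K L * (D \ vset M).card ≤ M.card ∧
        M.card ≤ 4 * ((alive M D).filter fun e => ∀ z ∈ Tr D e,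
          ((alive M D).filter fun e' => z ∈ Tr D e').card < L).card := by
  -- scales
  obtain ⟨n0, hn0⟩ : ∃ n0, n0 = 2 * W + 2 := ⟨_, rfl⟩
  obtain ⟨B', hB'⟩ : ∃ B', B' = B + 1 := ⟨_, rfl⟩
  have hn0B : 0 < n0 * B' := by subst hn0 hB'; positivity
  let LL : ℕ → ℕ := fun k => Nat.rec (8 * (n0 * B') + 1) (fun _ x => K x * (n0 * B') + 8 * (n0 * B') + x) k
  have hLLs : ∀ k, LL (k + 1) = K (LL k) * (n0 * B') + 8 * (n0 * B') + LL k := fun k => rfl
  have hmonoLL : Monotone LL := monotone_nat_of_le_succ fun k => by rw [hLLs]; omega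
  refine ⟨LL n0, ?_⟩
  intro V _ _ M hPD _ Tr psi hTr hW hmono hgain
  by_contra hstop
  have hstop' : ∀ D, closedD M D → ∀ L ≤ LL n0, K L * (D \ vset M).card ≤ M.card →
      4 * ((alive M D).filter fun e => ∀ z ∈ Tr D e,
          ((alive M D).filter fun e' => z ∈ Tr D e').card < L).card < M.card := by
    intro D hD L hL h1
    by_contra h2
    exact hstop ⟨D, hD, L, hL, h1, not_lt.1 h2⟩
  have hinv : ∀ i, i ≤ n0 → ∃ D, closedD M D ∧ i * M.card ≤ 2 * ∑ e ∈ M, psi D e ∧
      (D \ vset M).card * LL (n0 + 1 - i) ≤ i * (B' * M.card) ∧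
      (M \ alive M D).card * LL (n0 + 1 - i) ≤ i * (B' * M.card) := by
    intro i
    induction i with
    | zero =>
      intro _
      refine ⟨∅, ?_, by simp, ?_, ?_⟩
      · intro e _ h
        simp at h
      · simp
      · have : M \ alive M ∅ = ∅ := by
          ext e; simp [alive]
        simp [this]
    | succ i ih =>
      intro hi
      obtain ⟨D, hD, h1, h2, h3⟩ := ih (by omega)
      have hk : n0 + 1 - i = (n0 - i) + 1 := by omega
      have hk' : n0 + 1 - (i + 1) = n0 - i := by omega
      rw [hk] at h2 h3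
      rw [hk']
      obtain ⟨k, hkdef⟩ : ∃ k, k = n0 - i := ⟨_, rfl⟩
      rw [← hkdef] at h2 h3 ⊢
      have hkn : k ≤ n0 := by omega
      obtain ⟨L, hLdef⟩ : ∃ L, L = LL k := ⟨_, rfl⟩
      have hLle : L ≤ LL n0 := by rw [hLdef]; exact hmonoLL hkn
      have hs := hLLs k
      rw [← hLdef] at hs
      rw [← hLdef]
      obtain ⟨d, hd⟩ : ∃ d, d = (D \ vset M).card := ⟨_, rfl⟩
      obtain ⟨dd, hdd⟩ : ∃ dd, dd = (M \ alive M D).card := ⟨_, rfl⟩
      rw [← hd] at h2
      rw [← hdd] at h3
      have hiB : i * (B' * M.card) ≤ (n0 * B') * M.card := by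
        calc i * (B' * M.card) ≤ n0 * (B' * M.card) := Nat.mul_le_mul_right _ (by omega)
          _ = _ := by ring
      -- the stop test
      have hKd : K L * d ≤ M.card := by
        have : K L * d * (n0 * B') ≤ M.card * (n0 * B') := by
          calc K L * d * (n0 * B') = d * (K L * (n0 * B')) := by ring
            _ ≤ d * LL (k + 1) := Nat.mul_le_mul_left _ (by rw [hs]; omega)
            _ ≤ _ := by rw [mul_comm M.card]; exact h2.trans hiB
        exact Nat.le_of_mul_le_mul_right this hn0B
      have hlow := hstop' D hD L hLle (by rw [← hd]; exact hKd)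
      have hdead : 8 * dd ≤ M.card := by
        have : 8 * dd * (n0 * B') ≤ M.card * (n0 * B') := by
          calc 8 * dd * (n0 * B') = dd * (8 * (n0 * B')) := by ring
            _ ≤ dd * LL (k + 1) := Nat.mul_le_mul_left _ (by rw [hs]; omega)
            _ ≤ _ := by rw [mul_comm M.card]; exact h3.trans hiB
        exact Nat.le_of_mul_le_mul_right this hn0B
      have hAM : alive M D ⊆ M := filter_subset _ _
      have hA1 : (M \ alive M D).card + (alive M D).card = M.card := card_sdiff_add_card_eq_card hAM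
      have hA2 : ((alive M D) \ ((alive M D).filter fun e => ∀ z ∈ Tr D e,
          ((alive M D).filter fun e' => z ∈ Tr D e').card < L)).card +
          ((alive M D).filter fun e => ∀ z ∈ Tr D e,
          ((alive M D).filter fun e' => z ∈ Tr D e').card < L).card = (alive M D).card :=
        card_sdiff_add_card_eq_card (filter_subset _ _)
      obtain ⟨D', z, hD', hzL, hd', hdd', hpsi⟩ := scale_round M hPD Tr psi B' L D hD
        (fun e he => (hTr D hD e he).1.trans (by omega))
        (fun D' h h' e he => hmono D D' h hD h' e he)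
        (fun D' h h' e he z hz hz' => hgain D D' h hD h' e he z hz hz') 
      refine ⟨D', hD', ?_, ?_, ?_⟩
      · -- potential
        have : M.card ≤ 2 * ((alive M D) \ ((alive M D).filter fun e => ∀ z ∈ Tr D e,
          ((alive M D).filter fun e' => z ∈ Tr D e').card < L)).card := by omega
        have h4 : (i + 1) * M.card = i * M.card + M.card := by ring
        omega
      · -- outside
        have hLs : L ≤ LL (k + 1) := by rw [hs]; omega
        calc (D' \ vset M).card * L ≤ (d + z) * L := Nat.mul_le_mul_right _ (by omega)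
          _ = d * L + z * L := by ring
          _ ≤ d * LL (k + 1) + B' * M.card := add_le_add (Nat.mul_le_mul_left _ hLs) hzL
          _ ≤ i * (B' * M.card) + B' * M.card := by omega
          _ = _ := by ring
      · have hLs : L ≤ LL (k + 1) := by rw [hs]; omega
        calc (M \ alive M D').card * L ≤ (dd + z) * L := Nat.mul_le_mul_right _ (by omega)
          _ = dd * L + z * L := by ring
          _ ≤ dd * LL (k + 1) + B' * M.card := add_le_add (Nat.mul_le_mul_left _ hLs) hzL
          _ ≤ i * (B' * M.card) + B' * M.card := by omega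
          _ = _ := by ring
  obtain ⟨D, hD, h1, -, -⟩ := hinv n0 le_rfl
  have hle : ∑ e ∈ M, psi D e ≤ M.card * W := by
    rw [← smul_eq_mul]
    exact sum_le_card_nsmul _ _ _ fun e _ => hW D e
  have hM0 : M.card = 0 := by
    subst hn0
    have : (2 * W + 2) * M.card = 2 * (M.card * W) + 2 * M.card := by ring
    omega
  -- with no bags the stop test holds
  apply hstop
  have hM : M = ∅ := card_eq_zero.1 hM0
  refine ⟨∅, ?_, 0, Nat.zero_le _, ?_, ?_⟩
  · intro e he
    simp [hM] at he
  · simp
  · simp [hM]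

end Vale.Agent.Lib.P045R
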