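import Vale.Agent.Lib.P045R.NF

namespace Vale.Agent.Lib.P045R

open Finset
open scoped Classical

universe u

variable {V : Type u} [DecidableEq V]

theorem Edge6.exists_mem {part : V → Fin 6} {g : Finset V} (hg : Edge6 part g) (i : Fin 6) :
    ∃ y ∈ g, part y = i := by
  obtain ⟨y, hy⟩ := Finset.card_eq_one.1 (hg i)
  have : y ∈ g.filter fun v => part v = i := by rw [hy]; exact mem_singleton_self y
  exact ⟨y, (mem_filter.1 this).1, (mem_filter.1 this).2⟩

theorem Trans.eq_of_part {part : V → Fin 6} {Q : Finset V} (hQ : Trans part Q) {x y : V}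
    (hx : x ∈ Q) (hy : y ∈ Q) (h : part x = part y) : x = y :=
  Finset.card_le_one.1 (hQ (part y)) x (mem_filter.2 ⟨hx, h⟩) y (mem_filter.2 ⟨hy, rfl⟩)

theorem Edge6.trans {part : V → Fin 6} {g : Finset V} (hg : Edge6 part g) : Trans part g :=
  fun i => (hg i).le

/-- PART Star. A cover by a set with at most one vertex per part of a family in which every vertex
of every edge is the whole intersection with another edge has at least `3` vertices. -/
theorem cover_ge_three (part : V → Fin 6) {P : Finset (Finset V)} (hP : ∀ g ∈ P, Edge6 part g)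
    (hne : P.Nonempty) (hstar : ∀ g ∈ P, ∀ y ∈ g, ∃ h ∈ P, g ∩ h = {y})
    {Q : Finset V} (hQ : Trans part Q) (hc : ∀ g ∈ P, (Q ∩ g).Nonempty) : 3 ≤ Q.card := by
  by_contra hlt
  have hle : Q.card ≤ 2 := by omega
  obtain ⟨g, hg⟩ := hne
  obtain ⟨a, haQg⟩ := hc g hg
  have haQ := (mem_inter.1 haQg).1
  have hag := (mem_inter.1 haQg).2
  have herase : (Q.erase a).card ≤ 1 := by
    rw [card_erase_of_mem haQ]; omega
  have : Nonempty V := ⟨a⟩
  obtain ⟨b, hb⟩ := Finset.card_le_one_iff_subset_singleton.1 herase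
  have hsub : ∀ x ∈ Q, x = a ∨ x = b := by
    intro x hx
    by_cases hxa : x = a
    · exact Or.inl hxa
    · right; exact mem_singleton.1 (hb (mem_erase.2 ⟨hxa, hx⟩))
  by_cases hcase : b ∈ Q ∧ b ≠ a ∧ b ∉ g
  · obtain ⟨hbQ, hba, hbg⟩ := hcase
    have hpart : part a ≠ part b := fun h => hba (hQ.eq_of_part haQ hbQ h).symm
    obtain ⟨y, hyg, hyp⟩ := (hP g hg).exists_mem (part b)
    obtain ⟨h, hh, hgh⟩ := hstar g hg y hyg
    obtain ⟨x, hx⟩ := hc h hh
    have hxQ := (mem_inter.1 hx).1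
    have hxh := (mem_inter.1 hx).2
    have hyh : y ∈ h := by
      have : y ∈ g ∩ h := by rw [hgh]; exact mem_singleton_self y
      exact (mem_inter.1 this).2
    rcases hsub x hxQ with hxa | hxb
    · subst hxa
      have : x ∈ g ∩ h := mem_inter.2 ⟨hag, hxh⟩
      rw [hgh, mem_singleton] at this
      exact hpart (by rw [this, hyp])
    · subst hxb
      exact hbg (by rw [(hP h hh).trans.eq_of_part hxh hyh hyp.symm]; exact hyg)
  · obtain ⟨i, hia, hib⟩ : ∃ i : Fin 6, i ≠ part a ∧ i ≠ part b :=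
      (by decide : ∀ p q : Fin 6, ∃ i, i ≠ p ∧ i ≠ q) _ _
    obtain ⟨y, hyg, hyp⟩ := (hP g hg).exists_mem i
    obtain ⟨h, hh, hgh⟩ := hstar g hg y hyg
    obtain ⟨x, hx⟩ := hc h hh
    have hxQ := (mem_inter.1 hx).1
    have hxh := (mem_inter.1 hx).2
    have key : ∀ w, w ∈ g → w ∈ h → part w = i := by
      intro w hw hwh
      have : w ∈ g ∩ h := mem_inter.2 ⟨hw, hwh⟩
      rw [hgh, mem_singleton] at this
      rw [this, hyp]
    rcases hsub x hxQ with hxa | hxb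
    · subst hxa
      exact hia (key _ hag hxh).symm
    · subst hxb
      by_cases hxa : x = a
      · subst hxa
        exact hia (key _ hag hxh).symm
      · have hxg : x ∈ g := by
          by_contra hxg
          exact hcase ⟨hxQ, hxa, hxg⟩
        exact hib (key _ hxg hxh).symm

/-- The vertex of `Q` in the part `i`, with default `d`. -/
noncomputable def rep (part : V → Fin 6) (d : V) (Q : Finset V) (i : Fin 6) : V :=
  if h : ∃ v ∈ Q, part v = i then h.choose else d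

theorem rep_eq {part : V → Fin 6} {d : V} {Q : Finset V} (hQ : Trans part Q) {v : V} (hv : v ∈ Q) :
    rep part d Q (part v) = v := by
  unfold rep
  have h : ∃ w ∈ Q, part w = part v := ⟨v, hv, rfl⟩
  rw [dif_pos h]
  exact hQ.eq_of_part h.choose_spec.1 hv h.choose_spec.2

theorem rep_mem_edge {part : V → Fin 6} {d : V} {g : Finset V} (hg : Edge6 part g) (i : Fin 6) :
    rep part d g i ∈ g ∧ part (rep part d g i) = i := by
  obtain ⟨y, hy, rfl⟩ := hg.exists_mem i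
  rw [rep_eq hg.trans hy]
  exact ⟨hy, rfl⟩

private theorem cards_aux : ∀ J K : Finset (Fin 6), J.card = 3 → K.card = 3 → (J ∩ K).card = 2 →
    (J \ K).card = 1 ∧ (K \ J).card = 1 ∧ (J ∪ K)ᶜ.card = 2 := by
  decide +kernel

private theorem inter_aux : ∀ J K : Finset (Fin 6), J.card = 3 → K.card = 3 → K ≠ J → K ≠ Jᶜ →
    (J ∩ K).card = 2 ∨ (J ∩ Kᶜ).card = 2 := by
  decide +kernel

private theorem compl_card_aux : ∀ K : Finset (Fin 6), K.card = 3 → Kᶜ.card = 3 := by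
  decide +kernel

theorem exists_sigma (J K : Finset (Fin 6)) (hJ : J.card = 3) (hK : K.card = 3)
    (h : (J ∩ K).card = 2) :
    ∃ σ : Fin 6 → Fin 6, Function.Injective σ ∧
      (∀ i ∈ J, i = σ 0 ∨ i = σ 1 ∨ i = σ 2) ∧ (∀ i, i ∉ J → i = σ 3 ∨ i = σ 4 ∨ i = σ 5) ∧
      (∀ i ∈ K, i = σ 0 ∨ i = σ 1 ∨ i = σ 3) ∧ (∀ i, i ∉ K → i = σ 2 ∨ i = σ 4 ∨ i = σ 5) := by
  obtain ⟨c1, c2, c3⟩ := cards_aux J K hJ hK h
  obtain ⟨a, b, -, hAB⟩ := card_eq_two.1 h
  obtain ⟨c, hc⟩ := card_eq_one.1 c1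
  obtain ⟨d, hd⟩ := card_eq_one.1 c2
  obtain ⟨e, f, -, hEF⟩ := card_eq_two.1 c3
  have mab : ∀ i, i ∈ J → i ∈ K → i = a ∨ i = b := by
    intro i hi hi'
    have : i ∈ J ∩ K := mem_inter.2 ⟨hi, hi'⟩
    rw [hAB] at this
    simpa using this
  have mc : ∀ i, i ∈ J → i ∉ K → i = c := by
    intro i hi hi'
    have : i ∈ J \ K := mem_sdiff.2 ⟨hi, hi'⟩
    rw [hc] at this
    simpa using this
  have md : ∀ i, i ∉ J → i ∈ K → i = d := by
    intro i hi hi'
    have : i ∈ K \ J := mem_sdiff.2 ⟨hi', hi⟩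
    rw [hd] at this
    simpa using this
  have mef : ∀ i, i ∉ J → i ∉ K → i = e ∨ i = f := by
    intro i hi hi'
    have : i ∈ (J ∪ K)ᶜ := by simp [hi, hi']
    rw [hEF] at this
    simpa using this
  let σ : Fin 6 → Fin 6 := ![a, b, c, d, e, f]
  have s0 : σ 0 = a := rfl
  have s1 : σ 1 = b := rfl
  have s2 : σ 2 = c := rfl
  have s3 : σ 3 = d := rfl
  have s4 : σ 4 = e := rfl
  have s5 : σ 5 = f := rfl
  have hsurj : Function.Surjective σ := by
    intro i
    by_cases hi : i ∈ J <;> by_cases hi' : i ∈ K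
    · rcases mab i hi hi' with h | h
      · exact ⟨0, h.symm⟩
      · exact ⟨1, h.symm⟩
    · exact ⟨2, (mc i hi hi').symm⟩
    · exact ⟨3, (md i hi hi').symm⟩
    · rcases mef i hi hi' with h | h
      · exact ⟨4, h.symm⟩
      · exact ⟨5, h.symm⟩
  refine ⟨σ, Finite.injective_iff_surjective.2 hsurj, ?_, ?_, ?_, ?_⟩
  · intro i hi
    rw [s0, s1, s2]
    by_cases hi' : i ∈ K
    · rcases mab i hi hi' with h | h
      · exact Or.inl h
      · exact Or.inr (Or.inl h)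
    · exact Or.inr (Or.inr (mc i hi hi'))
  · intro i hi
    rw [s3, s4, s5]
    by_cases hi' : i ∈ K
    · exact Or.inl (md i hi hi')
    · rcases mef i hi hi' with h | h
      · exact Or.inr (Or.inl h)
      · exact Or.inr (Or.inr h)
  · intro i hi'
    rw [s0, s1, s3]
    by_cases hi : i ∈ J
    · rcases mab i hi hi' with h | h
      · exact Or.inl h
      · exact Or.inr (Or.inl h)
    · exact Or.inr (Or.inr (md i hi hi'))
  · intro i hi'
    rw [s2, s4, s5]
    by_cases hi : i ∈ J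
    · exact Or.inl (mc i hi hi')
    · rcases mef i hi hi' with h | h
      · exact Or.inr (Or.inl h)
      · exact Or.inr (Or.inr h)

/-- The core of `one_two_sided`, for `J` and `K` sharing two parts. -/
theorem one_two_core (part : V → Fin 6) {P : Finset (Finset V)} (hP : ∀ g ∈ P, Edge6 part g)
    (hne : P.Nonempty) (hint : ∀ g ∈ P, ∀ h ∈ P, (g ∩ h).Nonempty)
    (hstar : ∀ g ∈ P, ∀ y ∈ g, ∃ h ∈ P, g ∩ h = {y})
    (J K : Finset (Fin 6)) (hJ : J.card = 3) (hK : K.card = 3) (hJK : (J ∩ K).card = 2)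
    (Q1 Q2 Q3 Q4 : Finset V)
    (t1 : Trans part Q1) (t2 : Trans part Q2) (t3 : Trans part Q3) (t4 : Trans part Q4)
    (c1 : ∀ g ∈ P, (Q1 ∩ g).Nonempty) (c2 : ∀ g ∈ P, (Q2 ∩ g).Nonempty)
    (c3 : ∀ g ∈ P, (Q3 ∩ g).Nonempty) (c4 : ∀ g ∈ P, (Q4 ∩ g).Nonempty)
    (p1 : partsOf part Q1 = J) (p2 : partsOf part Q2 = Jᶜ)
    (p3 : partsOf part Q3 = K) (p4 : partsOf part Q4 = Kᶜ) : False := by
  obtain ⟨g0, hg0⟩ := id hne
  obtain ⟨v0, -, -⟩ := (hP g0 hg0).exists_mem 0
  obtain ⟨σ, hinj, h1, h2, h3, h4⟩ := exists_sigma J K hJ hK hJK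
  have hsurj : Function.Surjective σ := Finite.surjective_of_injective hinj
  have key : ∀ Q : Finset V, Trans part Q → ∀ g ∈ P, (Q ∩ g).Nonempty →
      ∃ i ∈ partsOf part Q, rep part v0 g i = rep part v0 Q i := by
    intro Q hQ g hg hn
    obtain ⟨v, hv⟩ := hn
    have hvQ := (mem_inter.1 hv).1
    have hvg := (mem_inter.1 hv).2
    refine ⟨part v, mem_image_of_mem part hvQ, ?_⟩
    rw [rep_eq hQ hvQ, rep_eq (hP g hg).trans hvg]
  refine nf_false (W := V) ((fun g => rep part v0 g ∘ σ) '' (P : Set (Finset V)))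
    ⟨_, g0, mem_coe.2 hg0, rfl⟩ ?_ ?_ (rep part v0 Q1 ∘ σ) (rep part v0 Q2 ∘ σ)
    (rep part v0 Q3 ∘ σ) (rep part v0 Q4 ∘ σ) ?_ ?_ ?_ ?_
  · rintro _ ⟨g, hg, rfl⟩ _ ⟨h, hh, rfl⟩
    obtain ⟨v, hv⟩ := hint g (mem_coe.1 hg) h (mem_coe.1 hh)
    obtain ⟨k, hk⟩ := hsurj (part v)
    refine ⟨k, ?_⟩
    change rep part v0 g (σ k) = rep part v0 h (σ k)
    rw [hk, rep_eq (hP g (mem_coe.1 hg)).trans (mem_inter.1 hv).1,
      rep_eq (hP h (mem_coe.1 hh)).trans (mem_inter.1 hv).2]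
  · rintro _ ⟨g, hg, rfl⟩ y
    have hg' := mem_coe.1 hg
    obtain ⟨hv, hpv⟩ := rep_mem_edge (d := v0) (hP g hg') (σ y)
    obtain ⟨h, hh, hgh⟩ := hstar g hg' _ hv
    have hvh : rep part v0 g (σ y) ∈ h := by
      have : rep part v0 g (σ y) ∈ g ∩ h := by rw [hgh]; exact mem_singleton_self _
      exact (mem_inter.1 this).2
    refine ⟨rep part v0 h ∘ σ, ⟨h, mem_coe.2 hh, rfl⟩, ?_, ?_⟩
    · change rep part v0 h (σ y) = rep part v0 g (σ y)
      conv_lhs => rw [← hpv]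
      exact rep_eq (hP h hh).trans hvh
    · intro i hi he
      change rep part v0 h (σ i) = rep part v0 g (σ i) at he
      obtain ⟨hw, hpw⟩ := rep_mem_edge (d := v0) (hP g hg') (σ i)
      obtain ⟨hw', -⟩ := rep_mem_edge (d := v0) (hP h hh) (σ i)
      rw [he] at hw'
      have : rep part v0 g (σ i) ∈ g ∩ h := mem_inter.2 ⟨hw, hw'⟩
      rw [hgh, mem_singleton] at this
      apply hi
      apply hinj
      rw [← hpw, this, hpv]
  · rintro _ ⟨g, hg, rfl⟩
    obtain ⟨i, hi, he⟩ := key Q1 t1 g (mem_coe.1 hg) (c1 g (mem_coe.1 hg))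
    rw [p1] at hi
    rcases h1 i hi with rfl | rfl | rfl
    · exact Or.inl he
    · exact Or.inr (Or.inl he)
    · exact Or.inr (Or.inr he)
  · rintro _ ⟨g, hg, rfl⟩
    obtain ⟨i, hi, he⟩ := key Q2 t2 g (mem_coe.1 hg) (c2 g (mem_coe.1 hg))
    rw [p2, mem_compl] at hi
    rcases h2 i hi with rfl | rfl | rfl
    · exact Or.inl he
    · exact Or.inr (Or.inl he)
    · exact Or.inr (Or.inr he)
  · rintro _ ⟨g, hg, rfl⟩
    obtain ⟨i, hi, he⟩ := key Q3 t3 g (mem_coe.1 hg) (c3 g (mem_coe.1 hg))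
    rw [p3] at hi
    rcases h3 i hi with rfl | rfl | rfl
    · exact Or.inl he
    · exact Or.inr (Or.inl he)
    · exact Or.inr (Or.inr he)
  · rintro _ ⟨g, hg, rfl⟩
    obtain ⟨i, hi, he⟩ := key Q4 t4 g (mem_coe.1 hg) (c4 g (mem_coe.1 hg))
    rw [p4, mem_compl] at hi
    rcases h4 i hi with rfl | rfl | rfl
    · exact Or.inl he
    · exact Or.inr (Or.inl he)
    · exact Or.inr (Or.inr he)

/-- Reduction to `nf_false` by a permutation of the parts: four covers with part sets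
`J, Jᶜ, K, Kᶜ`, with `K` different from `J` and `Jᶜ`, do not exist. -/
theorem one_two_sided (part : V → Fin 6) {P : Finset (Finset V)} (hP : ∀ g ∈ P, Edge6 part g)
    (hne : P.Nonempty) (hint : ∀ g ∈ P, ∀ h ∈ P, (g ∩ h).Nonempty)
    (hstar : ∀ g ∈ P, ∀ y ∈ g, ∃ h ∈ P, g ∩ h = {y})
    (J K : Finset (Fin 6)) (hJ : J.card = 3) (hK : K.card = 3) (hKJ : K ≠ J) (hKJ' : K ≠ Jᶜ)
    (Q1 Q2 Q3 Q4 : Finset V)
    (t1 : Trans part Q1) (t2 : Trans part Q2) (t3 : Trans part Q3) (t4 : Trans part Q4)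
    (c1 : ∀ g ∈ P, (Q1 ∩ g).Nonempty) (c2 : ∀ g ∈ P, (Q2 ∩ g).Nonempty)
    (c3 : ∀ g ∈ P, (Q3 ∩ g).Nonempty) (c4 : ∀ g ∈ P, (Q4 ∩ g).Nonempty)
    (p1 : partsOf part Q1 = J) (p2 : partsOf part Q2 = Jᶜ)
    (p3 : partsOf part Q3 = K) (p4 : partsOf part Q4 = Kᶜ) : False := by
  rcases inter_aux J K hJ hK hKJ hKJ' with h | h
  · exact one_two_core part hP hne hint hstar J K hJ hK h Q1 Q2 Q3 Q4 t1 t2 t3 t4 c1 c2 c3 c4
      p1 p2 p3 p4
  · exact one_two_core part hP hne hint hstar J Kᶜ hJ (compl_card_aux K hK) h Q1 Q2 Q4 Q3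
      t1 t2 t4 t3 c1 c2 c4 c3 p1 p2 p4 (by rw [compl_compl, p3])

/-- The part set `J` is the part set of a cover with `3` vertices, at most one per part. -/
def Present (part : V → Fin 6) (P : Finset (Finset V)) (J : Finset (Fin 6)) : Prop :=
  ∃ Q : Finset V, Trans part Q ∧ Q.card = 3 ∧ (∀ g ∈ P, (Q ∩ g).Nonempty) ∧ partsOf part Q = J

theorem Present.card {part : V → Fin 6} {P : Finset (Finset V)} {J : Finset (Fin 6)}
    (h : Present part P J) : J.card = 3 := by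
  obtain ⟨Q, hQ, hc, -, rfl⟩ := h
  rw [partsOf, card_image_of_injOn, hc]
  intro x hx y hy hxy
  exact hQ.eq_of_part (mem_coe.1 hx) (mem_coe.1 hy) hxy

/-- The selection away from the exceptional part set. -/
noncomputable def sel0 (part : V → Fin 6) (P : Finset (Finset V)) (J : Finset (Fin 6)) : Bool :=
  if Present part P J then false else if Present part P Jᶜ then true else decide ((0 : Fin 6) ∈ J)

theorem sel0_compl {part : V → Fin 6} {P : Finset (Finset V)} {J : Finset (Fin 6)}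
    (h : ¬ (Present part P J ∧ Present part P Jᶜ)) : sel0 part P Jᶜ = !sel0 part P J := by
  unfold sel0
  rw [compl_compl]
  by_cases h1 : Present part P J <;> by_cases h2 : Present part P Jᶜ
  · exact absurd ⟨h1, h2⟩ h
  · simp [h1, h2]
  · simp [h1, h2]
  · simp only [h1, h2, if_false]
    by_cases h0 : (0 : Fin 6) ∈ J <;> simp [h0]

/-- The local lemma for the last class of bags. -/
theorem star_local (part : V → Fin 6) {P : Finset (Finset V)} (hP : ∀ g ∈ P, Edge6 part g)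
    (hne : P.Nonempty) (hint : ∀ g ∈ P, ∀ h ∈ P, (g ∩ h).Nonempty)
    (hstar : ∀ g ∈ P, ∀ y ∈ g, ∃ h ∈ P, g ∩ h = {y})
    (hI6 : ∃ T : Finset V, T.card ≤ 5 ∧ ∀ g ∈ P, (T ∩ g).Nonempty) :
    ∃ (C : Finset V) (sel : Finset (Fin 6) → Bool), C.card ≤ 5 ∧ (∀ g ∈ P, (C ∩ g).Nonempty) ∧
      (∀ J : Finset (Fin 6), J.card = 3 → sel Jᶜ = !sel J) ∧
      ∀ Q : Finset V, Trans part Q → Q.card = 3 → (∀ g ∈ P, (Q ∩ g).Nonempty) →
        sel (partsOf part Q) = true → (C ∩ Q).Nonempty := by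
  by_cases hA : ∃ J0, Present part P J0 ∧ Present part P J0ᶜ
  · obtain ⟨J0, hJ0, hJ0c⟩ := hA
    have hcard0 := hJ0.card
    have hne0 : J0ᶜ ≠ J0 := by
      intro h
      have := mem_compl (a := (0 : Fin 6)) (s := J0)
      rw [h] at this
      tauto
    have huniq : ∀ J, J ≠ J0 → J ≠ J0ᶜ → ¬ (Present part P J ∧ Present part P Jᶜ) := by
      rintro J h1 h2 ⟨hJp, hJcp⟩
      have hJc : J.card = 3 := hJp.card
      obtain ⟨Q3, t3, -, c3, p3⟩ := hJp
      obtain ⟨Q4, t4, -, c4, p4⟩ := hJcp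
      obtain ⟨Q1, t1, -, c1, p1⟩ := hJ0
      obtain ⟨Q2, t2, -, c2, p2⟩ := hJ0c
      exact one_two_sided part hP hne hint hstar J0 J hcard0 hJc h1 h2 Q1 Q2 Q3 Q4
        t1 t2 t3 t4 c1 c2 c3 c4 p1 p2 p3 p4
    obtain ⟨g, hg⟩ := id hne
    obtain ⟨Q0, t0, c0, cov0, p0⟩ := id hJ0
    obtain ⟨S, hS⟩ : ∃ S, S = g.filter (fun v => part v ∈ J0) := ⟨_, rfl⟩
    have hScard : S.card ≤ 3 := by
      rw [← hcard0, hS]
      apply card_le_card_of_injOn part
      · intro v hv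
        exact (mem_filter.1 hv).2
      · intro x hx y hy hxy
        exact (hP g hg).trans.eq_of_part (mem_filter.1 hx).1 (mem_filter.1 hy).1 hxy
    have hhit : ∀ Q : Finset V, partsOf part Q = J0 → (Q ∩ g).Nonempty → (Q ∩ S).Nonempty := by
      rintro Q hp ⟨v, hv⟩
      have hvQ := (mem_inter.1 hv).1
      have hv0 : part v ∈ J0 := by
        rw [← hp]
        exact mem_image_of_mem part hvQ
      exact ⟨v, mem_inter.2 ⟨hvQ, by rw [hS]; exact mem_filter.2 ⟨(mem_inter.1 hv).2, hv0⟩⟩⟩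
    refine ⟨Q0 ∪ S, fun J => if J = J0 then true else if J = J0ᶜ then false else sel0 part P J,
      ?_, ?_, ?_, ?_⟩
    · have h1 := card_union_add_card_inter Q0 S
      have h2 : 0 < (Q0 ∩ S).card := card_pos.2 (hhit Q0 p0 (cov0 g hg))
      omega
    · intro h hh
      obtain ⟨v, hv⟩ := cov0 h hh
      exact ⟨v, mem_inter.2 ⟨mem_union_left _ (mem_inter.1 hv).1, (mem_inter.1 hv).2⟩⟩
    · intro J _
      by_cases h1 : J = J0
      · subst h1
        simp [hne0]
      · by_cases h2 : J = J0ᶜ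
        · subst h2
          simp [compl_compl, hne0]
        · have h3 : Jᶜ ≠ J0 := fun h => h2 (by rw [← h, compl_compl])
          have h4 : Jᶜ ≠ J0ᶜ := fun h => h1 (compl_injective h)
          simp only [h1, h2, h3, h4, if_false]
          exact sel0_compl (huniq J h1 h2)
    · intro Q tQ cQ covQ hsel
      have hsel' : (if partsOf part Q = J0 then true else if partsOf part Q = J0ᶜ then false
          else sel0 part P (partsOf part Q)) = true := hsel
      by_cases h1 : partsOf part Q = J0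
      · obtain ⟨v, hv⟩ := hhit Q h1 (covQ g hg)
        exact ⟨v, mem_inter.2 ⟨mem_union_right _ (mem_inter.1 hv).2, (mem_inter.1 hv).1⟩⟩
      · exfalso
        rw [if_neg h1] at hsel'
        by_cases h2 : partsOf part Q = J0ᶜ
        · rw [if_pos h2] at hsel'
          exact absurd hsel' (by simp)
        · rw [if_neg h2] at hsel'
          unfold sel0 at hsel'
          rw [if_pos ⟨Q, tQ, cQ, covQ, rfl⟩] at hsel'
          exact absurd hsel' (by simp)
  · push Not at hA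
    obtain ⟨T, hT, hcov⟩ := hI6
    refine ⟨T, sel0 part P, hT, hcov, ?_, ?_⟩
    · intro J _
      exact sel0_compl (fun h => hA J h.1 h.2)
    · intro Q tQ cQ covQ hsel
      exfalso
      unfold sel0 at hsel
      rw [if_pos ⟨Q, tQ, cQ, covQ, rfl⟩] at hsel
      exact absurd hsel (by simp)

end Vale.Agent.Lib.P045R
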