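import Vale.Agent.Lib.P045R.Joint

namespace Vale.Agent.Lib.P045R

open Finset
open scoped Classical

universe u

variable {V : Type u} [Fintype V] [DecidableEq V]

variable {H M : Finset (Finset V)}

theorem le_sig_self (t n τ : ℕ) : τ ≤ sig t n τ := by
  cases n with
  | zero => exact le_of_eq rfl
  | succ n =>
    show τ ≤ τ + n * kerBd (sig t n (τ + 6 * t)) (6 * t)
    omega

theorem twelve_le_sBig {J j : ℕ} (h : j ≤ J + 1) : 12 ≤ sBig J :=
  (le_sig_self (tt j) 10 12).trans (sig_le_sBig h)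

theorem terrOf_sub_terrBig {J j : ℕ} (hj : j ≤ J + 1) (e : Finset V) :
    terrOf (sBig J) (strFam H M (tt j) e) ⊆ terrBig H M J e := by
  intro x hx
  unfold terrBig
  exact mem_union_right _ (mem_biUnion.2 ⟨j, mem_range.2 (by omega), hx⟩)

theorem far_of_terrBig {J j : ℕ} (hj : j ≤ J + 1) {a b : Finset V}
    (h : Disjoint (terrBig H M J a) (terrBig H M J b)) :
    Disjoint (terrOf (sig (tt j) 10 12) (strFam H M (tt j) a))
      (terrOf (sig (tt j) 10 12) (strFam H M (tt j) b)) := by
  have hs := sig_le_sBig hj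
  exact Disjoint.mono ((terrOf_mono hs _).trans (terrOf_sub_terrBig hj a))
    ((terrOf_mono hs _).trans (terrOf_sub_terrBig hj b)) h

/-- A cover by `c ∪ g` where `c` misses the territory is a cover by `g`. -/
theorem covers_of_union_off {J j : ℕ} (hj : j ≤ J + 1) {c g a : Finset V}
    (hcard : (c ∪ g).card ≤ 12)
    (hoff : ¬ (c ∩ terrBig H M J a).Nonempty)
    (hcov : Covers (c ∪ g) (strFam H M (tt j) a)) : Covers g (strFam H M (tt j) a) := by
  have h1 := cover_reduce (s := sBig J) (hcard.trans (twelve_le_sBig hj)) hcov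
  refine covers_mono ?_ h1
  intro x hx
  obtain ⟨hx1, hx2⟩ := mem_inter.1 hx
  rcases mem_union.1 hx1 with hxc | hxg
  · exact absurd ⟨x, mem_inter.2 ⟨hxc, terrOf_sub_terrBig hj a hx2⟩⟩ hoff
  · exact hxg

theorem edge_nonempty (h6 : ∀ c ∈ H, c.card = 6) {c : Finset V} (hc : c ∈ H) : c.Nonempty := by
  rw [← card_pos, h6 c hc]
  norm_num

theorem sub_vset {S : Finset (Finset V)} {c : Finset V} (hc : c ∈ S) : c ⊆ vset S := by
  intro x hx
  exact mem_biUnion.2 ⟨c, hc, hx⟩

/-- Gluing structures with pairwise disjoint vertex sets and further edges. -/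
theorem glue_props (h6 : ∀ c ∈ H, c.card = 6) {Gs Es : Finset (Finset V)}
    {S : Finset V → Finset (Finset V)}
    (hGH : Gs ⊆ H) (hGPD : PD Gs)
    (hSH : ∀ a ∈ Es, S a ⊆ H) (hSPD : ∀ a ∈ Es, PD (S a))
    (hSS : ∀ a ∈ Es, ∀ b ∈ Es, a ≠ b → Disjoint (vset (S a)) (vset (S b)))
    (hGS : ∀ g ∈ Gs, ∀ a ∈ Es, Disjoint (vset (S a)) g) :
    Gs ∪ Es.biUnion S ⊆ H ∧ PD (Gs ∪ Es.biUnion S) ∧
      (Gs ∪ Es.biUnion S).card = Gs.card + ∑ a ∈ Es, (S a).card := by
  have hfam : ∀ a ∈ Es, ∀ b ∈ Es, a ≠ b → Disjoint (S a) (S b) := by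
    intro a ha b hb hab
    rw [disjoint_left]
    intro c hca hcb
    obtain ⟨x, hx⟩ := edge_nonempty h6 (hSH a ha hca)
    exact (disjoint_left.1 (hSS a ha b hb hab)) (sub_vset hca hx) (sub_vset hcb hx)
  have hdisj : Disjoint Gs (Es.biUnion S) := by
    rw [disjoint_left]
    intro c hcG hcU
    obtain ⟨a, ha, hca⟩ := mem_biUnion.1 hcU
    obtain ⟨x, hx⟩ := edge_nonempty h6 (hSH a ha hca)
    exact (disjoint_left.1 (hGS c hcG a ha)) (sub_vset hca hx) hx
  refine ⟨?_, ?_, ?_⟩
  · intro c hc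
    rcases mem_union.1 hc with h | h
    · exact hGH h
    · obtain ⟨a, ha, hca⟩ := mem_biUnion.1 h
      exact hSH a ha hca
  · intro x hx y hy hxy
    have hx' : x ∈ Gs ∪ Es.biUnion S := hx
    have hy' : y ∈ Gs ∪ Es.biUnion S := hy
    show Disjoint x y
    rcases mem_union.1 hx' with h1 | h1 <;> rcases mem_union.1 hy' with h2 | h2
    · exact hGPD h1 h2 hxy
    · obtain ⟨a, ha, hya⟩ := mem_biUnion.1 h2
      exact ((hGS x h1 a ha).mono_left (sub_vset hya)).symm
    · obtain ⟨a, ha, hxa⟩ := mem_biUnion.1 h1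
      exact (hGS y h2 a ha).mono_left (sub_vset hxa)
    · obtain ⟨a, ha, hxa⟩ := mem_biUnion.1 h1
      obtain ⟨b, hb, hyb⟩ := mem_biUnion.1 h2
      by_cases hab : a = b
      · subst hab
        exact hSPD a ha hxa hyb hxy
      · exact (hSS a ha b hb hab).mono (sub_vset hxa) (sub_vset hyb)
  · rw [card_union_of_disjoint hdisj, card_biUnion hfam]

theorem endsOf_glue_sub (Gs Es : Finset (Finset V)) (S : Finset V → Finset (Finset V)) :
    endsOf M (Gs ∪ Es.biUnion S) ⊆ endsOf M Gs ∪ Es.biUnion fun a => endsOf M (S a) := by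
  intro x hx
  obtain ⟨c, hc, hxc⟩ := mem_biUnion.1 hx
  rcases mem_union.1 hc with h | h
  · exact mem_union_left _ (mem_biUnion.2 ⟨c, h, hxc⟩)
  · obtain ⟨a, ha, hca⟩ := mem_biUnion.1 h
    exact mem_union_right _ (mem_biUnion.2 ⟨a, ha, mem_biUnion.2 ⟨c, hca, hxc⟩⟩)

theorem sum_ends_le {Es : Finset (Finset V)} {S : Finset V → Finset (Finset V)}
    (h : ∀ a ∈ Es, (endsOf M (S a)).card ≤ (S a).card) :
    (Es.biUnion fun a => endsOf M (S a)).card ≤ ∑ a ∈ Es, (S a).card :=
  card_biUnion_le.trans (sum_le_sum h)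

/-- PART TypeAB. An edge cannot be blocked at all its far apart bags. -/
theorem claimA_of_far (h6 : ∀ c ∈ H, c.card = 6) (hM : PD M) (no : NoAug H M) (J : ℕ)
    {c : Finset V} (hc : c ∈ H)
    (hfar : ∀ a ∈ ends M c, ∀ b ∈ ends M c, a ≠ b →
      Disjoint (terrBig H M J a) (terrBig H M J b))
    {j : ℕ} (hj : j ≤ J + 1) : ∃ e ∈ ends M c, Covers c (strFam H M (tt j) e) := by
  by_contra hcon
  push_neg at hcon
  have hEs : (ends M c).card ≤ 10 := (ends_card_le hM (h6 c hc)).trans (by norm_num)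
  have hT : c.card ≤ 12 := by rw [h6 c hc]; norm_num
  obtain ⟨S, hS1, hS2⟩ := joint h6 (tt j) 10 12 (ends M c) c hEs hT
    (fun a ha b hb hab => far_of_terrBig hj (hfar a ha b hb hab)) hcon
  have hGl := glue_props (Gs := {c}) (Es := ends M c) (S := S) h6
    (singleton_subset_iff.2 hc)
    (by
      intro x hx y hy hxy
      have hx' : x = c := mem_singleton.1 hx
      have hy' : y = c := mem_singleton.1 hy
      exact absurd (hx'.trans hy'.symm) hxy)
    (fun a ha => (hS1 a ha).1.1)
    (fun a ha => (hS1 a ha).1.2.1)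
    hS2
    (fun g hg a ha => by
      rw [mem_singleton.1 hg]
      exact (hS1 a ha).2)
  obtain ⟨hU1, hU2, hU3⟩ := hGl
  have h1 := no _ hU1 hU2
  have h2 : endsOf M ({c} ∪ (ends M c).biUnion S) ⊆
      (ends M c).biUnion fun a => endsOf M (S a) := by
    intro x hx
    rcases mem_union.1 (endsOf_glue_sub {c} (ends M c) S hx) with h | h
    · have hx' : x ∈ ends M c := by simpa [endsOf] using h
      exact mem_biUnion.2 ⟨x, hx', (hS1 x hx').1.2.2.2.1⟩
    · exact h
  have h3 := (card_le_card h2).trans (sum_ends_le (fun a ha => (hS1 a ha).1.2.2.1))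
  rw [hU3, card_singleton] at h1
  omega

/-- If `g` is blocked at its other bags and `c` does not touch their territories and misses `g`,
then `g` with structures there is a structure at `e` avoiding `c`. -/
theorem cross_B (h6 : ∀ c ∈ H, c.card = 6) (hM : PD M) (J : ℕ) {e : Finset V} {j : ℕ} (hj : j ≤ J)
    {c g : Finset V} (hc6 : c.card = 6) (hg : g ∈ H) (he : e ∈ ends M g)
    (hfar : ∀ a ∈ ends M g, ∀ b ∈ ends M g, a ≠ e → b ≠ e → a ≠ b →
      Disjoint (terrBig H M J a) (terrBig H M J b))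
    (hblock : ∀ a ∈ ends M g, a ≠ e → ¬ Covers g (strFam H M (tt j) a))
    (hcov : Covers c (strFam H M (tt (j + 1)) e)) :
    (c ∩ g).Nonempty ∨ ∃ a ∈ ends M g, a ≠ e ∧ (c ∩ terrBig H M J a).Nonempty := by
  by_contra hcon
  push_neg at hcon
  obtain ⟨hcg, hoff⟩ := hcon
  have hcard6 : (ends M g).card ≤ 6 := ends_card_le hM (h6 g hg)
  have hEs5 : ((ends M g).erase e).card ≤ 5 := by
    rw [card_erase_of_mem he]
    omega
  have hT : (c ∪ g).card ≤ 12 := (card_union_le c g).trans (by rw [hc6, h6 g hg])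
  have hjj : j ≤ J + 1 := by omega
  have hnc : ∀ a ∈ (ends M g).erase e, ¬ Covers (c ∪ g) (strFam H M (tt j) a) := by
    intro a ha hcv
    obtain ⟨hae, hag⟩ := mem_erase.1 ha
    exact hblock a hag hae (covers_of_union_off hjj hT
      (by
        rw [not_nonempty_iff_eq_empty]
        exact hoff a hag hae) hcv)
  obtain ⟨S, hS1, hS2⟩ := joint h6 (tt j) 10 12 ((ends M g).erase e) (c ∪ g) (by omega) hT
    (fun a ha b hb hab => by
      obtain ⟨hae, hag⟩ := mem_erase.1 ha
      obtain ⟨hbe, hbg⟩ := mem_erase.1 hb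
      exact far_of_terrBig hjj (hfar a hag b hbg hae hbe hab)) hnc
  have hGl := glue_props (Gs := {g}) (Es := (ends M g).erase e) (S := S) h6
    (singleton_subset_iff.2 hg)
    (by
      intro x hx y hy hxy
      have hx' : x = g := mem_singleton.1 hx
      have hy' : y = g := mem_singleton.1 hy
      exact absurd (hx'.trans hy'.symm) hxy)
    (fun a ha => (hS1 a ha).1.1)
    (fun a ha => (hS1 a ha).1.2.1)
    hS2
    (fun g' hg' a ha => by
      rw [mem_singleton.1 hg']
      exact (hS1 a ha).2.mono_right subset_union_right)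
  obtain ⟨hU1, hU2, hU3⟩ := hGl
  have h2 : endsOf M ({g} ∪ ((ends M g).erase e).biUnion S) ⊆
      insert e (((ends M g).erase e).biUnion fun a => endsOf M (S a)) := by
    intro x hx
    rcases mem_union.1 (endsOf_glue_sub {g} ((ends M g).erase e) S hx) with h | h
    · have hx' : x ∈ ends M g := by simpa [endsOf] using h
      by_cases hxe : x = e
      · exact mem_insert.2 (Or.inl hxe)
      · have hmem : x ∈ (ends M g).erase e := mem_erase.2 ⟨hxe, hx'⟩
        exact mem_insert_of_mem (mem_biUnion.2 ⟨x, hmem, (hS1 x hmem).1.2.2.2.1⟩)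
    · exact mem_insert_of_mem h
  have h3 : (endsOf M ({g} ∪ ((ends M g).erase e).biUnion S)).card ≤
      1 + ∑ a ∈ (ends M g).erase e, (S a).card := by
    refine (card_le_card h2).trans ((card_insert_le _ _).trans ?_)
    have := sum_ends_le (M := M) (Es := (ends M g).erase e) (S := S)
      (fun a ha => (hS1 a ha).1.2.2.1)
    omega
  have hsum : ∑ a ∈ (ends M g).erase e, (S a).card ≤ 5 * tt j := by
    refine (sum_le_card_nsmul _ _ (tt j) (fun a ha => (hS1 a ha).1.2.2.2.2)).trans ?_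
    rw [smul_eq_mul]
    exact Nat.mul_le_mul_right _ hEs5
  have hstr : IsStr H M (tt (j + 1)) e ({g} ∪ ((ends M g).erase e).biUnion S) := by
    refine ⟨hU1, hU2, ?_, ?_, ?_⟩
    · rw [hU3, card_singleton]
      exact h3
    · exact mem_biUnion.2 ⟨g, mem_union_left _ (mem_singleton_self g), he⟩
    · rw [hU3, card_singleton]
      show _ ≤ 5 * tt j + 1
      omega
  have hmem : vset ({g} ∪ ((ends M g).erase e).biUnion S) ∈ strFam H M (tt (j + 1)) e := by
    unfold strFam
    exact mem_image.2 ⟨_, mem_filter.2 ⟨mem_univ _, hstr⟩, rfl⟩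
  obtain ⟨x, hx⟩ := hcov _ hmem
  obtain ⟨hxc, hxU⟩ := mem_inter.1 hx
  obtain ⟨f, hf, hxf⟩ := mem_biUnion.1 hxU
  rcases mem_union.1 hf with h | h
  · rw [mem_singleton.1 h] at hxf
    have : x ∈ c ∩ g := mem_inter.2 ⟨hxc, hxf⟩
    rw [hcg] at this
    simp at this
  · obtain ⟨a, ha, hfa⟩ := mem_biUnion.1 h
    exact (disjoint_left.1 (hS1 a ha).2) (sub_vset hfa hxf) (mem_union_left _ hxc)

/-- Two edges blocked at their other bags, disjoint and not interfering, give an augmentation. -/
theorem cross_A (h6 : ∀ c ∈ H, c.card = 6) (hM : PD M) (no : NoAug H M) (J : ℕ) {e : Finset V}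
    {g g' : Finset V} (hg : g ∈ H) (hg' : g' ∈ H) (he : e ∈ ends M g) (he' : e ∈ ends M g')
    (hfar : ∀ a ∈ ends M g, ∀ b ∈ ends M g, a ≠ e → b ≠ e → a ≠ b →
      Disjoint (terrBig H M J a) (terrBig H M J b))
    (hfar' : ∀ a ∈ ends M g', ∀ b ∈ ends M g', a ≠ e → b ≠ e → a ≠ b →
      Disjoint (terrBig H M J a) (terrBig H M J b))
    (hblock : ∀ a ∈ ends M g, a ≠ e → ¬ Covers g (strFam H M (tt J) a))
    (hblock' : ∀ a ∈ ends M g', a ≠ e → ¬ Covers g' (strFam H M (tt J) a)) :
    (g ∩ g').Nonempty ∨ (∃ a ∈ ends M g, a ≠ e ∧ (g' ∩ terrBig H M J a).Nonempty) ∨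
      (∃ a ∈ ends M g', a ≠ e ∧ (g ∩ terrBig H M J a).Nonempty) ∨
      ∃ a ∈ ends M g, a ≠ e ∧ ∃ b ∈ ends M g', b ≠ e ∧
        ¬ Disjoint (terrBig H M J a) (terrBig H M J b) := by
  by_contra hcon
  push_neg at hcon
  obtain ⟨hgg, hoff1, hoff2, hcross⟩ := hcon
  have hc1 : (ends M g).card ≤ 6 := ends_card_le hM (h6 g hg)
  have hc2 : (ends M g').card ≤ 6 := ends_card_le hM (h6 g' hg')
  have hp1 : ((ends M g).erase e).card ≤ 5 := by
    rw [card_erase_of_mem he]
    omega
  have hp2 : ((ends M g').erase e).card ≤ 5 := by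
    rw [card_erase_of_mem he']
    omega
  have hEsdef : ((ends M g ∪ ends M g').erase e) = (ends M g).erase e ∪ (ends M g').erase e :=
    erase_union_distrib _ _ _
  have hEs : ((ends M g ∪ ends M g').erase e).card ≤ 10 := by
    rw [hEsdef]
    exact (card_union_le _ _).trans (by omega)
  have hT : (g ∪ g').card ≤ 12 := (card_union_le g g').trans (by rw [h6 g hg, h6 g' hg'])
  have hjj : J ≤ J + 1 := by omega
  have hT' : (g' ∪ g).card ≤ 12 := by rwa [union_comm]
  have hnc : ∀ a ∈ (ends M g ∪ ends M g').erase e,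
      ¬ Covers (g ∪ g') (strFam H M (tt J) a) := by
    intro a ha hcv
    obtain ⟨hae, hag⟩ := mem_erase.1 ha
    rcases mem_union.1 hag with hag | hag
    · rw [union_comm] at hcv
      exact hblock a hag hae (covers_of_union_off hjj hT'
        (by
          rw [not_nonempty_iff_eq_empty]
          exact hoff1 a hag hae) hcv)
    · exact hblock' a hag hae (covers_of_union_off hjj hT
        (by
          rw [not_nonempty_iff_eq_empty]
          exact hoff2 a hag hae) hcv)
  have hfarEs : ∀ a ∈ (ends M g ∪ ends M g').erase e, ∀ b ∈ (ends M g ∪ ends M g').erase e,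
      a ≠ b → Disjoint (terrOf (sig (tt J) 10 12) (strFam H M (tt J) a))
        (terrOf (sig (tt J) 10 12) (strFam H M (tt J) b)) := by
    intro a ha b hb hab
    obtain ⟨hae, hag⟩ := mem_erase.1 ha
    obtain ⟨hbe, hbg⟩ := mem_erase.1 hb
    apply far_of_terrBig hjj
    rcases mem_union.1 hag with hag | hag <;> rcases mem_union.1 hbg with hbg | hbg
    · exact hfar a hag b hbg hae hbe hab
    · exact hcross a hag hae b hbg hbe
    · exact (hcross b hbg hbe a hag hae).symm
    · exact hfar' a hag b hbg hae hbe hab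
  obtain ⟨S, hS1, hS2⟩ := joint h6 (tt J) 10 12 _ (g ∪ g') hEs hT hfarEs hnc
  have hne : g ≠ g' := by
    intro h
    obtain ⟨x, hx⟩ := edge_nonempty h6 hg
    have : x ∈ g ∩ g' := mem_inter.2 ⟨hx, h ▸ hx⟩
    rw [hgg] at this
    simp at this
  have hGl := glue_props (Gs := {g, g'}) (Es := (ends M g ∪ ends M g').erase e) (S := S) h6
    (by
      intro x hx
      rcases mem_insert.1 hx with h | h
      · exact h ▸ hg
      · exact (mem_singleton.1 h) ▸ hg')
    (by
      intro x hx y hy hxy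
      have hdg : Disjoint g g' := disjoint_iff_inter_eq_empty.2 hgg
      have hx' : x = g ∨ x = g' := by simpa using hx
      have hy' : y = g ∨ y = g' := by simpa using hy
      show Disjoint x y
      rcases hx' with rfl | rfl <;> rcases hy' with rfl | rfl
      · exact absurd rfl hxy
      · exact hdg
      · exact hdg.symm
      · exact absurd rfl hxy)
    (fun a ha => (hS1 a ha).1.1)
    (fun a ha => (hS1 a ha).1.2.1)
    hS2
    (fun f hf a ha => by
      have hf' : f = g ∨ f = g' := by simpa using hf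
      rcases hf' with rfl | rfl
      · exact (hS1 a ha).2.mono_right subset_union_left
      · exact (hS1 a ha).2.mono_right subset_union_right)
  obtain ⟨hU1, hU2, hU3⟩ := hGl
  have h1 := no _ hU1 hU2
  have h2 : endsOf M ({g, g'} ∪ ((ends M g ∪ ends M g').erase e).biUnion S) ⊆
      insert e (((ends M g ∪ ends M g').erase e).biUnion fun a => endsOf M (S a)) := by
    intro x hx
    rcases mem_union.1 (endsOf_glue_sub {g, g'} ((ends M g ∪ ends M g').erase e) S hx) with h | h
    · have hx' : x ∈ ends M g ∪ ends M g' := by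
        obtain ⟨f, hf, hxf⟩ := mem_biUnion.1 h
        have hf' : f = g ∨ f = g' := by simpa using hf
        rcases hf' with rfl | rfl
        · exact mem_union_left _ hxf
        · exact mem_union_right _ hxf
      by_cases hxe : x = e
      · exact mem_insert.2 (Or.inl hxe)
      · have hmem : x ∈ (ends M g ∪ ends M g').erase e := mem_erase.2 ⟨hxe, hx'⟩
        exact mem_insert_of_mem (mem_biUnion.2 ⟨x, hmem, (hS1 x hmem).1.2.2.2.1⟩)
    · exact mem_insert_of_mem h
  have h3 := (card_le_card h2).trans (card_insert_le _ _)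
  have h4 := sum_ends_le (M := M) (Es := (ends M g ∪ ends M g').erase e) (S := S)
    (fun a ha => (hS1 a ha).1.2.2.1)
  have h5 : ({g, g'} : Finset (Finset V)).card = 2 := card_pair hne
  rw [hU3, h5] at h1
  omega

end Vale.Agent.Lib.P045R
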